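import Mathlib

open Filter Topology
open scoped BigOperators

namespace Vale.Agent.P043Six

variable {G : Type*} [AddCommGroup G]

section act
variable {k : Type*} [CommRing k]

/-- The shift of a function on the group. -/
def shift (u : G) (h : G → k) : G → k := fun x => h (x - u)

/-- The shift as a linear endomorphism. -/
def shiftEnd (k : Type*) [CommRing k] (u : G) : Module.End k (G → k) where
  toFun := shift u
  map_add' _ _ := rfl
  map_smul' _ _ := rfl

/-- The shifts as a monoid hom. -/
def shiftHom (k : Type*) [CommRing k] (G : Type*) [AddCommGroup G] :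
    Multiplicative G →* Module.End k (G → k) where
  toFun u := shiftEnd k (Multiplicative.toAdd u)
  map_one' := by
    ext h x
    simp [shiftEnd, shift]
  map_mul' u v := by
    ext h x
    simp only [shiftEnd, shift, toAdd_mul, Module.End.mul_apply, LinearMap.coe_mk, AddHom.coe_mk]
    congr 1
    abel_nf

/-- The action of the group algebra on functions. -/
noncomputable def act (k : Type*) [CommRing k] (G : Type*) [AddCommGroup G] :
    AddMonoidAlgebra k G →ₐ[k] Module.End k (G → k) :=
  AddMonoidAlgebra.lift k (Module.End k (G → k)) G (shiftHom k G)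

/-- The translation element of the group algebra. -/
noncomputable def tr (k : Type*) [CommRing k] (u : G) : AddMonoidAlgebra k G :=
  AddMonoidAlgebra.single u 1

lemma act_tr (u : G) (h : G → k) (x : G) : act k G (tr k u) h x = h (x - u) := by
  simp [act, tr, AddMonoidAlgebra.lift_single, shiftHom, shiftEnd, shift]

lemma tr_add (u v : G) : tr k (u + v) = tr k u * tr k v := by
  simp [tr, AddMonoidAlgebra.single_mul_single]

lemma tr_zero : tr k (0 : G) = 1 := rfl

lemma act_add_left (c d : AddMonoidAlgebra k G) (h : G → k) :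
    act k G (c + d) h = act k G c h + act k G d h := by
  simp [map_add]

lemma act_mul_left (c d : AddMonoidAlgebra k G) (h : G → k) :
    act k G (c * d) h = act k G c (act k G d h) := by
  simp [map_mul, Module.End.mul_apply]

lemma act_sub_left (c d : AddMonoidAlgebra k G) (h : G → k) :
    act k G (c - d) h = act k G c h - act k G d h := by
  simp [map_sub]

lemma act_one_left (h : G → k) : act k G 1 h = h := by
  simp [map_one]

lemma act_add_right (c : AddMonoidAlgebra k G) (h h' : G → k) :
    act k G c (h + h') = act k G c h + act k G c h' := map_add _ _ _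

lemma act_sub_right (c : AddMonoidAlgebra k G) (h h' : G → k) :
    act k G c (h - h') = act k G c h - act k G c h' := map_sub _ _ _

lemma act_zero_right (c : AddMonoidAlgebra k G) : act k G c (0 : G → k) = 0 := map_zero _

lemma act_sum_left {ι : Type*} (s : Finset ι) (c : ι → AddMonoidAlgebra k G) (h : G → k) :
    act k G (∑ i ∈ s, c i) h = ∑ i ∈ s, act k G (c i) h := by
  rw [map_sum, LinearMap.sum_apply]

lemma act_comm (c d : AddMonoidAlgebra k G) (h : G → k) :
    act k G c (act k G d h) = act k G d (act k G c h) := by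
  rw [← act_mul_left, ← act_mul_left, mul_comm]

lemma act_smul_left (a : k) (c : AddMonoidAlgebra k G) (h : G → k) :
    act k G (a • c) h = a • act k G c h := by
  simp [map_smul]

end act

/-! ### Bounded functions and means -/

/-- Bounded real functions on the group. -/
def Bd (h : G → ℝ) : Prop := ∃ C : ℝ, ∀ x, |h x| ≤ C

lemma Bd.add {h h' : G → ℝ} (a : Bd h) (b : Bd h') : Bd (h + h') := by
  obtain ⟨C, hC⟩ := a
  obtain ⟨D, hD⟩ := b
  refine ⟨C + D, fun x => ?_⟩
  simp only [Pi.add_apply]
  exact (abs_add_le _ _).trans (add_le_add (hC x) (hD x))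

lemma Bd.smul {h : G → ℝ} (a : Bd h) (r : ℝ) : Bd (r • h) := by
  obtain ⟨C, hC⟩ := a
  refine ⟨|r| * C, fun x => ?_⟩
  simp only [Pi.smul_apply, smul_eq_mul, abs_mul]
  exact mul_le_mul_of_nonneg_left (hC x) (abs_nonneg _)

lemma Bd.shift {h : G → ℝ} (a : Bd h) (u : G) : Bd (fun x => h (x - u)) := by
  obtain ⟨C, hC⟩ := a
  exact ⟨C, fun x => hC _⟩

lemma Bd.act {h : G → ℝ} (a : Bd h) (c : AddMonoidAlgebra ℝ G) : Bd (act ℝ G c h) := by
  induction c using AddMonoidAlgebra.induction_linear with
  | zero =>
    refine ⟨0, fun x => ?_⟩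
    simp
  | add p q hp hq =>
    rw [act_add_left]
    exact hp.add hq
  | single u r =>
    have : (AddMonoidAlgebra.single u r : AddMonoidAlgebra ℝ G) = r • tr ℝ u := by
      simp [tr]
    rw [this, act_smul_left]
    refine Bd.smul ?_ r
    have h2 : Vale.Agent.P043Six.act ℝ G (tr ℝ u) h = fun x => h (x - u) := by
      ext x
      rw [act_tr]
    rw [h2]
    exact a.shift u

/-- Ultrafilter limit of a real sequence. -/
noncomputable def ulim (a : ℕ → ℝ) : ℝ := limUnder (hyperfilter ℕ : Filter ℕ) a

lemma ulim_spec {a : ℕ → ℝ} {C : ℝ} (ha : ∀ n, |a n| ≤ C) :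
    Tendsto a (hyperfilter ℕ : Filter ℕ) (𝓝 (ulim a)) := by
  have hc : IsCompact (Set.Icc (-C) C) := isCompact_Icc
  let U : Ultrafilter ℝ := (hyperfilter ℕ).map a
  have hU : (U : Filter ℝ) ≤ 𝓟 (Set.Icc (-C) C) := by
    rw [le_principal_iff]
    show Set.Icc (-C) C ∈ Filter.map a ((hyperfilter ℕ : Ultrafilter ℕ) : Filter ℕ)
    rw [Filter.mem_map]
    refine Filter.univ_mem' fun n => ?_
    exact abs_le.mp (ha n)
  obtain ⟨y, -, hy⟩ := hc.ultrafilter_le_nhds U hU
  have ht : Tendsto a (hyperfilter ℕ : Filter ℕ) (𝓝 y) := hy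
  have : ulim a = y := ht.limUnder_eq
  rw [this]
  exact ht

/-- Cesaro average along multiples of `u`. -/
noncomputable def ces (u : G) (h : G → ℝ) (x : G) (n : ℕ) : ℝ :=
  (∑ j ∈ Finset.range (n + 1), h (x + j • u)) / (n + 1)

lemma ces_bound {u : G} {h : G → ℝ} {C : ℝ} (hC : ∀ x, |h x| ≤ C) (x : G) (n : ℕ) :
    |ces u h x n| ≤ C := by
  unfold ces
  have hn : (0 : ℝ) < (n : ℝ) + 1 := by positivity
  rw [abs_div, abs_of_pos hn, div_le_iff₀ hn]
  calc |∑ j ∈ Finset.range (n + 1), h (x + j • u)|
      ≤ ∑ j ∈ Finset.range (n + 1), |h (x + j • u)| := Finset.abs_sum_le_sum_abs _ _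
    _ ≤ ∑ _j ∈ Finset.range (n + 1), C := Finset.sum_le_sum fun j _ => hC _
    _ = C * ((n : ℝ) + 1) := by
      rw [Finset.sum_const, Finset.card_range, nsmul_eq_mul]
      push_cast
      ring

/-- The mean along multiples of `u`. -/
noncomputable def mean (u : G) (h : G → ℝ) (x : G) : ℝ := ulim (ces u h x)

lemma mean_tendsto {u : G} {h : G → ℝ} (hb : Bd h) (x : G) :
    Tendsto (ces u h x) (hyperfilter ℕ : Filter ℕ) (𝓝 (mean u h x)) := by
  obtain ⟨C, hC⟩ := hb
  exact ulim_spec (ces_bound hC x)

lemma mean_add {u : G} {h h' : G → ℝ} (hb : Bd h) (hb' : Bd h') :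
    mean u (h + h') = mean u h + mean u h' := by
  ext x
  have h1 := (mean_tendsto (u := u) hb x).add (mean_tendsto (u := u) hb' x)
  have h2 := mean_tendsto (u := u) (hb.add hb') x
  refine tendsto_nhds_unique h2 (h1.congr fun n => ?_)
  simp only [ces, Pi.add_apply, Finset.sum_add_distrib, add_div]

lemma mean_smul {u : G} {h : G → ℝ} (hb : Bd h) (r : ℝ) :
    mean u (r • h) = r • mean u h := by
  ext x
  have h1 := (mean_tendsto (u := u) hb x).const_mul r
  have h2 := mean_tendsto (u := u) (hb.smul r) x
  refine tendsto_nhds_unique h2 (h1.congr fun n => ?_)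
  simp only [ces, Pi.smul_apply, smul_eq_mul, ← Finset.mul_sum, mul_div_assoc]

lemma mean_shift {u : G} {h : G → ℝ} (v : G) :
    mean u (fun x => h (x - v)) = fun x => mean u h (x - v) := by
  ext x
  unfold mean
  congr 1
  ext n
  unfold ces
  congr 1
  refine Finset.sum_congr rfl fun j _ => ?_
  congr 1
  abel_nf

lemma mean_act {u : G} {h : G → ℝ} (hb : Bd h) (c : AddMonoidAlgebra ℝ G) :
    mean u (act ℝ G c h) = act ℝ G c (mean u h) := by
  induction c using AddMonoidAlgebra.induction_linear with
  | zero =>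
    ext x
    simp only [map_zero, LinearMap.zero_apply, Pi.zero_apply]
    have h1 : Tendsto (ces u (0 : G → ℝ) x) (hyperfilter ℕ : Filter ℕ) (𝓝 0) := by
      refine tendsto_const_nhds.congr fun n => ?_
      simp [ces]
    exact tendsto_nhds_unique (mean_tendsto (u := u) (h := 0) ⟨0, by simp⟩ x) h1
  | add p q hp hq =>
    rw [act_add_left, act_add_left, mean_add (hb.act p) (hb.act q), hp, hq]
  | single v r =>
    have : (AddMonoidAlgebra.single v r : AddMonoidAlgebra ℝ G) = r • tr ℝ v := by
      simp [tr]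
    rw [this, act_smul_left, act_smul_left, mean_smul (hb.act _)]
    congr 1
    have h2 : ∀ f : G → ℝ, Vale.Agent.P043Six.act ℝ G (tr ℝ v) f = fun x => f (x - v) := by
      intro f
      ext x
      rw [act_tr]
    rw [h2, h2, mean_shift]

lemma mean_bd {u : G} {h : G → ℝ} (hb : Bd h) : Bd (mean u h) := by
  obtain ⟨C, hC⟩ := hb
  refine ⟨C, fun x => ?_⟩
  have h1 := ulim_spec (a := ces u h x) (ces_bound hC x)
  have h2 : Tendsto (fun n => |ces u h x n|) (hyperfilter ℕ : Filter ℕ) (𝓝 |mean u h x|) :=
    h1.abs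
  exact le_of_tendsto' h2 fun n => ces_bound hC x n

lemma ge_of_forall {u : G} {h : G → ℝ} (hb : Bd h) {x : G} {c : ℝ}
    (hc : ∀ j : ℕ, c ≤ h (x + j • u)) : c ≤ mean u h x := by
  have h1 := mean_tendsto (u := u) hb x
  refine ge_of_tendsto' h1 fun n => ?_
  unfold ces
  have hn : (0 : ℝ) < (n : ℝ) + 1 := by positivity
  have : c * ((n : ℝ) + 1) ≤ ∑ j ∈ Finset.range (n + 1), h (x + j • u) := by
    calc c * ((n : ℝ) + 1) = ∑ _j ∈ Finset.range (n + 1), c := by
          rw [Finset.sum_const, Finset.card_range, nsmul_eq_mul]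
          push_cast
          ring
      _ ≤ _ := Finset.sum_le_sum fun j _ => hc j
  exact (le_div_iff₀ hn).mpr this

lemma le_of_forall {u : G} {h : G → ℝ} (hb : Bd h) {x : G} {c : ℝ}
    (hc : ∀ j : ℕ, h (x + j • u) ≤ c) : mean u h x ≤ c := by
  have h1 := mean_tendsto (u := u) hb x
  refine le_of_tendsto' h1 fun n => ?_
  unfold ces
  have hn : (0 : ℝ) < (n : ℝ) + 1 := by positivity
  have : ∑ j ∈ Finset.range (n + 1), h (x + j • u) ≤ c * ((n : ℝ) + 1) := by
    calc _ ≤ ∑ _j ∈ Finset.range (n + 1), c := Finset.sum_le_sum fun j _ => hc j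
      _ = c * ((n : ℝ) + 1) := by
          rw [Finset.sum_const, Finset.card_range, nsmul_eq_mul]
          push_cast
          ring
  exact (div_le_iff₀ hn).mpr this

lemma mean_pos_exists {u : G} {h : G → ℝ} (hb : Bd h) {x : G} (hp : 0 < mean u h x) :
    ∃ j : ℕ, 0 < h (x + j • u) := by
  by_contra hcon
  push Not at hcon
  exact absurd (le_of_forall hb hcon) (not_le.mpr hp)

/-- The mean is invariant along `u`. -/
lemma mean_invariant {u : G} {h : G → ℝ} (hb : Bd h) (x : G) :
    mean u h (x + u) = mean u h x := by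
  obtain ⟨C, hC⟩ := id hb
  have h1 := mean_tendsto (u := u) hb (x + u)
  have h2 := mean_tendsto (u := u) hb x
  have h3 : Tendsto (fun n : ℕ => ces u h (x + u) n - ces u h x n)
      (hyperfilter ℕ : Filter ℕ) (𝓝 0) := by
    have hcof : Tendsto (fun n : ℕ => (h (x + (n + 1) • u) - h x) / ((n : ℝ) + 1))
        cofinite (𝓝 0) := by
      rw [Nat.cofinite_eq_atTop]
      have hb2 : ∀ n : ℕ, |(h (x + (n + 1) • u) - h x) / ((n : ℝ) + 1)| ≤ (2 * C) / ((n : ℝ) + 1) := by
        intro n
        have hn : (0 : ℝ) < (n : ℝ) + 1 := by positivity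
        rw [abs_div, abs_of_pos hn]
        apply div_le_div_of_nonneg_right _ hn.le
        calc |h (x + (n + 1) • u) - h x| ≤ |h (x + (n + 1) • u)| + |h x| := abs_sub _ _
          _ ≤ C + C := add_le_add (hC _) (hC _)
          _ = 2 * C := by ring
      have hlim : Tendsto (fun n : ℕ => (2 * C) / ((n : ℝ) + 1)) atTop (𝓝 0) := by
        have := (tendsto_one_div_add_atTop_nhds_zero_nat (𝕜 := ℝ)).const_mul (2 * C)
        rw [mul_zero] at this
        refine this.congr fun n => ?_
        rw [mul_one_div]
      exact squeeze_zero_norm (fun n => by rw [Real.norm_eq_abs]; exact hb2 n) hlim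
    have hle : ((hyperfilter ℕ : Ultrafilter ℕ) : Filter ℕ) ≤ cofinite := hyperfilter_le_cofinite
    refine (hcof.mono_left hle).congr fun n => ?_
    unfold ces
    have hn : ((n : ℝ) + 1) ≠ 0 := by positivity
    rw [← sub_div]
    congr 1
    have hs : ∑ j ∈ Finset.range (n + 1), h (x + u + j • u)
        = ∑ j ∈ Finset.range (n + 1), h (x + (j + 1) • u) := by
      refine Finset.sum_congr rfl fun j _ => ?_
      congr 1
      rw [add_smul, one_smul]
      abel
    rw [hs, ← Finset.sum_sub_distrib]
    have := Finset.sum_range_sub (fun j : ℕ => h (x + j • u)) (n + 1)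
    simp only [zero_smul, add_zero] at this
    exact this.symm
  have h4 := h1.sub h2
  exact sub_eq_zero.mp (tendsto_nhds_unique h4 h3)

/-- The mean of an invariant function is the function. -/
lemma mean_eq_of_invariant {u : G} {h : G → ℝ} (hi : ∀ x, h (x + u) = h x) :
    mean u h = h := by
  ext x
  have hj : ∀ j : ℕ, h (x + j • u) = h x := by
    intro j
    induction j with
    | zero => simp
    | succ j ih =>
      rw [add_smul, one_smul, ← add_assoc, hi, ih]
  have hc : ∀ n, ces u h x n = h x := by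
    intro n
    unfold ces
    have hn : ((n : ℝ) + 1) ≠ 0 := by positivity
    rw [Finset.sum_congr rfl (fun j _ => hj j), Finset.sum_const, Finset.card_range, nsmul_eq_mul]
    push_cast
    field_simp
  have : ulim (ces u h x) = h x := by
    have h1 : Tendsto (ces u h x) (hyperfilter ℕ : Filter ℕ) (𝓝 (h x)) :=
      tendsto_const_nhds.congr fun n => (hc n).symm
    exact h1.limUnder_eq
  exact this

/-- The additive stabilizer of a function. -/
def Stab (h : G → ℝ) : AddSubgroup G where
  carrier := {y | ∀ x, h (x + y) = h x}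
  zero_mem' := by simp
  add_mem' := by
    intro a b ha hb x
    rw [← add_assoc, hb, ha]
  neg_mem' := by
    intro a ha x
    have := ha (x + -a)
    rw [neg_add_cancel_right] at this
    exact this.symm

lemma mem_Stab {h : G → ℝ} {y : G} : y ∈ Stab h ↔ ∀ x, h (x + y) = h x := Iff.rfl

lemma mean_mem_Stab {u : G} {h : G → ℝ} (hb : Bd h) : u ∈ Stab (mean u h) :=
  fun x => mean_invariant hb x

lemma mean_preserves_Stab {u v : G} {h : G → ℝ} (hv : v ∈ Stab h) : v ∈ Stab (mean u h) := by
  intro x
  have h1 : (fun y => h (y - v)) = h := by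
    ext y
    have := hv (y - v)
    rw [sub_add_cancel] at this
    exact this.symm
  have h2 := congrFun (mean_shift (u := u) (h := h) v) (x + v)
  rw [h1, add_sub_cancel_right] at h2
  exact h2

end Vale.Agent.P043Six
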