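import Vale.Agent.P043Six.Chars

open scoped BigOperators

namespace Vale.Agent.P043Six

variable {G : Type*} [AddCommGroup G]

/-- Block sums. -/
noncomputable def Bl (C : List G) (r : ℕ) : AddMonoidAlgebra ℝ G :=
  (C.map fun f => T (r • f)).sum

/-- Block sums with negative exponent. -/
noncomputable def BlNeg (C : List G) : AddMonoidAlgebra ℝ G :=
  (C.map fun f => T (-f)).sum

/-- Functions whose stabilizer contains `n • D`. -/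
def InvD (D : AddSubgroup G) (n : ℕ) (h : G → ℝ) : Prop := ∀ y ∈ D, n • y ∈ Stab h

lemma InvD.ac {D : AddSubgroup G} {n : ℕ} {h : G → ℝ} (hh : InvD D n h)
    (c : AddMonoidAlgebra ℝ G) : InvD D n (ac c h) :=
  fun y hy => mem_Stab_ac c (hh y hy)

lemma T_block {D : AddSubgroup G} {n : ℕ} {h : G → ℝ} (hh : InvD D n h) {f g : G} (hfg : f - g ∈ D)
    {L : ℕ} (hd : n ∣ L) : T (L • f) - T (L • g) ∈ annI h := by
  obtain ⟨c, rfl⟩ := hd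
  have h1 : (n * c) • (f - g) ∈ Stab h := by
    rw [mul_comm, mul_smul]
    exact AddSubgroup.nsmul_mem _ (hh _ hfg) _
  have e : T ((n * c) • f) - T ((n * c) • g) = T ((n * c) • g) * (T ((n * c) • (f - g)) - 1) := by
    rw [mul_sub, ← T_add, ← smul_add, mul_one]
    congr 3
    abel
  rw [e]
  exact (annI h).mul_mem_left _ (ac_sub_of_mem_Stab h1)

lemma Bl_shift {D : AddSubgroup G} {n : ℕ} {h : G → ℝ} (hh : InvD D n h) {C : List G} {t : G}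
    (hC : ∀ f ∈ C, f - t ∈ D) {L : ℕ} (hd : n ∣ L) (r : ℕ) :
    Bl C (r + L) - Bl C r * T (L • t) ∈ annI h := by
  induction C with
  | nil =>
    simp [Bl]
  | cons f C ih =>
    have h1 := ih fun g hg => hC g (List.mem_cons_of_mem _ hg)
    have h2 := T_block hh (hC f List.mem_cons_self) hd
    have e : Bl (f :: C) (r + L) - Bl (f :: C) r * T (L • t)
        = T (r • f) * (T (L • f) - T (L • t)) + (Bl C (r + L) - Bl C r * T (L • t)) := by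
      simp only [Bl, List.map_cons, List.sum_cons, add_smul, T_add]
      ring
    rw [e]
    exact (annI h).add_mem ((annI h).mul_mem_left _ h2) h1

lemma Bl_neg_form {D : AddSubgroup G} {n : ℕ} {h : G → ℝ} (hh : InvD D n h) {C : List G} {t : G}
    (hC : ∀ f ∈ C, f - t ∈ D) {L : ℕ} (hd : n ∣ L) (hL : 1 ≤ L) :
    Bl C (L - 1) - T (L • t) * BlNeg C ∈ annI h := by
  induction C with
  | nil =>
    simp [Bl, BlNeg]
  | cons f C ih =>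
    have h1 := ih fun g hg => hC g (List.mem_cons_of_mem _ hg)
    have h2 := T_block hh (hC f List.mem_cons_self) hd
    have e0 : T ((L - 1) • f) = T (L • f) * T (-f) := by
      rw [← T_add]
      congr 1
      obtain ⟨m, rfl⟩ : ∃ m, L = m + 1 := ⟨L - 1, by omega⟩
      simp [add_smul]
    have e : Bl (f :: C) (L - 1) - T (L • t) * BlNeg (f :: C)
        = T (-f) * (T (L • f) - T (L • t)) + (Bl C (L - 1) - T (L • t) * BlNeg C) := by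
      simp only [Bl, BlNeg, List.map_cons, List.sum_cons, e0]
      ring
    rw [e]
    exact (annI h).add_mem ((annI h).mul_mem_left _ h2) h1

section cls

variable {F : Finset G} {δ : G → ℝ}

lemma dil_sub_mem (hδ : Cls F δ) {r r' : ℕ} (hr : r.Coprime 6) (hr' : r'.Coprime 6) :
    dil F r - dil F r' ∈ annI δ := by
  rw [mem_annI, ac_sub, hδ.2 r hr, hδ.2 r' hr', sub_self]

lemma T_dil_mem (hδ : Cls F δ) (u : G) {r : ℕ} (hr : r.Coprime 6) :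
    (T u - 1) * dil F r ∈ annI δ := by
  rw [mem_annI, ac_mul, hδ.2 r hr, ac_sub, ac_one, ac_const_T, sub_self]

lemma coprime_add_of_dvd {r L : ℕ} (hr : r.Coprime 6) (hL : 6 ∣ L) : (r + L).Coprime 6 := by
  obtain ⟨k, rfl⟩ := hL
  unfold Nat.Coprime at *
  rw [show r + 6 * k = r + k * 6 by ring, Nat.gcd_add_mul_right_left]
  exact hr

lemma coprime_sub_one {L : ℕ} (hL : 6 ∣ L) (h0 : 0 < L) : (L - 1).Coprime 6 := by
  obtain ⟨k, rfl⟩ := hL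
  obtain ⟨m, rfl⟩ : ∃ m, k = m + 1 := ⟨k - 1, by omega⟩
  have : 6 * (m + 1) - 1 = 5 + 6 * m := by omega
  rw [this]
  exact coprime_add_of_dvd (by norm_num) (Dvd.intro _ rfl)

lemma unit_cancel {I : Ideal (AddMonoidAlgebra ℝ G)} {u : G} {c : AddMonoidAlgebra ℝ G}
    (h : T u * c ∈ I) : c ∈ I :=
  (Ideal.unit_mul_mem_iff_mem I (isUnit_T u)).mp h

lemma T_sub_factor (L : ℕ) (a b : G) :
    T (L • a) - T (L • b) = T (L • b) * (T (L • (a - b)) - 1) := by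
  rw [mul_sub, ← T_add, ← smul_add, mul_one]
  congr 3
  abel

/-- Elimination of two blocks. -/
lemma two_block (hδ : Cls F δ) {D : AddSubgroup G} {n : ℕ} (hh : InvD D n δ)
    {C₁ C₂ : List G} {t₁ t₂ : G} (hdec : ∀ r, dil F r = Bl C₁ r + Bl C₂ r)
    (hC₁ : ∀ f ∈ C₁, f - t₁ ∈ D) (hC₂ : ∀ f ∈ C₂, f - t₂ ∈ D)
    {L : ℕ} (hn : n ∣ L) (h6 : 6 ∣ L) {r : ℕ} (hr : r.Coprime 6) :
    (T (L • (t₁ - t₂)) - 1) * Bl C₁ r ∈ annI δ := by
  have h1 := dil_sub_mem hδ (coprime_add_of_dvd hr h6) hr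
  have h2 := T_dil_mem hδ (L • t₂) hr
  have h3 := Bl_shift hh hC₁ hn r
  have h4 := Bl_shift hh hC₂ hn r
  rw [hdec] at h1 h2
  rw [hdec] at h1
  apply unit_cancel (u := L • t₂)
  have e : T (L • t₂) * ((T (L • (t₁ - t₂)) - 1) * Bl C₁ r)
      = (Bl C₁ (r + L) + Bl C₂ (r + L) - (Bl C₁ r + Bl C₂ r))
        - (Bl C₁ (r + L) - Bl C₁ r * T (L • t₁)) - (Bl C₂ (r + L) - Bl C₂ r * T (L • t₂))
        - (T (L • t₂) - 1) * (Bl C₁ r + Bl C₂ r) := by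
    have := T_sub_factor L t₁ t₂
    linear_combination (-Bl C₁ r) * this
  rw [e]
  exact (annI δ).sub_mem ((annI δ).sub_mem ((annI δ).sub_mem h1 h3) h4) h2

/-- Elimination of two blocks, second block. -/
lemma two_block' (hδ : Cls F δ) {D : AddSubgroup G} {n : ℕ} (hh : InvD D n δ)
    {C₁ C₂ : List G} {t₁ t₂ : G} (hdec : ∀ r, dil F r = Bl C₁ r + Bl C₂ r)
    (hC₁ : ∀ f ∈ C₁, f - t₁ ∈ D) (hC₂ : ∀ f ∈ C₂, f - t₂ ∈ D)
    {L : ℕ} (hn : n ∣ L) (h6 : 6 ∣ L) {r : ℕ} (hr : r.Coprime 6) :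
    (T (L • (t₁ - t₂)) - 1) * Bl C₂ r ∈ annI δ := by
  have h0 := two_block hδ hh (C₁ := C₂) (C₂ := C₁) (t₁ := t₂) (t₂ := t₁)
    (fun r => by rw [hdec, add_comm]) hC₂ hC₁ hn h6 hr
  apply unit_cancel (u := L • t₂)
  have e : T (L • t₂) * ((T (L • (t₁ - t₂)) - 1) * Bl C₂ r)
      = (- T (L • t₁)) * ((T (L • (t₂ - t₁)) - 1) * Bl C₂ r) := by
    have e1 := T_sub_factor L t₁ t₂
    have e2 := T_sub_factor L t₂ t₁
    linear_combination (Bl C₂ r) * (-e1 - e2)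
  rw [e]
  exact (annI δ).mul_mem_left _ h0

/-- Negative exponents from the residue class of `-1`. -/
lemma two_block_neg (hδ : Cls F δ) {D : AddSubgroup G} {n : ℕ} (hn0 : 0 < n) (hh : InvD D n δ)
    {C₁ C₂ : List G} {t₁ t₂ : G} (hdec : ∀ r, dil F r = Bl C₁ r + Bl C₂ r)
    (hC₁ : ∀ f ∈ C₁, f - t₁ ∈ D) (hC₂ : ∀ f ∈ C₂, f - t₂ ∈ D)
    {L : ℕ} (hn : n ∣ L) (h6 : 6 ∣ L) :
    (T (L • (t₁ - t₂)) - 1) * BlNeg C₁ ∈ annI δ := by
  have hL' : 6 ∣ 6 * n := Dvd.intro _ rfl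
  have hL0 : 0 < 6 * n := by omega
  have h1 := two_block hδ hh hdec hC₁ hC₂ hn h6 (coprime_sub_one hL' hL0)
  have h2 := Bl_neg_form hh hC₁ (Dvd.intro_left 6 rfl) (by omega : 1 ≤ 6 * n)
  apply unit_cancel (u := (6 * n) • t₁)
  have e : T ((6 * n) • t₁) * ((T (L • (t₁ - t₂)) - 1) * BlNeg C₁)
      = (T (L • (t₁ - t₂)) - 1) * Bl C₁ (6 * n - 1)
        - (T (L • (t₁ - t₂)) - 1) * (Bl C₁ (6 * n - 1) - T ((6 * n) • t₁) * BlNeg C₁) := by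
    ring
  rw [e]
  exact (annI δ).sub_mem h1 ((annI δ).mul_mem_left _ h2)

/-- Negative exponents for the second block. -/
lemma two_block_neg' (hδ : Cls F δ) {D : AddSubgroup G} {n : ℕ} (hn0 : 0 < n) (hh : InvD D n δ)
    {C₁ C₂ : List G} {t₁ t₂ : G} (hdec : ∀ r, dil F r = Bl C₁ r + Bl C₂ r)
    (hC₁ : ∀ f ∈ C₁, f - t₁ ∈ D) (hC₂ : ∀ f ∈ C₂, f - t₂ ∈ D)
    {L : ℕ} (hn : n ∣ L) (h6 : 6 ∣ L) :
    (T (L • (t₁ - t₂)) - 1) * BlNeg C₂ ∈ annI δ := by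
  have hL' : 6 ∣ 6 * n := Dvd.intro _ rfl
  have hL0 : 0 < 6 * n := by omega
  have h1 := two_block' hδ hh hdec hC₁ hC₂ hn h6 (coprime_sub_one hL' hL0)
  have h2 := Bl_neg_form hh hC₂ (Dvd.intro_left 6 rfl) (by omega : 1 ≤ 6 * n)
  apply unit_cancel (u := (6 * n) • t₂)
  have e : T ((6 * n) • t₂) * ((T (L • (t₁ - t₂)) - 1) * BlNeg C₂)
      = (T (L • (t₁ - t₂)) - 1) * Bl C₂ (6 * n - 1)
        - (T (L • (t₁ - t₂)) - 1) * (Bl C₂ (6 * n - 1) - T ((6 * n) • t₂) * BlNeg C₂) := by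
    ring
  rw [e]
  exact (annI δ).sub_mem h1 ((annI δ).mul_mem_left _ h2)

/-- Elimination of three blocks. -/
lemma three_block (hδ : Cls F δ) {D : AddSubgroup G} {n : ℕ} (hh : InvD D n δ)
    {C₁ C₂ C₃ : List G} {t₁ t₂ t₃ : G} (hdec : ∀ r, dil F r = Bl C₁ r + Bl C₂ r + Bl C₃ r)
    (hC₁ : ∀ f ∈ C₁, f - t₁ ∈ D) (hC₂ : ∀ f ∈ C₂, f - t₂ ∈ D) (hC₃ : ∀ f ∈ C₃, f - t₃ ∈ D)
    {L₁ L₂ : ℕ} (hn₁ : n ∣ L₁) (h6₁ : 6 ∣ L₁) (hn₂ : n ∣ L₂) (h6₂ : 6 ∣ L₂)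
    {r : ℕ} (hr : r.Coprime 6) :
    (T (L₂ • (t₁ - t₂)) - 1) * ((T (L₁ • (t₁ - t₃)) - 1) * Bl C₁ r) ∈ annI δ := by
  set I := annI δ with hI
  -- `Z i r = (E i - E 3) X i`, with the relations at `r` and `r + L₂`
  have hrel : ∀ s : ℕ, s.Coprime 6 →
      (T (L₁ • t₁) - T (L₁ • t₃)) * Bl C₁ s + (T (L₁ • t₂) - T (L₁ • t₃)) * Bl C₂ s ∈ I := by
    intro s hs
    have h1 := dil_sub_mem hδ (coprime_add_of_dvd hs h6₁) hs
    have h2 := T_dil_mem hδ (L₁ • t₃) hs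
    have h3 := Bl_shift hh hC₁ hn₁ s
    have h4 := Bl_shift hh hC₂ hn₁ s
    have h5 := Bl_shift hh hC₃ hn₁ s
    rw [hdec] at h1 h2
    rw [hdec] at h1
    have e : (T (L₁ • t₁) - T (L₁ • t₃)) * Bl C₁ s + (T (L₁ • t₂) - T (L₁ • t₃)) * Bl C₂ s
        = (Bl C₁ (s + L₁) + Bl C₂ (s + L₁) + Bl C₃ (s + L₁) - (Bl C₁ s + Bl C₂ s + Bl C₃ s))
          - (Bl C₁ (s + L₁) - Bl C₁ s * T (L₁ • t₁))
          - (Bl C₂ (s + L₁) - Bl C₂ s * T (L₁ • t₂))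
          - (Bl C₃ (s + L₁) - Bl C₃ s * T (L₁ • t₃))
          - (T (L₁ • t₃) - 1) * (Bl C₁ s + Bl C₂ s + Bl C₃ s) := by
      ring
    rw [e]
    exact I.sub_mem (I.sub_mem (I.sub_mem (I.sub_mem h1 h3) h4) h5) h2
  have h0 := hrel r hr
  have h1 := hrel (r + L₂) (coprime_add_of_dvd hr h6₂)
  have s1 := Bl_shift hh hC₁ hn₂ r
  have s2 := Bl_shift hh hC₂ hn₂ r
  apply unit_cancel (u := L₂ • t₂)
  apply unit_cancel (u := L₁ • t₃)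
  have f1 := T_sub_factor L₂ t₁ t₂
  have f2 := T_sub_factor L₁ t₁ t₃
  have e : T (L₁ • t₃) * (T (L₂ • t₂) * ((T (L₂ • (t₁ - t₂)) - 1) *
        ((T (L₁ • (t₁ - t₃)) - 1) * Bl C₁ r)))
      = ((T (L₁ • t₁) - T (L₁ • t₃)) * Bl C₁ (r + L₂)
          + (T (L₁ • t₂) - T (L₁ • t₃)) * Bl C₂ (r + L₂))
        - (T (L₁ • t₁) - T (L₁ • t₃)) * (Bl C₁ (r + L₂) - Bl C₁ r * T (L₂ • t₁))
        - (T (L₁ • t₂) - T (L₁ • t₃)) * (Bl C₂ (r + L₂) - Bl C₂ r * T (L₂ • t₂))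
        - T (L₂ • t₂) * ((T (L₁ • t₁) - T (L₁ • t₃)) * Bl C₁ r
          + (T (L₁ • t₂) - T (L₁ • t₃)) * Bl C₂ r) := by
    have : T (L₁ • t₃) * (T (L₂ • t₂) * ((T (L₂ • (t₁ - t₂)) - 1) *
        ((T (L₁ • (t₁ - t₃)) - 1) * Bl C₁ r)))
        = (T (L₂ • t₂) * (T (L₂ • (t₁ - t₂)) - 1)) * ((T (L₁ • t₃) * (T (L₁ • (t₁ - t₃)) - 1)) *
          Bl C₁ r) := by ring
    rw [this, ← f1, ← f2]
    ring
  rw [e]
  exact I.sub_mem (I.sub_mem (I.sub_mem h1 (I.mul_mem_left _ s1)) (I.mul_mem_left _ s2))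
    (I.mul_mem_left _ h0)

end cls

end Vale.Agent.P043Six
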