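import Vale.Agent.P043Six.TileLemma

open scoped BigOperators

namespace Vale.Agent.P043Six

variable {G : Type*} [AddCommGroup G]

/-- Characters separating a point from a subgroup. -/
lemma exists_char_ne (E : AddSubgroup G) {a : G} (ha : a ∉ E) :
    ∃ c : G →+ Circ, (∀ y ∈ E, c y = 0) ∧ c a ≠ 0 := by
  have h1 : (QuotientAddGroup.mk a : G ⧸ E) ≠ 0 := by
    rwa [Ne, QuotientAddGroup.eq_zero_iff]
  obtain ⟨c, hc⟩ := CharacterModule.exists_character_apply_ne_zero_of_ne_zero h1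
  let c' : (G ⧸ E) →+ Circ := c
  refine ⟨c'.comp (QuotientAddGroup.mk' E), fun y hy => ?_, hc⟩
  have : (QuotientAddGroup.mk' E) y = 0 := by
    simpa using (QuotientAddGroup.eq_zero_iff y).mpr hy
  simp only [AddMonoidHom.comp_apply, this, map_zero]

/-- Three vectors are sent to one element of exact order two by a character. -/
def Valid3 (d₁ d₂ d₃ : G) : Prop :=
  ∃ (z : G →+ Circ) (τ : Circ), τ ≠ 0 ∧ 2 • τ = 0 ∧ z d₁ = τ ∧ z d₂ = τ ∧ z d₃ = τ

lemma ac_T_of_one_add {ϑ : G → ℝ} {d : G} (h : ac (1 + T d) ϑ = 0) : ac (T d) ϑ = -ϑ := by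
  rw [ac_add, ac_one] at h
  exact (eq_neg_of_add_eq_zero_right h)

lemma valid_of_anti {ϑ : G → ℝ} (h0 : ϑ ≠ 0) {d₁ d₂ d₃ : G}
    (h1 : ac (1 + T d₁) ϑ = 0) (h2 : ac (1 + T d₂) ϑ = 0) (h3 : ac (1 + T d₃) ϑ = 0) :
    Valid3 d₁ d₂ d₃ := by
  have e1 := ac_T_of_one_add h1
  have e2 := ac_T_of_one_add h2
  have e3 := ac_T_of_one_add h3
  have hneg : ∀ {u : G} {f : G → ℝ}, ac (T u) (-f) = -ac (T u) f := by
    intro u f
    ext x
    simp [ac_T]
  have hnot : d₁ ∉ Stab ϑ := by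
    intro hd
    rw [mem_Stab_iff_ac, e1] at hd
    apply h0
    ext x
    have := congrFun hd x
    simp only [Pi.neg_apply, Pi.zero_apply] at this ⊢
    linarith
  obtain ⟨c, hc0, hc1⟩ := exists_char_ne (Stab ϑ) hnot
  have hinv : ac (T (-d₁)) ϑ = -ϑ := by
    have := congrArg (ac (T (-d₁))) e1
    rw [← ac_mul, T_neg_mul, ac_one, hneg] at this
    exact neg_eq_iff_eq_neg.mp this.symm
  have hdiff : ∀ {d : G}, ac (T d) ϑ = -ϑ → c d = c d₁ := by
    intro d hd
    have hm : d - d₁ ∈ Stab ϑ := by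
      rw [mem_Stab_iff_ac, sub_eq_add_neg, T_add, ac_mul, hinv, hneg, hd, neg_neg]
    have := hc0 _ hm
    rwa [map_sub, sub_eq_zero] at this
  refine ⟨c, c d₁, hc1, ?_, rfl, hdiff e2, hdiff e3⟩
  have hm : 2 • d₁ ∈ Stab ϑ := by
    rw [mem_Stab_iff_ac, two_nsmul, T_add, ac_mul, e1, hneg, e1, neg_neg]
  have := hc0 _ hm
  rwa [map_nsmul] at this

/-- The non-trivial three torsion of the circle is `{σ, -σ}`. -/
lemma circ_three (x y : Circ) (hx : x ≠ 0) (hy : y ≠ 0) (h3x : 3 • x = 0) (h3y : 3 • y = 0) :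
    y = x ∨ y = -x := by
  induction x using QuotientAddGroup.induction_on with
  | H q =>
    induction y using QuotientAddGroup.induction_on with
    | H q' =>
      rw [← QuotientAddGroup.mk_nsmul, AddCircle.coe_eq_zero_iff] at h3x h3y
      obtain ⟨k, hk⟩ := h3x
      obtain ⟨l, hl⟩ := h3y
      simp only [zsmul_eq_mul, mul_one, nsmul_eq_mul, Nat.cast_ofNat] at hk hl
      have hqk : q = k / 3 := by
        rw [hk]
        field_simp
      have hql : q' = l / 3 := by
        rw [hl]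
        field_simp
      have hk3 : ¬ (3 : ℤ) ∣ k := by
        rintro ⟨m, rfl⟩
        apply hx
        rw [AddCircle.coe_eq_zero_iff]
        refine ⟨m, ?_⟩
        simp [hqk]
      have hl3 : ¬ (3 : ℤ) ∣ l := by
        rintro ⟨m, rfl⟩
        apply hy
        rw [AddCircle.coe_eq_zero_iff]
        refine ⟨m, ?_⟩
        simp [hql]
      have hcases : (3 : ℤ) ∣ l - k ∨ (3 : ℤ) ∣ l + k := by
        have h1 : k % 3 = 1 ∨ k % 3 = 2 := by omega
        have h2 : l % 3 = 1 ∨ l % 3 = 2 := by omega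
        rcases h1 with h1 | h1 <;> rcases h2 with h2 | h2
        · left; omega
        · right; omega
        · right; omega
        · left; omega
      rcases hcases with ⟨m, hm⟩ | ⟨m, hm⟩
      · left
        have hlk : l = k + 3 * m := by omega
        show ((q' : ℚ) : AddCircle (1 : ℚ)) = ((q : ℚ) : AddCircle (1 : ℚ))
        rw [← sub_eq_zero, ← AddCircle.coe_sub, AddCircle.coe_eq_zero_iff]
        refine ⟨m, ?_⟩
        rw [hqk, hql, hlk]
        simp only [zsmul_eq_mul, mul_one]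
        push_cast
        ring
      · right
        have hlk : l = -k + 3 * m := by omega
        show ((q' : ℚ) : AddCircle (1 : ℚ)) = -((q : ℚ) : AddCircle (1 : ℚ))
        rw [← sub_eq_zero, sub_neg_eq_add, ← AddCircle.coe_add, AddCircle.coe_eq_zero_iff]
        refine ⟨m, ?_⟩
        rw [hqk, hql, hlk]
        simp only [zsmul_eq_mul, mul_one]
        push_cast
        ring

/-- Two characters can be combined so as not to vanish on two given vectors. -/
lemma char_combine {E : AddSubgroup G} {a b : G} (ha : a ∉ E) (hb : b ∉ E) :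
    ∃ c : G →+ Circ, (∀ y ∈ E, c y = 0) ∧ c a ≠ 0 ∧ c b ≠ 0 := by
  obtain ⟨c₁, h1, h1a⟩ := exists_char_ne E ha
  obtain ⟨c₂, h2, h2b⟩ := exists_char_ne E hb
  by_cases hb1 : c₁ b = 0
  · by_cases ha2 : c₂ a = 0
    · refine ⟨c₁ + c₂, fun y hy => ?_, ?_, ?_⟩
      · simp [h1 y hy, h2 y hy]
      · simpa [ha2] using h1a
      · simpa [hb1] using h2b
    · exact ⟨c₂, h2, ha2, h2b⟩
  · exact ⟨c₁, h1, h1a, hb1⟩

/-- The consequences of `1 + x + y` and `1 + x⁻¹ + y⁻¹` killing a non-zero function. -/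
lemma triple_stab {ϑ : G → ℝ} (h0 : ϑ ≠ 0) {x y : G}
    (h1 : ac (1 + T x + T y) ϑ = 0) (h2 : ac (1 + T (-x) + T (-y)) ϑ = 0) :
    x ∉ Stab ϑ ∧ 3 • x ∈ Stab ϑ ∧ x + y ∈ Stab ϑ := by
  have hxy : x + y ∈ Stab ϑ := by
    refine mem_Stab_of_ac_sub ?_
    have e : T (x + y) - 1 = T (x + y) * (1 + T (-x) + T (-y)) - (1 + T x + T y) := by
      have e1 := T_mul_neg x
      have e2 := T_mul_neg y
      rw [T_add]
      linear_combination (-T y) * e1 - T x * e2
    rw [e, ac_sub, ac_mul, h1, h2, ac_zero_right, sub_zero]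
  have hxxy : ac (1 + T x + T (2 • x)) ϑ = 0 := by
    have e : 1 + T x + T (2 • x) = T x * (1 + T x + T y) - (T (x + y) - 1) := by
      rw [T_add, two_nsmul, T_add]
      ring
    rw [e, ac_sub, ac_mul, h1, ac_zero_right, ac_sub_of_mem_Stab hxy, sub_zero]
  refine ⟨?_, ?_, hxy⟩
  · intro hx
    apply h0
    have hy : y ∈ Stab ϑ := by
      have := (Stab ϑ).sub_mem hxy hx
      rwa [add_sub_cancel_left] at this
    rw [ac_add, ac_add, ac_one, mem_Stab_iff_ac.mp hx, mem_Stab_iff_ac.mp hy] at h1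
    ext u
    have := congrFun h1 u
    simp only [Pi.add_apply, Pi.zero_apply] at this ⊢
    linarith
  · refine mem_Stab_of_ac_sub ?_
    have e : T (3 • x) - 1 = (T x - 1) * (1 + T x + T (2 • x)) := by
      rw [T_nsmul, T_nsmul]
      ring
    rw [e, ac_mul, hxxy, ac_zero_right]

end Vale.Agent.P043Six
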