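import Vale.Agent.P043Six.Leaf33

open scoped BigOperators

namespace Vale.Agent.P043Six

variable {G : Type*} [AddCommGroup G]

open Classical in
lemma isSix_of_eq_of_card {F : Finset G} {a b c d e f : G} (h : F = {a, b, c, d, e, f})
    (hc : F.card = 6) : IsSix F a b c d e f := by
  refine ⟨h, ?_⟩
  set l := [a, b, c, d, e, f] with hl
  have h1 : l.toFinset = F := by
    rw [h]
    ext x
    simp [hl]
  have h2 : l.dedup.length = 6 := by
    rw [← List.card_toFinset, h1, hc]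
  have h3 : l.dedup = l := (List.dedup_sublist l).eq_of_length (by rw [h2, hl]; rfl)
  exact List.dedup_eq_self.mp h3

open Classical in
/-- The class of an element modulo a subgroup, inside the tile. -/
noncomputable def cls (F : Finset G) (D : AddSubgroup G) (f : G) : Finset G :=
  F.filter fun g => g - f ∈ D

lemma mem_cls {F : Finset G} {D : AddSubgroup G} {f g : G} :
    g ∈ cls F D f ↔ g ∈ F ∧ g - f ∈ D := by
  classical
  unfold cls
  rw [Finset.mem_filter]

lemma self_mem_cls {F : Finset G} {D : AddSubgroup G} {f : G} (hf : f ∈ F) : f ∈ cls F D f := by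
  rw [mem_cls]
  exact ⟨hf, by simp [D.zero_mem]⟩

lemma two_le_cls {F : Finset G} {D : AddSubgroup G} {f : G} (hf : f ∈ F)
    (h : ∃ g ∈ F, g ≠ f ∧ g - f ∈ D) : 2 ≤ (cls F D f).card := by
  classical
  obtain ⟨g, hg, hne, hD⟩ := h
  have : ({f, g} : Finset G) ⊆ cls F D f := by
    intro x hx
    simp only [Finset.mem_insert, Finset.mem_singleton] at hx
    rcases hx with rfl | rfl
    · exact self_mem_cls hf
    · exact mem_cls.mpr ⟨hg, hD⟩
  have h2 := Finset.card_le_card this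
  rwa [Finset.card_pair (Ne.symm hne)] at h2

lemma cls_disjoint {F : Finset G} {D : AddSubgroup G} {f g : G} (h : g ∉ cls F D f) (hg : g ∈ F) :
    Disjoint (cls F D f) (cls F D g) := by
  rw [Finset.disjoint_left]
  intro x hx hx'
  apply h
  rw [mem_cls] at hx hx' ⊢
  refine ⟨hg, ?_⟩
  have := D.sub_mem hx.2 hx'.2
  rwa [show x - f - (x - g) = g - f by abel] at this

open Classical in
lemma explicit2 {C : Finset G} {f : G} (hf : f ∈ C) (h : C.card = 2) : ∃ x, C = {f, x} := by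
  have h1 : (C.erase f).card = 1 := by
    rw [Finset.card_erase_of_mem hf, h]
  obtain ⟨x, hx⟩ := Finset.card_eq_one.mp h1
  refine ⟨x, ?_⟩
  rw [← hx, Finset.insert_erase hf]

open Classical in
lemma explicit3 {C : Finset G} {f : G} (hf : f ∈ C) (h : C.card = 3) : ∃ x y, C = {f, x, y} := by
  have h1 : (C.erase f).card = 2 := by
    rw [Finset.card_erase_of_mem hf, h]
  obtain ⟨x, y, -, hx⟩ := Finset.card_eq_two.mp h1
  refine ⟨x, y, ?_⟩
  rw [← hx, Finset.insert_erase hf]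

open Classical in
lemma explicit4 {C : Finset G} {f : G} (hf : f ∈ C) (h : C.card = 4) :
    ∃ x y z, C = {f, x, y, z} := by
  have h1 : (C.erase f).card = 3 := by
    rw [Finset.card_erase_of_mem hf, h]
  obtain ⟨x, y, z, -, -, -, hx⟩ := Finset.card_eq_three.mp h1
  refine ⟨x, y, z, ?_⟩
  rw [← hx, Finset.insert_erase hf]

/-- Classification of the partitions of the tile when no class is a singleton. -/
theorem classify {F : Finset G} (hcard : F.card = 6) {D : AddSubgroup G}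
    (hleaf : ∀ f ∈ F, ∃ g ∈ F, g ≠ f ∧ g - f ∈ D) :
    (∀ f ∈ F, ∀ g ∈ F, f - g ∈ D) ∨
    (∃ p p' a b c e : G, IsSix F p p' a b c e ∧ p' - p ∈ D ∧ b - a ∈ D ∧ c - a ∈ D ∧ e - a ∈ D) ∨
    (∃ t₁ a₁ b₁ t₂ a₂ b₂ : G, IsSix F t₁ a₁ b₁ t₂ a₂ b₂ ∧ a₁ - t₁ ∈ D ∧ b₁ - t₁ ∈ D ∧
      a₂ - t₂ ∈ D ∧ b₂ - t₂ ∈ D) ∨
    (∃ t₁ t₁' t₂ t₂' t₃ t₃' : G, IsSix F t₁ t₁' t₂ t₂' t₃ t₃' ∧ t₁' - t₁ ∈ D ∧ t₂' - t₂ ∈ D ∧
      t₃' - t₃ ∈ D ∧ t₁ - t₂ ∉ D ∧ t₁ - t₃ ∉ D ∧ t₂ - t₃ ∉ D) := by
  classical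
  obtain ⟨f₁, hf₁⟩ : F.Nonempty := by
    rw [← Finset.card_pos, hcard]
    norm_num
  have hsub : ∀ f, cls F D f ⊆ F := fun f x hx => (mem_cls.mp hx).1
  have hD₁ : ∀ {f x : G}, x ∈ cls F D f → x - f ∈ D := fun hx => (mem_cls.mp hx).2
  have h1 := two_le_cls hf₁ (hleaf f₁ hf₁)
  by_cases hall1 : cls F D f₁ = F
  · left
    intro f hf g hg
    have e1 := hD₁ (show f ∈ cls F D f₁ by rw [hall1]; exact hf)
    have e2 := hD₁ (show g ∈ cls F D f₁ by rw [hall1]; exact hg)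
    have := D.sub_mem e1 e2
    rwa [show f - f₁ - (g - f₁) = f - g by abel] at this
  right
  obtain ⟨f₂, hf₂, hf₂n⟩ : ∃ f₂ ∈ F, f₂ ∉ cls F D f₁ := by
    by_contra hcon
    push Not at hcon
    exact hall1 (Finset.Subset.antisymm (hsub _) hcon)
  have h2 := two_le_cls hf₂ (hleaf f₂ hf₂)
  have hd12 := cls_disjoint hf₂n hf₂
  have hc12 : (cls F D f₁ ∪ cls F D f₂).card = (cls F D f₁).card + (cls F D f₂).card :=
    Finset.card_union_of_disjoint hd12
  have hmem1 := self_mem_cls (D := D) hf₁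
  have hmem2 := self_mem_cls (D := D) hf₂
  by_cases hall2 : cls F D f₁ ∪ cls F D f₂ = F
  · have hsum : (cls F D f₁).card + (cls F D f₂).card = 6 := by
      rw [← hc12, hall2, hcard]
    have hcases : ((cls F D f₁).card = 2 ∧ (cls F D f₂).card = 4) ∨
        ((cls F D f₁).card = 3 ∧ (cls F D f₂).card = 3) ∨
        ((cls F D f₁).card = 4 ∧ (cls F D f₂).card = 2) := by omega
    rcases hcases with ⟨c1, c2⟩ | ⟨c1, c2⟩ | ⟨c1, c2⟩
    · left
      obtain ⟨x, hx⟩ := explicit2 hmem1 c1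
      obtain ⟨y₁, y₂, y₃, hy⟩ := explicit4 hmem2 c2
      refine ⟨f₁, x, f₂, y₁, y₂, y₃, isSix_of_eq_of_card ?_ hcard, ?_, ?_, ?_, ?_⟩
      · rw [← hall2, hx, hy]
        ext u
        simp
        tauto
      · exact hD₁ (show x ∈ cls F D f₁ by simp [hx])
      · exact hD₁ (show y₁ ∈ cls F D f₂ by simp [hy])
      · exact hD₁ (show y₂ ∈ cls F D f₂ by simp [hy])
      · exact hD₁ (show y₃ ∈ cls F D f₂ by simp [hy])
    · right; left
      obtain ⟨x₁, x₂, hx⟩ := explicit3 hmem1 c1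
      obtain ⟨y₁, y₂, hy⟩ := explicit3 hmem2 c2
      refine ⟨f₁, x₁, x₂, f₂, y₁, y₂, isSix_of_eq_of_card ?_ hcard, ?_, ?_, ?_, ?_⟩
      · rw [← hall2, hx, hy]
        ext u
        simp
        tauto
      · exact hD₁ (show x₁ ∈ cls F D f₁ by simp [hx])
      · exact hD₁ (show x₂ ∈ cls F D f₁ by simp [hx])
      · exact hD₁ (show y₁ ∈ cls F D f₂ by simp [hy])
      · exact hD₁ (show y₂ ∈ cls F D f₂ by simp [hy])
    · left
      obtain ⟨x₁, x₂, x₃, hx⟩ := explicit4 hmem1 c1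
      obtain ⟨y, hy⟩ := explicit2 hmem2 c2
      refine ⟨f₂, y, f₁, x₁, x₂, x₃, isSix_of_eq_of_card ?_ hcard, ?_, ?_, ?_, ?_⟩
      · rw [← hall2, hx, hy]
        ext u
        simp
        tauto
      · exact hD₁ (show y ∈ cls F D f₂ by simp [hy])
      · exact hD₁ (show x₁ ∈ cls F D f₁ by simp [hx])
      · exact hD₁ (show x₂ ∈ cls F D f₁ by simp [hx])
      · exact hD₁ (show x₃ ∈ cls F D f₁ by simp [hx])
  · right; right
    obtain ⟨f₃, hf₃, hf₃n⟩ : ∃ f₃ ∈ F, f₃ ∉ cls F D f₁ ∪ cls F D f₂ := by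
      by_contra hcon
      push Not at hcon
      exact hall2 (Finset.Subset.antisymm (Finset.union_subset (hsub _) (hsub _)) hcon)
    have hf₃1 : f₃ ∉ cls F D f₁ := fun h => hf₃n (Finset.mem_union_left _ h)
    have hf₃2 : f₃ ∉ cls F D f₂ := fun h => hf₃n (Finset.mem_union_right _ h)
    have h3 := two_le_cls hf₃ (hleaf f₃ hf₃)
    have hd13 := cls_disjoint hf₃1 hf₃
    have hd23 := cls_disjoint hf₃2 hf₃
    have hd123 : Disjoint (cls F D f₁ ∪ cls F D f₂) (cls F D f₃) :=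
      Finset.disjoint_union_left.mpr ⟨hd13, hd23⟩
    have hc123 : (cls F D f₁ ∪ cls F D f₂ ∪ cls F D f₃).card
        = (cls F D f₁).card + (cls F D f₂).card + (cls F D f₃).card := by
      rw [Finset.card_union_of_disjoint hd123, hc12]
    have hle : (cls F D f₁ ∪ cls F D f₂ ∪ cls F D f₃).card ≤ 6 := by
      rw [← hcard]
      exact Finset.card_le_card
        (Finset.union_subset (Finset.union_subset (hsub _) (hsub _)) (hsub _))
    have c1 : (cls F D f₁).card = 2 := by omega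
    have c2 : (cls F D f₂).card = 2 := by omega
    have c3 : (cls F D f₃).card = 2 := by omega
    have hall3 : cls F D f₁ ∪ cls F D f₂ ∪ cls F D f₃ = F := by
      refine Finset.eq_of_subset_of_card_le
        (Finset.union_subset (Finset.union_subset (hsub _) (hsub _)) (hsub _)) ?_
      rw [hc123, hcard]
      omega
    obtain ⟨x, hx⟩ := explicit2 hmem1 c1
    obtain ⟨y, hy⟩ := explicit2 hmem2 c2
    obtain ⟨z, hz⟩ := explicit2 (self_mem_cls (D := D) hf₃) c3
    have hnm : ∀ {f g : G}, g ∉ cls F D f → g ∈ F → f - g ∉ D := by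
      intro f g hg hgF hin
      apply hg
      rw [mem_cls]
      refine ⟨hgF, ?_⟩
      have := D.neg_mem hin
      rwa [neg_sub] at this
    refine ⟨f₁, x, f₂, y, f₃, z, isSix_of_eq_of_card ?_ hcard, ?_, ?_, ?_, ?_, ?_, ?_⟩
    · rw [← hall3, hx, hy, hz]
      ext u
      simp
      tauto
    · exact hD₁ (show x ∈ cls F D f₁ by simp [hx])
    · exact hD₁ (show y ∈ cls F D f₂ by simp [hy])
    · exact hD₁ (show z ∈ cls F D f₃ by simp [hz])
    · exact hnm hf₂n hf₂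
    · exact hnm hf₃1 hf₃
    · exact hnm hf₃2 hf₃

end Vale.Agent.P043Six
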