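import Vale.Agent.P043Six.Fourier

open scoped BigOperators

namespace Vale.Agent.P043Six

variable {G : Type*} [AddCommGroup G]

/-- The three-dilate of the tiling indicator. -/
noncomputable abbrev N3 (F : Finset G) (A : Set G) : G → ℝ := ac (dil F 3) (ind ℝ A)

/-- The context of the second stage: the three-dilate is periodic. -/
structure Ctx (F : Finset G) (A : Set G) (N : ℕ) : Prop where
  fg : AddGroup.FG G
  gen : Gen F
  card : F.card = 6
  tile : CountOne A F 1
  pos : 0 < N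
  per : ∀ y : G, N • y ∈ Stab (N3 F A)
  no : ¬ PerTile F

lemma bd_ind (A : Set G) : Bd (ind ℝ A) := by
  classical
  refine ⟨1, fun x => ?_⟩
  unfold ind
  split_ifs <;> simp

variable {F : Finset G} {A : Set G} {N : ℕ}

lemma cls_of_tile (hcard : F.card = 6) (htile : CountOne A F 1) : Cls F (ind ℝ A) :=
  ⟨bd_ind A, fun r hr => act_ind_of_countOne ℝ (countOne_of_coprime hcard htile r hr)⟩

lemma Ctx.cls (c : Ctx F A N) : Cls F (ind ℝ A) := cls_of_tile c.card c.tile

open Classical in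
lemma N3_apply (x : G) : N3 F A x = (((F.filter fun f => x - 3 • f ∈ A).card : ℕ) : ℝ) :=
  sum_ind ℝ A F 3 x

lemma n3_nonneg (x : G) : 0 ≤ N3 F A x := by
  classical
  rw [N3_apply]
  positivity

lemma Ctx.n3_ge (c : Ctx F A N) {x : G} (hx : N3 F A x ≠ 0) : 3 ≤ N3 F A x := by
  classical
  rw [N3_apply] at hx ⊢
  have hd := three_dvd_count c.card c.tile x
  have h0 : (F.filter fun f => x - 3 • f ∈ A).card ≠ 0 := by
    intro h
    apply hx
    rw [h]
    simp
  have h3 : 3 ≤ (F.filter fun f => x - 3 • f ∈ A).card := Nat.le_of_dvd (Nat.pos_of_ne_zero h0) hd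
  exact_mod_cast h3

lemma Ctx.n3_dil (c : Ctx F A N) {r : ℕ} (hr : r.Coprime 6) :
    ac (dil F r) (N3 F A) = fun _ => 6 := by
  rw [N3, ac_comm, c.cls.2 r hr, ac_dil_const, c.card]
  ext x
  norm_num

lemma n3_of_mem {x : G} (hx : x ∈ A) {f : G} (hf : f ∈ F) : N3 F A (x + 3 • f) ≠ 0 := by
  classical
  rw [N3_apply]
  have : f ∈ F.filter fun g => x + 3 • f - 3 • g ∈ A := by
    rw [Finset.mem_filter]
    refine ⟨hf, ?_⟩
    rwa [add_sub_cancel_right]
  have h1 : 0 < (F.filter fun g => x + 3 • f - 3 • g ∈ A).card := Finset.card_pos.mpr ⟨f, this⟩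
  exact_mod_cast h1.ne'

/-- The support of the function is controlled by the three-dilate. -/
def Good (F : Finset G) (A : Set G) (h : G → ℝ) : Prop :=
  ∀ x, h x ≠ 0 → ∀ f ∈ F, N3 F A (x + 3 • f) ≠ 0

lemma good_ind : Good F A (ind ℝ A) := by
  classical
  intro x hx f hf
  refine n3_of_mem ?_ hf
  by_contra h
  apply hx
  unfold ind
  rw [if_neg h]

lemma Good.shiftBy {h : G → ℝ} (hg : Good F A h) {s : G} (hs : s ∈ Stab (N3 F A)) :
    Good F A (ac (T s) h) := by
  intro x hx f hf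
  rw [ac_T] at hx
  have h1 := hg _ hx f hf
  have h2 := hs (x - s + 3 • f)
  have e : x + 3 • f = x - s + 3 • f + s := by abel
  rw [e, h2]
  exact h1

lemma Good.sub {h h' : G → ℝ} (hg : Good F A h) (hg' : Good F A h') : Good F A (h - h') := by
  intro x hx f hf
  by_cases h0 : h x = 0
  · have : h' x ≠ 0 := by
      intro h1
      apply hx
      simp [h0, h1]
    exact hg' x this f hf
  · exact hg x h0 f hf

lemma Good.diff (c : Ctx F A N) {h : G → ℝ} (hg : Good F A h) {L : ℕ} (hd : N ∣ L) (v : G) :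
    Good F A (ac (T (L • v) - 1) h) := by
  rw [ac_sub, ac_one]
  exact (hg.shiftBy (nsmul_mem_Stab_of_dvd hd c.per)).sub hg

lemma Good.meanOf (c : Ctx F A N) {h : G → ℝ} (hb : Bd h) (hg : Good F A h) (u : G) {m : ℕ}
    (hd : N ∣ m) : Good F A (mean (m • u) h) := by
  intro x hx f hf
  by_contra hn
  apply hx
  have hall : ∀ j : ℕ, h (x + j • (m • u)) = 0 := by
    intro j
    by_contra hne
    apply hg _ hne f hf
    have hm : j • (m • u) ∈ Stab (N3 F A) :=
      AddSubgroup.nsmul_mem _ (nsmul_mem_Stab_of_dvd hd c.per) _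
    have h2 := hm (x + 3 • f)
    rw [show x + j • (m • u) + 3 • f = x + 3 • f + j • (m • u) by abel, h2]
    exact hn
  have h1 := le_of_forall hb (x := x) (u := m • u) (c := 0) fun j => (hall j).le
  have h2 : 0 ≤ mean (m • u) h x := ge_of_forall hb (c := 0) fun j => (hall j).ge
  exact le_antisymm h1 h2

universe u in
/-- A finite quotient with kernel `N • G`. -/
lemma exists_H {G : Type u} [AddCommGroup G] {F : Finset G} {A : Set G} {N : ℕ} (c : Ctx F A N) :
    ∃ (H : Type u) (_ : AddCommGroup H) (_ : Fintype H) (π : G →+ H),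
      Function.Surjective π ∧ ∀ y, π y = 0 → ∃ g, y = N • g := by
  let W : AddSubgroup G := (nsmulAddMonoidHom N : G →+ G).range
  have hfg : AddGroup.FG (G ⧸ W) := by
    have := c.fg
    infer_instance
  have htors : IsAddTorsion (G ⧸ W) := by
    intro y
    induction y using QuotientAddGroup.induction_on with
    | H g =>
      rw [isOfFinAddOrder_iff_nsmul_eq_zero]
      refine ⟨N, c.pos, ?_⟩
      rw [← QuotientAddGroup.mk_nsmul, QuotientAddGroup.eq_zero_iff]
      exact ⟨g, rfl⟩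
  have hfin : Finite (G ⧸ W) := AddCommGroup.finite_of_fg_isAddTorsion (G ⧸ W) htors
  refine ⟨G ⧸ W, inferInstance, Fintype.ofFinite _, QuotientAddGroup.mk' W,
    QuotientAddGroup.mk'_surjective W, fun y hy => ?_⟩
  have h1 : (QuotientAddGroup.mk y : G ⧸ W) = 0 := hy
  rw [QuotientAddGroup.eq_zero_iff] at h1
  obtain ⟨g, hg⟩ := h1
  exact ⟨g, hg.symm⟩

lemma ne_zero_of_norm {x : ℂ} (h : ‖x‖ = 1) : x ≠ 0 := by
  rintro rfl
  simp at h

/-- A character separating three pairs, together with a sign character, produce a tile. -/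
lemma false_of_char (c : Ctx F A N) {t₁ t₁' t₂ t₂' t₃ t₃' : G}
    (hF : IsSix F t₁ t₁' t₂ t₂' t₃ t₃') (hV : Valid3 (t₁' - t₁) (t₂' - t₂) (t₃' - t₃))
    (χ : AddChar G ℂ) (hnorm : ∀ x, ‖χ x‖ = 1) (h₁ : χ (t₁' - t₁) = 1) (h₂ : χ (t₂' - t₂) = 1)
    (h₃ : χ (t₃' - t₃) = 1) (hs : χ t₁ + χ t₂ + χ t₃ = 0) : False := by
  obtain ⟨z, τ, hτ, h2τ, hz₁, hz₂, hz₃⟩ := hV
  set ρ := χ (t₂ - t₁) with hρdef
  set ρ' := χ (t₃ - t₁) with hρ'def
  have e₂ : χ t₂ = χ t₁ * ρ := by
    rw [hρdef, ← AddChar.map_add_eq_mul]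
    congr 1
    abel
  have e₃ : χ t₃ = χ t₁ * ρ' := by
    rw [hρ'def, ← AddChar.map_add_eq_mul]
    congr 1
    abel
  have h1 : 1 + ρ + ρ' = 0 := by
    have hne := ne_zero_of_norm (hnorm t₁)
    have : χ t₁ * (1 + ρ + ρ') = 0 := by
      rw [e₂, e₃] at hs
      linear_combination hs
    exact (mul_eq_zero.mp this).resolve_left hne
  obtain ⟨hρ, hρ'⟩ := unit_sum_zero (x := ρ) (y := ρ') (hnorm _) (hnorm _) h1
  have hρ1 : ρ ≠ 1 := by
    rintro h
    rw [h] at hρ
    norm_num at hρ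
  have hρ21 : ρ ^ 2 ≠ 1 := by
    intro h
    have : ρ = -2 := by linear_combination hρ - h
    rw [this] at hρ
    norm_num at hρ
  have hρ3 : ρ ^ 3 = 1 := by linear_combination (ρ - 1) * hρ
  have hρ'3 : ρ' ^ 3 = 1 := by
    rw [hρ']
    linear_combination (ρ ^ 3 + 1) * hρ3
  have hcube : cubeSub χ = ⊤ := by
    have hc : ∀ x, x ∈ cubeSub χ ↔ χ x ^ 3 = 1 := fun _ => Iff.rfl
    have hadd : ∀ {a b : G}, χ a = 1 → χ b ^ 3 = 1 → χ (a + b) ^ 3 = 1 := by
      intro a b ha hb
      rw [AddChar.map_add_eq_mul, ha, one_mul, hb]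
    refine hF.gen_top c.gen _ ?_ ?_ ?_ ?_ ?_
    · rw [hc, h₁, one_pow]
    · rw [hc, ← hρdef, hρ3]
    · rw [hc, show t₂' - t₁ = (t₂' - t₂) + (t₂ - t₁) by abel]
      exact hadd h₂ hρ3
    · rw [hc, ← hρ'def]
      exact hρ'3
    · rw [hc, show t₃' - t₁ = (t₃' - t₃) + (t₃ - t₁) by abel]
      exact hadd h₃ hρ'3
  have hcubeall : ∀ y, χ y ^ 3 = 1 := by
    intro y
    have : y ∈ cubeSub χ := by
      rw [hcube]
      exact AddSubgroup.mem_top y
    exact this
  have hnegρ : ∀ {a b : G}, χ (b - a) ≠ 1 → a - b ∉ kerChar χ := by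
    intro a b h hin
    apply h
    rw [mem_kerChar] at hin
    have : b - a = -(a - b) := by abel
    rw [this, AddChar.map_neg_eq_inv, hin, inv_one]
  have h23e : χ (t₃ - t₂) ≠ 1 := by
    have e : χ t₂ * χ (t₃ - t₂) = χ t₃ := by
      rw [← AddChar.map_add_eq_mul]
      congr 1
      abel
    intro h
    rw [h, mul_one, e₂, e₃] at e
    have hne := ne_zero_of_norm (hnorm t₁)
    have h5 := mul_left_cancel₀ hne e
    rw [hρ'] at h5
    -- `ρ = ρ²` is impossible
    have h6 : ρ = 1 := by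
      have hρ0 : ρ ≠ 0 := ne_zero_of_norm (hnorm _)
      have : ρ * ρ = ρ * 1 := by
        rw [mul_one]
        linear_combination -h5
      exact mul_left_cancel₀ hρ0 this
    exact hρ1 h6
  refine c.no (perTile_pairs c.fg hF (kerChar χ) z hτ h2τ h₁ h₂ h₃ hz₁ hz₂ hz₃
    (hnegρ hρ1) (hnegρ (by rw [← hρ'def, hρ']; exact hρ21)) (hnegρ h23e) ?_ ?_)
  · intro x
    set u := χ (x - t₁) with hu
    have hu3 : u ^ 3 = 1 := hcubeall _
    have hfac : (u - 1) * ((u - ρ) * (u - ρ ^ 2)) = 0 := by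
      linear_combination hu3 + (u - 1) * (-u) * hρ + (u - 1) * hρ3
    have hρ0 : ρ ≠ 0 := ne_zero_of_norm (hnorm _)
    have hρ'0 : ρ' ≠ 0 := ne_zero_of_norm (hnorm _)
    rcases mul_eq_zero.mp hfac with h5 | h5
    · left
      exact sub_eq_zero.mp h5
    rcases mul_eq_zero.mp h5 with h5 | h5
    · right; left
      have h6 : u = ρ := sub_eq_zero.mp h5
      have e : χ (x - t₂) * ρ = u := by
        rw [hρdef, hu, ← AddChar.map_add_eq_mul]
        congr 1
        abel
      rw [h6] at e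
      show χ (x - t₂) = 1
      exact mul_right_cancel₀ hρ0 (by rw [e, one_mul])
    · right; right
      have h6 : u = ρ' := by
        rw [hρ']
        exact sub_eq_zero.mp h5
      have e : χ (x - t₃) * ρ' = u := by
        rw [hρ'def, hu, ← AddChar.map_add_eq_mul]
        congr 1
        abel
      rw [h6] at e
      show χ (x - t₃) = 1
      exact mul_right_cancel₀ hρ'0 (by rw [e, one_mul])
  · intro y
    refine ⟨3, by norm_num, ?_⟩
    rw [mem_kerChar, AddChar.map_nsmul_eq_pow]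
    exact hcubeall y

end Vale.Agent.P043Six
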