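import Vale.Agent.P043Six.Basic

open scoped BigOperators

namespace Vale.Agent.P043Six

variable {G : Type*} [AddCommGroup G]

lemma tr_nsmul {k : Type*} [CommRing k] (m : ℕ) (u : G) : tr k (m • u) = (tr k u) ^ m := by
  induction m with
  | zero => simp [tr_zero]
  | succ m ih => rw [add_smul, one_smul, tr_add, ih, pow_succ]

/-- The dilated tile as an element of the group algebra. -/
noncomputable def dilk (k : Type*) [CommRing k] (F : Finset G) (r : ℕ) : AddMonoidAlgebra k G :=
  ∑ f ∈ F, tr k (r • f)

lemma act_tr_const {k : Type*} [CommRing k] (u : G) (c : k) :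
    act k G (tr k u) (fun _ => c) = fun _ => c := by
  ext x
  rw [act_tr]

lemma act_dilk_apply {k : Type*} [CommRing k] (F : Finset G) (r : ℕ) (h : G → k) (x : G) :
    act k G (dilk k F r) h x = ∑ f ∈ F, h (x - r • f) := by
  unfold dilk
  rw [act_sum_left, Finset.sum_apply]
  exact Finset.sum_congr rfl fun f _ => act_tr _ _ _

lemma act_dilk_const {k : Type*} [CommRing k] (F : Finset G) (r : ℕ) (c : k) :
    act k G (dilk k F r) (fun _ => c) = fun _ => (F.card : k) * c := by
  ext x
  rw [act_dilk_apply, Finset.sum_const, nsmul_eq_mul]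

open Classical in
/-- The indicator of a set with values in a ring. -/
noncomputable def ind (k : Type*) [CommRing k] (A : Set G) : G → k :=
  fun x => if x ∈ A then 1 else 0

open Classical in
lemma sum_ind (k : Type*) [CommRing k] (A : Set G) (F : Finset G) (r : ℕ) (x : G) :
    act k G (dilk k F r) (ind k A) x
      = (((F.filter fun f => x - r • f ∈ A).card : ℕ) : k) := by
  rw [act_dilk_apply]
  unfold ind
  rw [Finset.sum_boole]

section frob

variable (p : ℕ) [hp : Fact p.Prime]

lemma charP_alg : CharP (AddMonoidAlgebra (ZMod p) G) p :=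
  charP_of_injective_algebraMap
    (R := ZMod p) (A := AddMonoidAlgebra (ZMod p) G)
    (FaithfulSMul.algebraMap_injective (ZMod p) (AddMonoidAlgebra (ZMod p) G)) p

lemma frob_dil (F : Finset G) (r : ℕ) :
    (dilk (ZMod p) F r) ^ p = dilk (ZMod p) F (p * r) := by
  have := charP_alg (G := G) p
  unfold dilk
  rw [sum_pow_char]
  refine Finset.sum_congr rfl fun f _ => ?_
  rw [← tr_nsmul, ← mul_smul, mul_comm]

end frob

/-- Consequence of Fermat: the p-dilate count is congruent to a power of the size. -/
lemma pow_act (F : Finset G) {k : Type*} [CommRing k] (r : ℕ) (a : G → k)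
    (ha : act k G (dilk k F r) a = fun _ => 1) (m : ℕ) :
    act k G ((dilk k F r) ^ (m + 1)) a = fun _ => (F.card : k) ^ m := by
  induction m with
  | zero => simpa using ha
  | succ m ih =>
    rw [pow_succ, mul_comm, act_mul_left, ih, act_dilk_const, pow_succ, mul_comm]

open Classical in
/-- A tiling relation as a statement about counts. -/
def CountOne (A : Set G) (F : Finset G) (r : ℕ) : Prop :=
  ∀ x, (F.filter fun f => x - r • f ∈ A).card = 1

lemma act_ind_of_countOne {A : Set G} {F : Finset G} {r : ℕ} (k : Type*) [CommRing k]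
    (h : CountOne A F r) : act k G (dilk k F r) (ind k A) = fun _ => 1 := by
  classical
  ext x
  rw [sum_ind]
  have := h x
  rw [show (F.filter fun f => x - r • f ∈ A) = _ from rfl] at *
  simp only [this, Nat.cast_one]

open Classical in
lemma count_pos_of_prime {A : Set G} {F : Finset G} {r p : ℕ} [Fact p.Prime]
    (hc : F.card = 6) (hp2 : p ≠ 2) (hp3 : p ≠ 3) (h : CountOne A F r) (x : G) :
    1 ≤ (F.filter fun f => x - (p * r) • f ∈ A).card := by
  have hp := (Fact.out : p.Prime)
  have h1 := pow_act F r (ind (ZMod p) A) (act_ind_of_countOne (ZMod p) h) (p - 1)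
  rw [Nat.sub_add_cancel hp.one_le, frob_dil, hc] at h1
  have h2 := congrFun h1 x
  rw [sum_ind] at h2
  have h6 : ((6 : ℕ) : ZMod p) ≠ 0 := by
    intro h0
    rw [ZMod.natCast_eq_zero_iff] at h0
    have : p ∣ 2 * 3 := by simpa using h0
    rcases (Nat.Prime.dvd_mul hp).mp this with h' | h'
    · exact hp2 ((Nat.prime_dvd_prime_iff_eq hp Nat.prime_two).mp h')
    · exact hp3 ((Nat.prime_dvd_prime_iff_eq hp Nat.prime_three).mp h')
  rw [ZMod.pow_card_sub_one_eq_one h6] at h2
  by_contra hcon
  have h0 : (F.filter fun f => x - (p * r) • f ∈ A).card = 0 := by omega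
  rw [h0] at h2
  simp at h2

lemma countOne_mul_prime {A : Set G} {F : Finset G} {r p : ℕ} (hpp : p.Prime)
    (hc : F.card = 6) (hp2 : p ≠ 2) (hp3 : p ≠ 3) (h : CountOne A F r) :
    CountOne A F (p * r) := by
  classical
  have : Fact p.Prime := ⟨hpp⟩
  intro y
  have hpos := fun x => count_pos_of_prime (A := A) (F := F) (r := r) (p := p) hc hp2 hp3 h x
  have hne : F.Nonempty := by
    rw [← Finset.card_pos, hc]
    norm_num
  obtain ⟨g₀, hg₀⟩ := hne
  -- double count
  have h1 : act ℝ G (dilk ℝ F r) (act ℝ G (dilk ℝ F (p * r)) (ind ℝ A)) = fun _ => 6 := by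
    rw [act_comm, act_ind_of_countOne ℝ h, act_dilk_const, hc]
    ext x
    norm_num
  have h2 := congrFun h1 (y + r • g₀)
  rw [act_dilk_apply] at h2
  have h3 : ∀ g ∈ F, (1 : ℝ) ≤ act ℝ G (dilk ℝ F (p * r)) (ind ℝ A) (y + r • g₀ - r • g) := by
    intro g _
    rw [sum_ind]
    exact_mod_cast hpos _
  have h4 : ∑ _g ∈ F, (1 : ℝ)
      = ∑ g ∈ F, act ℝ G (dilk ℝ F (p * r)) (ind ℝ A) (y + r • g₀ - r • g) := by
    rw [h2, Finset.sum_const, hc]
    norm_num
  have h5 := (Finset.sum_eq_sum_iff_of_le h3).mp h4 g₀ hg₀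
  rw [add_sub_cancel_right, sum_ind] at h5
  exact_mod_cast h5.symm

/-- The dilation lemma: a tiling by `F` of size six is also a tiling by all `r F`, `r` coprime to
six. -/
lemma countOne_of_coprime {A : Set G} {F : Finset G} (hc : F.card = 6) (h : CountOne A F 1) :
    ∀ r : ℕ, r.Coprime 6 → CountOne A F r := by
  intro r
  induction r using Nat.strong_induction_on with
  | _ r ih =>
    intro hr
    by_cases hr1 : r = 1
    · rw [hr1]
      exact h
    · have hr0 : r ≠ 0 := by
        rintro rfl
        simp at hr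
      have hpp := Nat.minFac_prime hr1
      obtain ⟨r', hr'⟩ := Nat.minFac_dvd r
      have hd : r.minFac ∣ r := Nat.minFac_dvd r
      have hp2 : r.minFac ≠ 2 := by
        intro h2
        have h3 : 2 ∣ r := h2 ▸ hd
        have := Nat.dvd_gcd h3 (show 2 ∣ 6 by norm_num)
        rw [Nat.Coprime.gcd_eq_one hr] at this
        omega
      have hp3 : r.minFac ≠ 3 := by
        intro h2
        have h3 : 3 ∣ r := h2 ▸ hd
        have := Nat.dvd_gcd h3 (show 3 ∣ 6 by norm_num)
        rw [Nat.Coprime.gcd_eq_one hr] at this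
        omega
      have hlt : r' < r := by
        have h2 := hpp.two_le
        have hr'0 : 0 < r' := by
          rcases Nat.eq_zero_or_pos r' with h0 | h0
          · rw [h0, mul_zero] at hr'
            exact absurd hr' hr0
          · exact h0
        calc r' < r.minFac * r' := by nlinarith
          _ = r := hr'.symm
      have hcop : r'.Coprime 6 :=
        Nat.Coprime.coprime_dvd_left (Dvd.intro_left _ hr'.symm) hr
      have := countOne_mul_prime hpp hc hp2 hp3 (ih r' hlt hcop)
      rwa [← hr'] at this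

open Classical in
/-- The count of the three-dilate is divisible by three. -/
lemma three_dvd_count {A : Set G} {F : Finset G} (hc : F.card = 6) (h : CountOne A F 1) (x : G) :
    3 ∣ (F.filter fun f => x - 3 • f ∈ A).card := by
  have : Fact (Nat.Prime 3) := ⟨Nat.prime_three⟩
  have h1 := pow_act F 1 (ind (ZMod 3) A) (act_ind_of_countOne (ZMod 3) h) 2
  rw [show 2 + 1 = 3 from rfl, frob_dil, hc] at h1
  have h2 := congrFun h1 x
  rw [sum_ind] at h2
  have h3 : ((6 : ℕ) : ZMod 3) ^ 2 = 0 := by
    rw [(ZMod.natCast_eq_zero_iff 6 3).mpr (by norm_num)]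
    simp
  rw [h3] at h2
  rw [← ZMod.natCast_eq_zero_iff]
  simpa using h2

end Vale.Agent.P043Six
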