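import Vale.Agent.P043Six.Dilation

open scoped BigOperators

namespace Vale.Agent.P043Six

variable {G : Type*} [AddCommGroup G]

/-- Shorthand for the real translation element. -/
noncomputable abbrev T (u : G) : AddMonoidAlgebra ℝ G := tr ℝ u

/-- Shorthand for the real action. -/
noncomputable abbrev ac (c : AddMonoidAlgebra ℝ G) (h : G → ℝ) : G → ℝ := act ℝ G c h

lemma T_add (u v : G) : T (u + v) = T u * T v := tr_add u v

lemma T_zero : T (0 : G) = 1 := tr_zero

lemma T_nsmul (m : ℕ) (u : G) : T (m • u) = (T u) ^ m := tr_nsmul m u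

lemma T_neg_mul (u : G) : T (-u) * T u = 1 := by
  rw [← T_add, neg_add_cancel, T_zero]

lemma T_mul_neg (u : G) : T u * T (-u) = 1 := by
  rw [← T_add, add_neg_cancel, T_zero]

lemma T_sub (u v : G) : T (u - v) = T u * T (-v) := by
  rw [sub_eq_add_neg, T_add]

lemma ac_T (u : G) (h : G → ℝ) (x : G) : ac (T u) h x = h (x - u) := act_tr u h x

lemma ac_mul (c d : AddMonoidAlgebra ℝ G) (h : G → ℝ) : ac (c * d) h = ac c (ac d h) :=
  act_mul_left c d h

lemma ac_add (c d : AddMonoidAlgebra ℝ G) (h : G → ℝ) : ac (c + d) h = ac c h + ac d h :=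
  act_add_left c d h

lemma ac_sub (c d : AddMonoidAlgebra ℝ G) (h : G → ℝ) : ac (c - d) h = ac c h - ac d h :=
  act_sub_left c d h

lemma ac_one (h : G → ℝ) : ac 1 h = h := act_one_left h

lemma ac_zero_right (c : AddMonoidAlgebra ℝ G) : ac c (0 : G → ℝ) = 0 := act_zero_right c

lemma ac_comm (c d : AddMonoidAlgebra ℝ G) (h : G → ℝ) : ac c (ac d h) = ac d (ac c h) :=
  act_comm c d h

/-- Membership in the stabilizer via the group algebra. -/
lemma mem_Stab_iff_ac {h : G → ℝ} {u : G} : u ∈ Stab h ↔ ac (T u) h = h := by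
  constructor
  · intro hu
    ext x
    rw [ac_T]
    have := hu (x - u)
    rw [sub_add_cancel] at this
    exact this.symm
  · intro hu x
    have := congrFun hu (x + u)
    rw [ac_T, add_sub_cancel_right] at this
    exact this.symm

lemma mem_Stab_of_ac_sub {h : G → ℝ} {u : G} (hu : ac (T u - 1) h = 0) : u ∈ Stab h := by
  rw [mem_Stab_iff_ac]
  rw [ac_sub, ac_one, sub_eq_zero] at hu
  exact hu

lemma ac_sub_of_mem_Stab {h : G → ℝ} {u : G} (hu : u ∈ Stab h) : ac (T u - 1) h = 0 := by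
  rw [ac_sub, ac_one, mem_Stab_iff_ac.mp hu, sub_self]

lemma mem_Stab_ac {h : G → ℝ} {u : G} (c : AddMonoidAlgebra ℝ G) (hu : u ∈ Stab h) :
    u ∈ Stab (ac c h) := by
  rw [mem_Stab_iff_ac, ac_comm, mem_Stab_iff_ac.mp hu]

lemma ac_eq_zero_of_unit {u : AddMonoidAlgebra ℝ G} {h : G → ℝ} (hu : IsUnit u)
    (h0 : ac u h = 0) : h = 0 := by
  obtain ⟨v, hv⟩ := hu.exists_left_inv
  have := congrArg (ac v) h0
  rw [← ac_mul, hv, ac_one, ac_zero_right] at this
  exact this

lemma isUnit_T (u : G) : IsUnit (T u) :=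
  IsUnit.of_mul_eq_one _ (T_mul_neg u)

lemma ac_T_eq_zero {u : G} {h : G → ℝ} (h0 : ac (T u) h = 0) : h = 0 :=
  ac_eq_zero_of_unit (isUnit_T u) h0

/-- Periodic functions. -/
def Per (h : G → ℝ) : Prop := ∃ N : ℕ, 0 < N ∧ ∀ y : G, N • y ∈ Stab h

lemma Per.ac {h : G → ℝ} (hp : Per h) (c : AddMonoidAlgebra ℝ G) : Per (ac c h) := by
  obtain ⟨N, hN, hy⟩ := hp
  exact ⟨N, hN, fun y => mem_Stab_ac c (hy y)⟩

lemma per_zero : Per (0 : G → ℝ) := ⟨1, one_pos, fun _ _ => rfl⟩

lemma nsmul_mem_Stab_of_dvd {h : G → ℝ} {N m : ℕ} (hd : N ∣ m) {v : G}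
    (hv : ∀ y : G, N • y ∈ Stab h) : m • v ∈ Stab h := by
  obtain ⟨c, rfl⟩ := hd
  rw [mul_smul]
  exact hv _

/-- The elimination lemma. -/
theorem elim {ι : Type*} [DecidableEq ι] (v : ι → G) (h : G → ℝ) (hb : Bd h) (s : Finset ι) :
    ∀ (L₀ : ℕ), 0 < L₀ →
      (∀ L : ι → ℕ, (∀ i ∈ s, L₀ ∣ L i) → ac (∏ i ∈ s, (T (L i • v i) - 1)) h = 0) →
      (∀ i ∈ s, ∀ m : ℕ, 0 < m → L₀ ∣ m → Per (mean (m • v i) h)) → Per h := by
  induction s using Finset.induction_on with
  | empty =>
    intro L₀ _ hA _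
    have := hA (fun _ => 0) (by simp)
    rw [Finset.prod_empty, ac_one] at this
    rw [this]
    exact per_zero
  | insert i s hi ih =>
    intro L₀ hL₀ hA hB
    set u := L₀ • v i with hu
    obtain ⟨N, hN, hE⟩ := hB i (Finset.mem_insert_self _ _) L₀ hL₀ dvd_rfl
    rw [← hu] at hE
    -- the key computation
    have key : ∀ L : ι → ℕ, (∀ j ∈ s, L₀ ∣ L j) →
        ac (∏ j ∈ s, (T (L j • v j) - 1)) h
          = ac (∏ j ∈ s, (T (L j • v j) - 1)) (mean u h) := by
      intro L hL
      set g := ac (∏ j ∈ s, (T (L j • v j) - 1)) h with hg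
      have h1 := hA (Function.update L i L₀) (by
        intro j hj
        by_cases hji : j = i
        · subst hji
          simp
        · rw [Function.update_of_ne hji]
          exact hL j ((Finset.mem_insert.mp hj).resolve_left hji))
      rw [Finset.prod_insert hi, Function.update_self] at h1
      have h2 : ∏ j ∈ s, (T (Function.update L i L₀ j • v j) - 1)
          = ∏ j ∈ s, (T (L j • v j) - 1) := by
        refine Finset.prod_congr rfl fun j hj => ?_
        rw [Function.update_of_ne]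
        rintro rfl
        exact hi hj
      rw [h2, ac_mul] at h1
      have h3 : u ∈ Stab g := mem_Stab_of_ac_sub h1
      have h4 : mean u g = g := by
        refine mean_eq_of_invariant fun x => h3 x
      rw [← h4, hg]
      exact mean_act hb _
    by_cases hs : s = ∅
    · subst hs
      have := key (fun _ => 0) (by simp)
      simp only [Finset.prod_empty] at this
      rw [ac_one, ac_one] at this
      rw [this]
      exact ⟨N, hN, hE⟩
    · obtain ⟨j₀, hj₀⟩ := Finset.nonempty_iff_ne_empty.mpr hs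
      refine ih (N * L₀) (Nat.mul_pos hN hL₀) ?_ ?_
      · intro L hL
        have hL' : ∀ j ∈ s, L₀ ∣ L j := fun j hj => (Dvd.intro_left N rfl).trans (hL j hj)
        rw [key L hL', ← Finset.mul_prod_erase s _ hj₀, mul_comm, ac_mul]
        have h5 : L j₀ • v j₀ ∈ Stab (mean u h) :=
          nsmul_mem_Stab_of_dvd ((Dvd.intro _ rfl).trans (hL j₀ hj₀)) hE
        rw [ac_sub_of_mem_Stab h5, ac_zero_right]
      · intro j hj m hm hd
        exact hB j (Finset.mem_insert_of_mem hj) m hm ((Dvd.intro_left N rfl).trans hd)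

/-- Dilated tile, real coefficients. -/
noncomputable abbrev dil (F : Finset G) (r : ℕ) : AddMonoidAlgebra ℝ G := dilk ℝ F r

/-- The class of bounded functions behaving as tilings under all admissible dilates. -/
def Cls (F : Finset G) (δ : G → ℝ) : Prop :=
  Bd δ ∧ ∀ r : ℕ, r.Coprime 6 → ac (dil F r) δ = fun _ => 1

lemma ac_const_T (u : G) (c : ℝ) : ac (T u) (fun _ => c) = fun _ => c := act_tr_const u c

lemma ac_dil_const (F : Finset G) (r : ℕ) (c : ℝ) :
    ac (dil F r) (fun _ => c) = fun _ => (F.card : ℝ) * c := act_dilk_const F r c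

lemma Cls.mean {F : Finset G} {δ : G → ℝ} (h : Cls F δ) (u : G) : Cls F (mean u δ) := by
  refine ⟨mean_bd h.1, fun r hr => ?_⟩
  rw [ac, ← mean_act h.1, show act ℝ G (dil F r) δ = _ from h.2 r hr]
  exact mean_eq_of_invariant fun _ => rfl

/-- The ideal of group algebra elements killing a function. -/
def annI (h : G → ℝ) : Ideal (AddMonoidAlgebra ℝ G) where
  carrier := {c | ac c h = 0}
  add_mem' := by
    intro a b ha hb
    simp only [Set.mem_ofPred_eq] at *
    rw [ac_add, ha, hb, add_zero]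
  zero_mem' := by
    simp only [Set.mem_ofPred_eq, ac, map_zero]
    rfl
  smul_mem' := by
    intro c x hx
    simp only [Set.mem_ofPred_eq, smul_eq_mul] at *
    rw [ac_mul, hx, ac_zero_right]

lemma mem_annI {h : G → ℝ} {c : AddMonoidAlgebra ℝ G} : c ∈ annI h ↔ ac c h = 0 := Iff.rfl

section ann

variable [DecidableEq G]

/-- Auxiliary elements in the proof of annihilation. -/
noncomputable def WW (F : Finset G) (L : G → ℕ) (S : Finset G) (r : ℕ) : AddMonoidAlgebra ℝ G :=
  ∑ f ∈ F \ S, T (r • f) * ∏ g ∈ S, (T (L g • f) - T (L g • g))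

lemma WW_insert (F : Finset G) (L : G → ℕ) (S : Finset G) (h : G) (hS : h ∉ S) (r : ℕ) :
    WW F L (insert h S) r = WW F L S (r + L h) - T (L h • h) * WW F L S r := by
  unfold WW
  rw [Finset.mul_sum, ← Finset.sum_sub_distrib, Finset.sdiff_insert]
  rw [← Finset.sum_erase (s := F \ S) (a := h)
    (f := fun f => T ((r + L h) • f) * ∏ g ∈ S, (T (L g • f) - T (L g • g))
      - T (L h • h) * (T (r • f) * ∏ g ∈ S, (T (L g • f) - T (L g • g))))]
  · refine Finset.sum_congr rfl fun f _ => ?_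
    rw [Finset.prod_insert hS, add_smul, T_add]
    ring
  · simp only [add_smul, T_add]
    ring

lemma WW_const {F : Finset G} {δ : G → ℝ} (hδ : Cls F δ) (L : G → ℕ)
    (S : Finset G) (hL : ∀ g ∈ S, 6 ∣ L g) :
    ∃ c : ℝ, (S.Nonempty → c = 0) ∧ ∀ r : ℕ, r.Coprime 6 → ac (WW F L S r) δ = fun _ => c := by
  induction S using Finset.induction_on with
  | empty =>
    refine ⟨1, fun h => absurd h Finset.not_nonempty_empty, fun r hr => ?_⟩
    have : WW F L ∅ r = dil F r := by
      unfold WW dil dilk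
      simp
    rw [this]
    exact hδ.2 r hr
  | insert h S hS ih =>
    obtain ⟨c, -, hc⟩ := ih (fun g hg => hL g (Finset.mem_insert_of_mem hg))
    refine ⟨0, fun _ => rfl, fun r hr => ?_⟩
    rw [WW_insert F L S h hS, ac_sub, ac_mul]
    have hd : 6 ∣ L h := hL h (Finset.mem_insert_self _ _)
    have hr' : (r + L h).Coprime 6 := by
      obtain ⟨k, hk⟩ := hd
      rw [hk]
      unfold Nat.Coprime at *
      rw [show r + 6 * k = r + k * 6 by ring, Nat.gcd_add_mul_right_left]
      exact hr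
    rw [hc _ hr', hc _ hr, ac_const_T]
    ext x
    simp

/-- Annihilation: products of difference operators kill class functions. -/
lemma ann {F : Finset G} {δ : G → ℝ} (hδ : Cls F δ) {f₀ : G} (hf₀ : f₀ ∈ F) (hc : 2 ≤ F.card)
    (L : G → ℕ) (hL : ∀ g ∈ F.erase f₀, 6 ∣ L g) :
    ac (∏ g ∈ F.erase f₀, (T (L g • (f₀ - g)) - 1)) δ = 0 := by
  obtain ⟨c, hc0, hc1⟩ := WW_const hδ L (F.erase f₀) hL
  have hne : (F.erase f₀).Nonempty := by
    rw [← Finset.card_pos, Finset.card_erase_of_mem hf₀]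
    omega
  have h1 := hc1 1 (by norm_num)
  rw [hc0 hne] at h1
  have h2 : F \ F.erase f₀ = {f₀} := by
    ext x
    simp only [Finset.mem_sdiff, Finset.mem_erase, Finset.mem_singleton]
    constructor
    · rintro ⟨h1, h2⟩
      by_contra h3
      exact h2 ⟨h3, h1⟩
    · rintro rfl
      exact ⟨hf₀, by simp⟩
  have h3 : WW F L (F.erase f₀) 1 = (T (1 • f₀) * ∏ g ∈ F.erase f₀, T (L g • g))
      * ∏ g ∈ F.erase f₀, (T (L g • (f₀ - g)) - 1) := by
    unfold WW
    rw [h2, Finset.sum_singleton, mul_assoc, ← Finset.prod_mul_distrib]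
    congr 1
    refine Finset.prod_congr rfl fun g _ => ?_
    rw [mul_sub, mul_one, ← T_add, smul_sub]
    congr 2
    abel
  rw [h3, ac_mul] at h1
  have hu : IsUnit (T (1 • f₀) * ∏ g ∈ F.erase f₀, T (L g • g)) := by
    refine (isUnit_T _).mul ?_
    exact Finset.prod_induction _ IsUnit (fun a b ha hb => ha.mul hb) isUnit_one (fun g _ => isUnit_T _)
  exact ac_eq_zero_of_unit hu h1

end ann

end Vale.Agent.P043Six
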