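import Vale.Agent.P043Six.Classify

open scoped BigOperators

namespace Vale.Agent.P043Six

variable {G : Type*} [AddCommGroup G]

lemma T_flip (L : ℕ) (a b : G) :
    T (L • (a - b)) - 1 = -T (L • (a - b)) * (T (L • (b - a)) - 1) := by
  have : T (L • (a - b)) * T (L • (b - a)) = 1 := by
    rw [← T_add, ← smul_add, show a - b + (b - a) = 0 by abel, smul_zero, T_zero]
  linear_combination this

/-- The product of three difference operators. -/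
noncomputable def A3 (t₁ t₂ t₃ : G) (L₁₂ L₁₃ L₂₃ : ℕ) : AddMonoidAlgebra ℝ G :=
  (T (L₁₂ • (t₁ - t₂)) - 1) * (T (L₁₃ • (t₁ - t₃)) - 1) * (T (L₂₃ • (t₂ - t₃)) - 1)

lemma Bl_pair (t t' : G) (r : ℕ) : Bl [t, t'] r = T (r • t) + T (r • t') := by
  simp [Bl]

lemma IsSix.dil_eq {F : Finset G} {x₁ x₂ x₃ x₄ x₅ x₆ : G} (hF : IsSix F x₁ x₂ x₃ x₄ x₅ x₆) (r : ℕ) :
    dil F r = T (r • x₁) + T (r • x₂) + T (r • x₃) + T (r • x₄) + T (r • x₅) + T (r • x₆) := by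
  show dilk ℝ F r = _
  unfold dilk
  rw [hF.sum]

lemma T_eq_mul (a b : G) : T b = T a * T (b - a) := by
  rw [← T_add]
  congr 1
  abel

lemma T_smul_eq_mul (r : ℕ) (a b : G) : T (r • b) = T (r • a) * T (b - a) ^ r := by
  rw [← T_nsmul, ← T_add, ← smul_add]
  congr 2
  abel

section
variable {F : Finset G} {δ : G → ℝ} {D : AddSubgroup G} {n : ℕ}

lemma pair_mem_D {t t' : G} (h : t' - t ∈ D) : ∀ f ∈ [t, t'], f - t ∈ D := by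
  intro f hf
  simp only [List.mem_cons, List.not_mem_nil, or_false] at hf
  rcases hf with rfl | rfl
  · simp [D.zero_mem]
  · exact h

/-- The three pairs annihilation. -/
lemma pairs_ann (hδ : Cls F δ) (hh : InvD D n δ) {t₁ t₁' t₂ t₂' t₃ t₃' : G}
    (hF : IsSix F t₁ t₁' t₂ t₂' t₃ t₃') (h₁ : t₁' - t₁ ∈ D) (h₂ : t₂' - t₂ ∈ D) (h₃ : t₃' - t₃ ∈ D)
    {L₁₂ L₁₃ L₂₃ : ℕ} (hn₁₂ : n ∣ L₁₂) (h6₁₂ : 6 ∣ L₁₂) (hn₁₃ : n ∣ L₁₃) (h6₁₃ : 6 ∣ L₁₃)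
    (hn₂₃ : n ∣ L₂₃) (h6₂₃ : 6 ∣ L₂₃) :
    A3 t₁ t₂ t₃ L₁₂ L₁₃ L₂₃ * (1 + T (t₁' - t₁)) ∈ annI δ ∧
    A3 t₁ t₂ t₃ L₁₂ L₁₃ L₂₃ * (1 + T (t₂' - t₂)) ∈ annI δ ∧
    A3 t₁ t₂ t₃ L₁₂ L₁₃ L₂₃ * (1 + T (t₃' - t₃)) ∈ annI δ := by
  have hc₁ := pair_mem_D h₁
  have hc₂ := pair_mem_D h₂
  have hc₃ := pair_mem_D h₃
  have hdec : ∀ r, dil F r = Bl [t₁, t₁'] r + Bl [t₂, t₂'] r + Bl [t₃, t₃'] r := by
    intro r
    rw [hF.dil_eq, Bl_pair, Bl_pair, Bl_pair]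
    ring
  have hr : Nat.Coprime 1 6 := by norm_num
  have m₁ := three_block hδ hh hdec hc₁ hc₂ hc₃ hn₁₃ h6₁₃ hn₁₂ h6₁₂ hr
  have m₂ := three_block hδ hh (C₁ := [t₂, t₂']) (C₂ := [t₁, t₁']) (C₃ := [t₃, t₃'])
    (fun r => by rw [hdec]; ring) hc₂ hc₁ hc₃ hn₂₃ h6₂₃ hn₁₂ h6₁₂ hr
  have m₃ := three_block hδ hh (C₁ := [t₃, t₃']) (C₂ := [t₁, t₁']) (C₃ := [t₂, t₂'])
    (fun r => by rw [hdec]; ring) hc₃ hc₁ hc₂ hn₂₃ h6₂₃ hn₁₃ h6₁₃ hr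
  rw [Bl_pair, one_smul, one_smul, T_eq_mul t₁ t₁'] at m₁
  rw [Bl_pair, one_smul, one_smul, T_eq_mul t₂ t₂'] at m₂
  rw [Bl_pair, one_smul, one_smul, T_eq_mul t₃ t₃'] at m₃
  refine ⟨?_, ?_, ?_⟩
  · apply unit_cancel (u := t₁)
    have e : T t₁ * (A3 t₁ t₂ t₃ L₁₂ L₁₃ L₂₃ * (1 + T (t₁' - t₁)))
        = (T (L₂₃ • (t₂ - t₃)) - 1) * ((T (L₁₂ • (t₁ - t₂)) - 1) *
          ((T (L₁₃ • (t₁ - t₃)) - 1) * (T t₁ + T t₁ * T (t₁' - t₁)))) := by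
      unfold A3
      ring
    rw [e]
    exact (annI δ).mul_mem_left _ m₁
  · apply unit_cancel (u := t₂)
    have e : T t₂ * (A3 t₁ t₂ t₃ L₁₂ L₁₃ L₂₃ * (1 + T (t₂' - t₂)))
        = (-T (L₁₂ • (t₁ - t₂)) * (T (L₁₃ • (t₁ - t₃)) - 1)) * ((T (L₁₂ • (t₂ - t₁)) - 1) *
          ((T (L₂₃ • (t₂ - t₃)) - 1) * (T t₂ + T t₂ * T (t₂' - t₂)))) := by
      unfold A3
      rw [T_flip L₁₂ t₁ t₂]
      ring
    rw [e]
    exact (annI δ).mul_mem_left _ m₂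
  · apply unit_cancel (u := t₃)
    have e : T t₃ * (A3 t₁ t₂ t₃ L₁₂ L₁₃ L₂₃ * (1 + T (t₃' - t₃)))
        = ((T (L₁₂ • (t₁ - t₂)) - 1) * (-T (L₁₃ • (t₁ - t₃))) * (-T (L₂₃ • (t₂ - t₃)))) *
          ((T (L₁₃ • (t₃ - t₁)) - 1) *
          ((T (L₂₃ • (t₃ - t₂)) - 1) * (T t₃ + T t₃ * T (t₃' - t₃)))) := by
      unfold A3
      rw [T_flip L₁₃ t₁ t₃, T_flip L₂₃ t₂ t₃]
      ring
    rw [e]
    exact (annI δ).mul_mem_left _ m₃

lemma A3_dil3 (hδ : Cls F δ) (hh : InvD D n δ) {t₁ t₁' t₂ t₂' t₃ t₃' : G}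
    (hF : IsSix F t₁ t₁' t₂ t₂' t₃ t₃') (h₁ : t₁' - t₁ ∈ D) (h₂ : t₂' - t₂ ∈ D) (h₃ : t₃' - t₃ ∈ D)
    {L₁₂ L₁₃ L₂₃ : ℕ} (hn₁₂ : n ∣ L₁₂) (h6₁₂ : 6 ∣ L₁₂) (hn₁₃ : n ∣ L₁₃) (h6₁₃ : 6 ∣ L₁₃)
    (hn₂₃ : n ∣ L₂₃) (h6₂₃ : 6 ∣ L₂₃) :
    A3 t₁ t₂ t₃ L₁₂ L₁₃ L₂₃ * dil F 3 ∈ annI δ := by
  obtain ⟨m₁, m₂, m₃⟩ := pairs_ann hδ hh hF h₁ h₂ h₃ hn₁₂ h6₁₂ hn₁₃ h6₁₃ hn₂₃ h6₂₃
  rw [hF.dil_eq, T_smul_eq_mul 3 t₁ t₁', T_smul_eq_mul 3 t₂ t₂', T_smul_eq_mul 3 t₃ t₃']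
  set A := A3 t₁ t₂ t₃ L₁₂ L₁₃ L₂₃
  have e : A * (T (3 • t₁) + T (3 • t₁) * T (t₁' - t₁) ^ 3 + T (3 • t₂)
        + T (3 • t₂) * T (t₂' - t₂) ^ 3 + T (3 • t₃) + T (3 • t₃) * T (t₃' - t₃) ^ 3)
      = T (3 • t₁) * (1 - T (t₁' - t₁) + T (t₁' - t₁) ^ 2) * (A * (1 + T (t₁' - t₁)))
        + T (3 • t₂) * (1 - T (t₂' - t₂) + T (t₂' - t₂) ^ 2) * (A * (1 + T (t₂' - t₂)))
        + T (3 • t₃) * (1 - T (t₃' - t₃) + T (t₃' - t₃) ^ 2) * (A * (1 + T (t₃' - t₃))) := by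
    ring
  rw [e]
  exact (annI δ).add_mem ((annI δ).add_mem ((annI δ).mul_mem_left _ m₁)
    ((annI δ).mul_mem_left _ m₂)) ((annI δ).mul_mem_left _ m₃)

/-- The elimination step at a leaf with three pairs. -/
lemma leaf222_elim {P : (G → ℝ) → Prop} {c : AddMonoidAlgebra ℝ G} (IH : IHyp F P c D) {N₀ : ℕ}
    (hBd : ∀ δ, P δ → Bd δ)
    (hmean : ∀ δ, P δ → ∀ u : G, ∀ m : ℕ, N₀ ∣ m → P (mean (m • u) δ))
    (hδ : P δ) (hn : 0 < n) (hDn : InvD D n δ) {t₁ t₁' t₂ t₂' t₃ t₃' : G}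
    (hF : IsSix F t₁ t₁' t₂ t₂' t₃ t₃') (h12 : t₁ - t₂ ∉ D) (h13 : t₁ - t₃ ∉ D) (h23 : t₂ - t₃ ∉ D)
    {L₀ : ℕ} (hL₀ : 0 < L₀) (hN₀ : N₀ ∣ L₀)
    (hA : ∀ L₁₂ L₁₃ L₂₃ : ℕ, L₀ ∣ L₁₂ → L₀ ∣ L₁₃ → L₀ ∣ L₂₃ →
      ac (A3 t₁ t₂ t₃ L₁₂ L₁₃ L₂₃) (ac c δ) = 0) : Per (ac c δ) := by
  have ht₁ : t₁ ∈ F := hF.mem.mpr (by simp)
  have ht₂ : t₂ ∈ F := hF.mem.mpr (by simp)
  have ht₃ : t₃ ∈ F := hF.mem.mpr (by simp)
  refine elim (![t₁ - t₂, t₁ - t₃, t₂ - t₃]) (ac c δ) ((hBd δ hδ).act c) Finset.univ L₀ hL₀ ?_ ?_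
  · intro L hL
    rw [Fin.prod_univ_three]
    exact hA (L 0) (L 1) (L 2) (hL 0 (Finset.mem_univ _)) (hL 1 (Finset.mem_univ _))
      (hL 2 (Finset.mem_univ _))
  · intro i _ m hm hd
    have hN : N₀ ∣ m := hN₀.trans hd
    fin_cases i
    · exact step_mean IH hBd hmean hδ hn hDn ⟨t₁, ht₁, t₂, ht₂, h12, 1, by simp⟩ hm hN
    · exact step_mean IH hBd hmean hδ hn hDn ⟨t₁, ht₁, t₃, ht₃, h13, 1, by simp⟩ hm hN
    · exact step_mean IH hBd hmean hδ hn hDn ⟨t₂, ht₂, t₃, ht₃, h23, 1, by simp⟩ hm hN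

lemma Bl_quad (a b c e : G) (r : ℕ) :
    Bl [a, b, c, e] r = T (r • a) + T (r • b) + T (r • c) + T (r • e) := by
  simp [Bl]
  ring

lemma BlNeg_quad (a b c e : G) :
    BlNeg [a, b, c, e] = T (-a) + T (-b) + T (-c) + T (-e) := by
  simp [BlNeg]
  ring

lemma T_neg_eq_mul (a b : G) : T (-b) = T (-a) * T (-(b - a)) := by
  rw [← T_add]
  congr 1
  abel

/-- The three annihilators at a leaf with classes of size two and four. -/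
lemma leaf42_theta (hδ : Cls F δ) (hn : 0 < n) (hh : InvD D n δ) {p p' a b c e : G}
    (hF : IsSix F p p' a b c e) (hp : p' - p ∈ D) (hb : b - a ∈ D) (hc : c - a ∈ D) (he : e - a ∈ D)
    {L : ℕ} (hnL : n ∣ L) (h6L : 6 ∣ L) :
    (T (L • (p - a)) - 1) * (1 + T (p' - p)) ∈ annI δ ∧
    (T (L • (p - a)) - 1) * (1 + T (b - a) + T (c - a) + T (e - a)) ∈ annI δ ∧
    (T (L • (p - a)) - 1) * (1 + T (-(b - a)) + T (-(c - a)) + T (-(e - a))) ∈ annI δ := by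
  have hc₁ := pair_mem_D hp
  have hc₂ : ∀ f ∈ [a, b, c, e], f - a ∈ D := by
    intro f hf
    simp only [List.mem_cons, List.not_mem_nil, or_false] at hf
    rcases hf with rfl | rfl | rfl | rfl
    · simp [D.zero_mem]
    · exact hb
    · exact hc
    · exact he
  have hdec : ∀ r, dil F r = Bl [p, p'] r + Bl [a, b, c, e] r := by
    intro r
    rw [hF.dil_eq, Bl_pair, Bl_quad]
    ring
  have hr : Nat.Coprime 1 6 := by norm_num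
  have m₁ := two_block hδ hh hdec hc₁ hc₂ hnL h6L hr
  have m₂ := two_block' hδ hh hdec hc₁ hc₂ hnL h6L hr
  have m₃ := two_block_neg' hδ hn hh hdec hc₁ hc₂ hnL h6L
  rw [Bl_pair, one_smul, one_smul, T_eq_mul p p'] at m₁
  rw [Bl_quad, one_smul, one_smul, one_smul, one_smul, T_eq_mul a b, T_eq_mul a c, T_eq_mul a e]
    at m₂
  rw [BlNeg_quad, T_neg_eq_mul a b, T_neg_eq_mul a c, T_neg_eq_mul a e] at m₃
  refine ⟨?_, ?_, ?_⟩
  · apply unit_cancel (u := p)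
    have e' : T p * ((T (L • (p - a)) - 1) * (1 + T (p' - p)))
        = (T (L • (p - a)) - 1) * (T p + T p * T (p' - p)) := by ring
    rw [e']
    exact m₁
  · apply unit_cancel (u := a)
    have e' : T a * ((T (L • (p - a)) - 1) * (1 + T (b - a) + T (c - a) + T (e - a)))
        = (T (L • (p - a)) - 1) * (T a + T a * T (b - a) + T a * T (c - a) + T a * T (e - a)) := by
      ring
    rw [e']
    exact m₂
  · apply unit_cancel (u := -a)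
    have e' : T (-a) * ((T (L • (p - a)) - 1) *
          (1 + T (-(b - a)) + T (-(c - a)) + T (-(e - a))))
        = (T (L • (p - a)) - 1) * (T (-a) + T (-a) * T (-(b - a)) + T (-a) * T (-(c - a))
          + T (-a) * T (-(e - a))) := by
      ring
    rw [e']
    exact m₃

lemma cube_identity {R : Type*} [CommRing R] (b c e b' c' e' : R) (hb : b * b' = 1)
    (hc : c * c' = 1) (he : e * e' = 1) :
    1 + b ^ 3 + c ^ 3 + e ^ 3 = ((1 + b + c + e) ^ 2 - 3 * (b + c + e + b * c + b * e + c * e))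
        * (1 + b + c + e) + (3 * (b * c * e)) * (1 + b' + c' + e') := by
  linear_combination (-3 * c * e) * hb + (-3 * b * e) * hc + (-3 * b * c) * he

lemma IsSix.sup_of_42 {p p' a b c e : G} (hF : IsSix F p p' a b c e) (hgen : Gen F)
    (hp : p' - p ∈ D) (hb : b - a ∈ D) (hc : c - a ∈ D) (he : e - a ∈ D) :
    D ⊔ AddSubgroup.zmultiples (p - a) = ⊤ := by
  have hD : D ≤ D ⊔ AddSubgroup.zmultiples (p - a) := le_sup_left
  have hwm : p - a ∈ D ⊔ AddSubgroup.zmultiples (p - a) :=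
    (le_sup_right : AddSubgroup.zmultiples (p - a) ≤ D ⊔ AddSubgroup.zmultiples (p - a))
      (AddSubgroup.mem_zmultiples _)
  refine hF.gen_top hgen _ (hD hp) ?_ ?_ ?_ ?_
  · have := AddSubgroup.neg_mem _ hwm
    rwa [neg_sub] at this
  · have := AddSubgroup.sub_mem _ (hD hb) hwm
    rwa [show b - a - (p - a) = b - p by abel] at this
  · have := AddSubgroup.sub_mem _ (hD hc) hwm
    rwa [show c - a - (p - a) = c - p by abel] at this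
  · have := AddSubgroup.sub_mem _ (hD he) hwm
    rwa [show e - a - (p - a) = e - p by abel] at this

/-- The first stage at a leaf with classes of size two and four. -/
lemma leaf42_stage1 (hgen : Gen F) (hδ : Cls F δ) (hn : 0 < n) (hh : InvD D n δ)
    {p p' a b c e : G} (hF : IsSix F p p' a b c e) (hp : p' - p ∈ D) (hb : b - a ∈ D)
    (hc : c - a ∈ D) (he : e - a ∈ D) : Per (ac (dil F 3) δ) := by
  have hnL : n ∣ 6 * n := Dvd.intro_left 6 rfl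
  have h6L : 6 ∣ 6 * n := Dvd.intro _ rfl
  obtain ⟨m₁, m₂, m₃⟩ := leaf42_theta hδ hn hh hF hp hb hc he hnL h6L
  refine per_of_sup (hF.sup_of_42 hgen hp hb hc he) hn (m := 6 * n) (by omega) (hh.ac _) ?_
  refine mem_Stab_of_ac_sub ?_
  rw [← ac_mul, ← mem_annI, hF.dil_eq, T_smul_eq_mul 3 p p', T_smul_eq_mul 3 a b,
    T_smul_eq_mul 3 a c, T_smul_eq_mul 3 a e]
  set A := T ((6 * n) • (p - a)) - 1
  have hid := cube_identity (T (b - a)) (T (c - a)) (T (e - a)) (T (-(b - a))) (T (-(c - a)))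
    (T (-(e - a))) (T_mul_neg _) (T_mul_neg _) (T_mul_neg _)
  have e' : A * (T (3 • p) + T (3 • p) * T (p' - p) ^ 3 + T (3 • a) + T (3 • a) * T (b - a) ^ 3
        + T (3 • a) * T (c - a) ^ 3 + T (3 • a) * T (e - a) ^ 3)
      = T (3 • p) * (1 - T (p' - p) + T (p' - p) ^ 2) * (A * (1 + T (p' - p)))
        + T (3 • a) * ((((1 + T (b - a) + T (c - a) + T (e - a)) ^ 2
            - 3 * (T (b - a) + T (c - a) + T (e - a) + T (b - a) * T (c - a)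
              + T (b - a) * T (e - a) + T (c - a) * T (e - a))))
            * (A * (1 + T (b - a) + T (c - a) + T (e - a)))
          + (3 * (T (b - a) * T (c - a) * T (e - a)))
            * (A * (1 + T (-(b - a)) + T (-(c - a)) + T (-(e - a))))) := by
    linear_combination (T (3 • a) * A) * hid
  rw [e']
  set I := annI δ
  exact I.add_mem (I.mul_mem_left _ m₁) (I.mul_mem_left _ (I.add_mem (I.mul_mem_left _ m₂)
    (I.mul_mem_left _ m₃)))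

end

/-- First stage: the three-dilate of a class function is periodic. -/
theorem stage1 (hG : AddGroup.FG G) {F : Finset G} (hgen : Gen F) (hcard : F.card = 6)
    (hNo : ¬ PerTile F) {δ : G → ℝ} (hδ : Cls F δ) : Per (ac (dil F 3) δ) := by
  have main := rec_main hcard (P := Cls F) (c := dil F 3) (N₀ := 1) one_pos (fun _ h => h)
    (fun _ h u m _ => h.mean _) ?_ ⊥ δ hδ 1 one_pos (by
      intro y hy
      rw [AddSubgroup.mem_bot.mp hy, smul_zero]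
      exact AddSubgroup.zero_mem _)
  · exact main
  · intro D IH hleaf δ hδ n hn hDn
    rcases classify hcard hleaf with hall | ⟨p, p', a, b, c, e, hF, hp, hb, hc, he⟩ |
      ⟨t₁, a₁, b₁, t₂, a₂, b₂, hF, h₁, h₂, h₃, h₄⟩ |
      ⟨t₁, t₁', t₂, t₂', t₃, t₃', hF, h₁, h₂, h₃, h12, h13, h23⟩
    · have htop := hgen D hall
      refine Per.ac ⟨n, hn, fun y => hDn y ?_⟩ _
      rw [htop]
      exact AddSubgroup.mem_top y
    · exact leaf42_stage1 hgen hδ hn hDn hF hp hb hc he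
    · exact (leaf33 hG hgen hF h₁ h₂ h₃ h₄ hNo hδ hn hDn).ac _
    · refine leaf222_elim IH (fun δ h => h.1) (fun _ h u m _ => h.mean _) hδ hn hDn hF h12 h13 h23
        (L₀ := 6 * n) (by omega) (one_dvd _) ?_
      intro L₁₂ L₁₃ L₂₃ d₁ d₂ d₃
      rw [← ac_mul]
      exact A3_dil3 hδ hDn hF h₁ h₂ h₃ ((Dvd.intro_left 6 rfl).trans d₁)
        ((Dvd.intro _ rfl).trans d₁) ((Dvd.intro_left 6 rfl).trans d₂)
        ((Dvd.intro _ rfl).trans d₂) ((Dvd.intro_left 6 rfl).trans d₃)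
        ((Dvd.intro _ rfl).trans d₃)

end Vale.Agent.P043Six
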