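import Vale.Agent.P043Six.Pattern
import Vale.Agent.P043Six.Stage1

open scoped BigOperators

namespace Vale.Agent.P043Six

variable {G H : Type*} [AddCommGroup G] [AddCommGroup H]

section fourier

variable [Fintype H] {π : G →+ H} (hπ : Function.Surjective π)

/-- Fourier coefficient of a function factoring through a finite quotient. -/
noncomputable def hat (h : G → ℝ) (χ : AddChar H ℂ) : ℂ :=
  ∑ y : H, ((h (Function.surjInv hπ y) : ℝ) : ℂ) * χ y

lemma bar_eq {h : G → ℝ} (hh : ∀ y, π y = 0 → y ∈ Stab h) (x : G) :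
    h (Function.surjInv hπ (π x)) = h x := by
  have h1 : π (Function.surjInv hπ (π x) - x) = 0 := by
    rw [map_sub, Function.surjInv_eq hπ, sub_self]
  have h2 := hh _ h1 x
  rw [add_sub_cancel] at h2
  exact h2

lemma hat_T {h : G → ℝ} (hh : ∀ y, π y = 0 → y ∈ Stab h) (u : G) (χ : AddChar H ℂ) :
    hat hπ (ac (T u) h) χ = χ (π u) * hat hπ h χ := by
  unfold hat
  rw [Finset.mul_sum]
  refine (Equiv.sum_comp (Equiv.addRight (π u)) _).symm.trans ?_
  refine Finset.sum_congr rfl fun y _ => ?_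
  simp only [Equiv.coe_addRight]
  rw [ac_T]
  have e : h (Function.surjInv hπ (y + π u) - u) = h (Function.surjInv hπ y) := by
    rw [← bar_eq hπ hh (Function.surjInv hπ (y + π u) - u)]
    rw [map_sub, Function.surjInv_eq hπ, add_sub_cancel_right]
  rw [e, AddChar.map_add_eq_mul]
  ring

lemma hat_dil {h : G → ℝ} (hh : ∀ y, π y = 0 → y ∈ Stab h) (F : Finset G) (r : ℕ)
    (χ : AddChar H ℂ) :
    hat hπ (ac (dil F r) h) χ = (∑ f ∈ F, χ (π (r • f))) * hat hπ h χ := by
  rw [Finset.sum_mul]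
  have e : ∀ f ∈ F, χ (π (r • f)) * hat hπ h χ = hat hπ (ac (T (r • f)) h) χ :=
    fun f _ => (hat_T hπ hh _ χ).symm
  rw [Finset.sum_congr rfl e]
  unfold hat
  rw [Finset.sum_comm]
  refine Finset.sum_congr rfl fun y _ => ?_
  rw [← Finset.sum_mul]
  congr 1
  have e2 : ac (dil F r) h (Function.surjInv hπ y)
      = ∑ f ∈ F, h (Function.surjInv hπ y - r • f) := act_dilk_apply F r h _
  rw [e2]
  push_cast
  refine Finset.sum_congr rfl fun f _ => ?_
  rw [ac_T]

lemma hat_const (c : ℝ) {χ : AddChar H ℂ} (hχ : χ ≠ 0) : hat hπ (fun _ => c) χ = 0 := by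
  unfold hat
  rw [← Finset.mul_sum, AddChar.sum_eq_zero_iff_ne_zero.mpr hχ, mul_zero]

lemma card_mul_eq [DecidableEq H] {h : G → ℝ} (hh : ∀ y, π y = 0 → y ∈ Stab h) (x : G) :
    (Fintype.card H : ℂ) * (h x : ℂ) = ∑ χ : AddChar H ℂ, χ (-π x) * hat hπ h χ := by
  unfold hat
  simp only [Finset.mul_sum]
  rw [Finset.sum_comm]
  have e : ∀ y : H, ∑ χ : AddChar H ℂ, χ (-π x) * (((h (Function.surjInv hπ y) : ℝ) : ℂ) * χ y)
      = ((h (Function.surjInv hπ y) : ℝ) : ℂ) * ∑ χ : AddChar H ℂ, χ (y - π x) := by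
    intro y
    rw [Finset.mul_sum]
    refine Finset.sum_congr rfl fun χ _ => ?_
    rw [sub_eq_add_neg, AddChar.map_add_eq_mul]
    ring
  simp only [e, AddChar.sum_apply_eq_ite, sub_eq_zero]
  rw [Finset.sum_eq_single (π x)]
  · rw [if_pos rfl, bar_eq hπ hh]
    ring
  · intro y _ hy
    rw [if_neg hy, mul_zero]
  · intro hn
    exact absurd (Finset.mem_univ _) hn

/-- Invariance from the location of the spectrum. -/
lemma inv_of_spec [DecidableEq H] {h : G → ℝ} (hh : ∀ y, π y = 0 → y ∈ Stab h) (v : G)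
    (hs : ∀ χ : AddChar H ℂ, hat hπ h χ ≠ 0 → χ (π v) = 1) : v ∈ Stab h := by
  intro x
  have h1 := card_mul_eq hπ hh (x + v)
  have h2 := card_mul_eq hπ hh x
  have e : ∀ χ : AddChar H ℂ, χ (-π (x + v)) * hat hπ h χ = χ (-π x) * hat hπ h χ := by
    intro χ
    by_cases h0 : hat hπ h χ = 0
    · rw [h0, mul_zero, mul_zero]
    · have hv := hs χ h0
      rw [map_add, neg_add, AddChar.map_add_eq_mul, AddChar.map_neg_eq_inv χ (π v), hv, inv_one,
        mul_one]
  rw [Finset.sum_congr rfl fun χ _ => e χ, ← h2] at h1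
  have hc : (Fintype.card H : ℂ) ≠ 0 := by
    have := Fintype.card_ne_zero (α := H)
    exact_mod_cast this
  have h3 := mul_left_cancel₀ hc h1
  exact_mod_cast h3

/-- The spectrum is trivial on stabilizers. -/
lemma spec_of_inv {h : G → ℝ} (hh : ∀ y, π y = 0 → y ∈ Stab h) {d : G} (hd : d ∈ Stab h)
    {χ : AddChar H ℂ} (h0 : hat hπ h χ ≠ 0) : χ (π d) = 1 := by
  have h1 := hat_T hπ hh d χ
  rw [mem_Stab_iff_ac.mp hd] at h1
  have h2 : (χ (π d) - 1) * hat hπ h χ = 0 := by
    linear_combination -h1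
  rcases mul_eq_zero.mp h2 with h3 | h3
  · exact sub_eq_zero.mp h3
  · exact absurd h3 h0

end fourier

section ker

/-- The kernel of a character. -/
def kerChar (χ : AddChar G ℂ) : AddSubgroup G where
  carrier := {x | χ x = 1}
  add_mem' := by
    intro a b ha hb
    simp only [Set.mem_ofPred_eq] at *
    rw [AddChar.map_add_eq_mul, ha, hb, mul_one]
  zero_mem' := by
    simp only [Set.mem_ofPred_eq]
    exact AddChar.map_zero_eq_one χ
  neg_mem' := by
    intro a ha
    simp only [Set.mem_ofPred_eq] at *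
    rw [AddChar.map_neg_eq_inv, ha, inv_one]

lemma mem_kerChar {χ : AddChar G ℂ} {x : G} : x ∈ kerChar χ ↔ χ x = 1 := Iff.rfl

/-- The subgroup on which a character has cube one. -/
def cubeSub (χ : AddChar G ℂ) : AddSubgroup G where
  carrier := {x | χ x ^ 3 = 1}
  add_mem' := by
    intro a b ha hb
    simp only [Set.mem_ofPred_eq] at *
    rw [AddChar.map_add_eq_mul, mul_pow, ha, hb, mul_one]
  zero_mem' := by
    simp only [Set.mem_ofPred_eq]
    rw [AddChar.map_zero_eq_one, one_pow]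
  neg_mem' := by
    intro a ha
    simp only [Set.mem_ofPred_eq] at *
    rw [AddChar.map_neg_eq_inv, inv_pow, ha, inv_one]

/-- The subgroup on which two characters agree. -/
def eqSub (χ χ₀ : AddChar G ℂ) : AddSubgroup G where
  carrier := {x | χ x = χ₀ x}
  add_mem' := by
    intro a b ha hb
    simp only [Set.mem_ofPred_eq] at *
    rw [AddChar.map_add_eq_mul, AddChar.map_add_eq_mul, ha, hb]
  zero_mem' := by
    simp only [Set.mem_ofPred_eq]
    rw [AddChar.map_zero_eq_one, AddChar.map_zero_eq_one]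
  neg_mem' := by
    intro a ha
    simp only [Set.mem_ofPred_eq] at *
    rw [AddChar.map_neg_eq_inv, AddChar.map_neg_eq_inv, ha]

/-- The subgroup on which a character is the square of another. -/
def sqSub (χ χ₀ : AddChar G ℂ) : AddSubgroup G where
  carrier := {x | χ x = χ₀ x ^ 2}
  add_mem' := by
    intro a b ha hb
    simp only [Set.mem_ofPred_eq] at *
    rw [AddChar.map_add_eq_mul, AddChar.map_add_eq_mul, ha, hb, mul_pow]
  zero_mem' := by
    simp only [Set.mem_ofPred_eq]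
    rw [AddChar.map_zero_eq_one, AddChar.map_zero_eq_one, one_pow]
  neg_mem' := by
    intro a ha
    simp only [Set.mem_ofPred_eq] at *
    rw [AddChar.map_neg_eq_inv, AddChar.map_neg_eq_inv, ha, inv_pow]

end ker

/-- Averages along a vector. -/
noncomputable def avgE (N : ℕ) (d : G) : AddMonoidAlgebra ℝ G :=
  ∑ j ∈ Finset.range N, ((N : ℝ)⁻¹) • T (j • d)

lemma ac_avgE_apply (N : ℕ) (d : G) (h : G → ℝ) (x : G) :
    ac (avgE N d) h x = (N : ℝ)⁻¹ * ∑ j ∈ Finset.range N, h (x - j • d) := by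
  unfold avgE
  rw [ac, act_sum_left, Finset.sum_apply, Finset.mul_sum]
  refine Finset.sum_congr rfl fun j _ => ?_
  rw [act_smul_left, Pi.smul_apply, smul_eq_mul]
  congr 1
  exact ac_T _ _ _

lemma T_sub_avgE {N : ℕ} (d : G) : (T d - 1) * avgE N d = ((N : ℝ)⁻¹) • (T (N • d) - 1) := by
  unfold avgE
  rw [← Finset.smul_sum, mul_smul_comm]
  congr 1
  rw [Finset.mul_sum]
  have : ∀ j ∈ Finset.range N, (T d - 1) * T (j • d) = T ((j + 1) • d) - T (j • d) := by
    intro j _
    rw [add_smul, one_smul, T_add]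
    ring
  rw [Finset.sum_congr rfl this, Finset.sum_range_sub (fun j : ℕ => T (j • d)) N]
  simp [T_zero]

lemma mem_Stab_avg {N : ℕ} {d : G} {h : G → ℝ} (hd : N • d ∈ Stab h) :
    d ∈ Stab (ac (avgE N d) h) := by
  refine mem_Stab_of_ac_sub ?_
  rw [← ac_mul, T_sub_avgE]
  show act ℝ G (((N : ℝ)⁻¹) • (T (N • d) - 1)) h = 0
  rw [act_smul_left]
  show ((N : ℝ)⁻¹) • ac (T (N • d) - 1) h = 0
  rw [ac_sub_of_mem_Stab hd, smul_zero]

lemma avg_lower {N : ℕ} (hN : 0 < N) {d : G} {h : G → ℝ} {x : G} {c : ℝ}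
    (hc : ∀ j : ℕ, c ≤ h (x - j • d)) : c ≤ ac (avgE N d) h x := by
  rw [ac_avgE_apply]
  have hN' : (0 : ℝ) < N := by exact_mod_cast hN
  have h1 : (N : ℝ) * c ≤ ∑ j ∈ Finset.range N, h (x - j • d) := by
    calc (N : ℝ) * c = ∑ _j ∈ Finset.range N, c := by
          rw [Finset.sum_const, Finset.card_range, nsmul_eq_mul]
      _ ≤ _ := Finset.sum_le_sum fun j _ => hc j
  calc c = (N : ℝ)⁻¹ * ((N : ℝ) * c) := by field_simp
    _ ≤ _ := mul_le_mul_of_nonneg_left h1 (by positivity)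

lemma avg_nonneg {N : ℕ} {d : G} {h : G → ℝ} (hh : ∀ x, 0 ≤ h x) (x : G) :
    0 ≤ ac (avgE N d) h x := by
  rw [ac_avgE_apply]
  exact mul_nonneg (by positivity) (Finset.sum_nonneg fun j _ => hh _)

lemma avg_zero {N : ℕ} (hN : 0 < N) {d : G} {h : G → ℝ} (hh : ∀ x, 0 ≤ h x) {x : G}
    (h0 : ac (avgE N d) h x = 0) : h x = 0 := by
  rw [ac_avgE_apply] at h0
  have hN' : (N : ℝ)⁻¹ ≠ 0 := by
    have : (N : ℝ) ≠ 0 := by exact_mod_cast hN.ne'
    exact inv_ne_zero this
  have h1 := (mul_eq_zero.mp h0).resolve_left hN'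
  have h2 := (Finset.sum_eq_zero_iff_of_nonneg (fun j _ => hh _)).mp h1 0
    (Finset.mem_range.mpr hN)
  simpa using h2

lemma avg_const {N : ℕ} (hN : 0 < N) (d : G) (c : ℝ) :
    ac (avgE N d) (fun _ => c) = fun _ => c := by
  ext x
  rw [ac_avgE_apply]
  have hN' : (N : ℝ) ≠ 0 := by exact_mod_cast hN.ne'
  simp only [Finset.sum_const, Finset.card_range, nsmul_eq_mul]
  field_simp

end Vale.Agent.P043Six
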