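import Vale.Agent.P043Six.Blocks

open scoped BigOperators

namespace Vale.Agent.P043Six

variable {G : Type*} [AddCommGroup G]

/-- The differences of the tile generate the group. -/
def Gen (F : Finset G) : Prop := ∀ W : AddSubgroup G, (∀ f ∈ F, ∀ g ∈ F, f - g ∈ W) → W = ⊤

lemma IsSix.gen_top {F : Finset G} {x₁ x₂ x₃ x₄ x₅ x₆ : G} (hF : IsSix F x₁ x₂ x₃ x₄ x₅ x₆)
    (hgen : Gen F) (W : AddSubgroup G) (h₂ : x₂ - x₁ ∈ W) (h₃ : x₃ - x₁ ∈ W) (h₄ : x₄ - x₁ ∈ W)
    (h₅ : x₅ - x₁ ∈ W) (h₆ : x₆ - x₁ ∈ W) : W = ⊤ := by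
  have key : ∀ f ∈ F, f - x₁ ∈ W := by
    intro f hf
    rcases hF.mem.mp hf with rfl | rfl | rfl | rfl | rfl | rfl
    · simp [W.zero_mem]
    · exact h₂
    · exact h₃
    · exact h₄
    · exact h₅
    · exact h₆
  refine hgen W fun f hf g hg => ?_
  have := W.sub_mem (key f hf) (key g hg)
  rwa [show f - x₁ - (g - x₁) = f - g by abel] at this

lemma per_of_sup {D : AddSubgroup G} {w : G} (hsup : D ⊔ AddSubgroup.zmultiples w = ⊤) {n m : ℕ}
    (hn : 0 < n) (hm : 0 < m) {h : G → ℝ} (hh : InvD D n h) (hw : m • w ∈ Stab h) : Per h := by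
  refine ⟨n * m, Nat.mul_pos hn hm, fun y => ?_⟩
  have hy : y ∈ D ⊔ AddSubgroup.zmultiples w := by
    rw [hsup]
    exact AddSubgroup.mem_top y
  rw [AddSubgroup.mem_sup] at hy
  obtain ⟨d, hd, u, hu, rfl⟩ := hy
  obtain ⟨j, rfl⟩ := AddSubgroup.mem_zmultiples_iff.mp hu
  rw [smul_add]
  refine AddSubgroup.add_mem _ ?_ ?_
  · rw [mul_comm, mul_smul]
    exact AddSubgroup.nsmul_mem _ (hh d hd) _
  · have e : (n * m) • (j • w) = (j * n) • (m • w) := by
      rw [smul_comm, ← natCast_zsmul, ← natCast_zsmul, smul_smul, smul_smul]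
      congr 1
      push_cast
      ring
    rw [e]
    exact AddSubgroup.zsmul_mem _ hw _

lemma sign_char {D : AddSubgroup G} {w : G} (hsup : D ⊔ AddSubgroup.zmultiples w = ⊤)
    (c : G →+ Circ) (h0 : ∀ y ∈ D, c y = 0) (h2 : 2 • c w = 0) (y : G) : c y = 0 ∨ c y = c w := by
  have hy : y ∈ D ⊔ AddSubgroup.zmultiples w := by
    rw [hsup]
    exact AddSubgroup.mem_top y
  rw [AddSubgroup.mem_sup] at hy
  obtain ⟨d, hd, u, hu, rfl⟩ := hy
  obtain ⟨j, rfl⟩ := AddSubgroup.mem_zmultiples_iff.mp hu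
  rw [map_add, h0 d hd, zero_add, map_zsmul]
  have h2' : (2 : ℤ) • c w = 0 := by
    rw [show (2 : ℤ) = ((2 : ℕ) : ℤ) by rfl, natCast_zsmul, h2]
  have hk : j = 2 * (j / 2) + j % 2 := (Int.mul_ediv_add_emod j 2).symm
  rcases Int.emod_two_eq_zero_or_one j with h | h
  · left
    rw [hk, h, add_zero, mul_comm, mul_smul, h2', smul_zero]
  · right
    rw [hk, h, add_smul, mul_comm, mul_smul, h2', smul_zero, zero_add, one_smul]

lemma not_mem_sup_two {D : AddSubgroup G} {w : G} (h : ∀ κ : ℕ, 0 < κ → κ • w ∉ D) :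
    w ∉ D ⊔ AddSubgroup.zmultiples (2 • w) := by
  intro hw
  rw [AddSubgroup.mem_sup] at hw
  obtain ⟨d, hd, u, hu, e⟩ := hw
  obtain ⟨j, rfl⟩ := AddSubgroup.mem_zmultiples_iff.mp hu
  have h1 : (1 - 2 * j) • w = d := by
    have e2 : j • (2 • w) = (2 * j) • w := by
      rw [← natCast_zsmul, smul_smul]
      congr 1
      push_cast
      ring
    rw [e2] at e
    rw [sub_smul, one_smul]
    exact sub_eq_of_eq_add e.symm
  have hne : 1 - 2 * j ≠ 0 := by omega
  have hκ : 0 < (1 - 2 * j).natAbs := Int.natAbs_pos.mpr hne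
  apply h _ hκ
  rcases Int.natAbs_eq (1 - 2 * j) with h2 | h2
  · have : ((1 - 2 * j).natAbs : ℤ) • w = d := by rw [← h2, h1]
    rw [natCast_zsmul] at this
    rwa [this]
  · have : ((1 - 2 * j).natAbs : ℤ) • w = -d := by
      have : ((1 - 2 * j).natAbs : ℤ) = -(1 - 2 * j) := by omega
      rw [this, neg_smul, h1]
    rw [natCast_zsmul] at this
    rw [this]
    exact D.neg_mem hd

/-- The leaf with two classes of size three. -/
theorem leaf33 (hG : AddGroup.FG G) {F : Finset G} (hgen : Gen F) {t₁ a₁ b₁ t₂ a₂ b₂ : G}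
    (hF : IsSix F t₁ a₁ b₁ t₂ a₂ b₂) {D : AddSubgroup G}
    (ha₁ : a₁ - t₁ ∈ D) (hb₁ : b₁ - t₁ ∈ D) (ha₂ : a₂ - t₂ ∈ D) (hb₂ : b₂ - t₂ ∈ D)
    (hNo : ¬ PerTile F) {δ : G → ℝ} (hδ : Cls F δ) {n : ℕ} (hn : 0 < n) (hh : InvD D n δ) :
    Per δ := by
  set w := t₁ - t₂ with hw
  have hsup : D ⊔ AddSubgroup.zmultiples w = ⊤ := by
    have hD : D ≤ D ⊔ AddSubgroup.zmultiples w := le_sup_left
    have hwm : w ∈ D ⊔ AddSubgroup.zmultiples w :=
      (le_sup_right : AddSubgroup.zmultiples w ≤ D ⊔ AddSubgroup.zmultiples w)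
        (AddSubgroup.mem_zmultiples w)
    refine hF.gen_top hgen _ (hD ha₁) (hD hb₁) ?_ ?_ ?_
    · have := AddSubgroup.neg_mem _ hwm
      rwa [hw, neg_sub] at this
    · have := AddSubgroup.sub_mem _ (hD ha₂) hwm
      rwa [show a₂ - t₂ - w = a₂ - t₁ by rw [hw]; abel] at this
    · have := AddSubgroup.sub_mem _ (hD hb₂) hwm
      rwa [show b₂ - t₂ - w = b₂ - t₁ by rw [hw]; abel] at this
  by_cases hκ : ∃ κ : ℕ, 0 < κ ∧ κ • w ∈ D
  · obtain ⟨κ, hκ0, hκD⟩ := hκ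
    refine per_of_sup hsup hn (Nat.mul_pos hn hκ0) hh ?_
    rw [mul_smul]
    exact hh _ hκD
  push Not at hκ
  by_contra hP
  set L := 6 * n with hL
  have hL0 : 0 < L := by omega
  have hnL : n ∣ L := Dvd.intro_left 6 rfl
  have h6L : 6 ∣ L := Dvd.intro _ rfl
  set A := T (L • w) - 1 with hA
  set ϑ := ac A δ with hϑ
  have hϑ0 : ϑ ≠ 0 := by
    intro h0
    exact hP (per_of_sup hsup hn hL0 hh (mem_Stab_of_ac_sub h0))
  set C₁ := [t₁, a₁, b₁] with hC₁
  set C₂ := [t₂, a₂, b₂] with hC₂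
  have hdec : ∀ r, dil F r = Bl C₁ r + Bl C₂ r := by
    intro r
    show dilk ℝ F r = _
    unfold dilk
    rw [hF.sum]
    simp only [Bl, hC₁, hC₂, List.map_cons, List.map_nil, List.sum_cons, List.sum_nil, add_zero]
    show _ = T (r • t₁) + (T (r • a₁) + T (r • b₁)) + (T (r • t₂) + (T (r • a₂) + T (r • b₂)))
    show T (r • t₁) + T (r • a₁) + T (r • b₁) + T (r • t₂) + T (r • a₂) + T (r • b₂) = _
    ring
  have hC₁D : ∀ f ∈ C₁, f - t₁ ∈ D := by
    intro f hf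
    simp only [hC₁, List.mem_cons, List.not_mem_nil, or_false] at hf
    rcases hf with rfl | rfl | rfl
    · simp [D.zero_mem]
    · exact ha₁
    · exact hb₁
  have hC₂D : ∀ f ∈ C₂, f - t₂ ∈ D := by
    intro f hf
    simp only [hC₂, List.mem_cons, List.not_mem_nil, or_false] at hf
    rcases hf with rfl | rfl | rfl
    · simp [D.zero_mem]
    · exact ha₂
    · exact hb₂
  have key : ∀ (t a b : G), A * Bl [t, a, b] 1 ∈ annI δ → A * BlNeg [t, a, b] ∈ annI δ →
      (a - t ∉ Stab ϑ ∧ 3 • (a - t) ∈ Stab ϑ ∧ (a - t) + (b - t) ∈ Stab ϑ) := by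
    intro t a b h1 h2
    refine triple_stab hϑ0 ?_ ?_
    · rw [hϑ, ← ac_mul, ← mem_annI]
      apply unit_cancel (u := t)
      have e : T t * ((1 + T (a - t) + T (b - t)) * A) = A * Bl [t, a, b] 1 := by
        have e1 : T a = T t * T (a - t) := by rw [← T_add]; congr 1; abel
        have e2 : T b = T t * T (b - t) := by rw [← T_add]; congr 1; abel
        simp only [Bl, List.map_cons, List.map_nil, List.sum_cons, List.sum_nil, add_zero, one_smul]
        rw [e1, e2]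
        ring
      rw [e]
      exact h1
    · rw [hϑ, ← ac_mul, ← mem_annI]
      apply unit_cancel (u := -t)
      have e : T (-t) * ((1 + T (-(a - t)) + T (-(b - t))) * A) = A * BlNeg [t, a, b] := by
        have e1 : T (-a) = T (-t) * T (-(a - t)) := by rw [← T_add]; congr 1; abel
        have e2 : T (-b) = T (-t) * T (-(b - t)) := by rw [← T_add]; congr 1; abel
        simp only [BlNeg, List.map_cons, List.map_nil, List.sum_cons, List.sum_nil, add_zero]
        rw [e1, e2]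
        ring
      rw [e]
      exact h2
  obtain ⟨h1a, h1b, h1c⟩ := key t₁ a₁ b₁
    (two_block hδ hh hdec hC₁D hC₂D hnL h6L (by norm_num))
    (two_block_neg hδ hn hh hdec hC₁D hC₂D hnL h6L)
  obtain ⟨h2a, h2b, h2c⟩ := key t₂ a₂ b₂
    (two_block' hδ hh hdec hC₁D hC₂D hnL h6L (by norm_num))
    (two_block_neg' hδ hn hh hdec hC₁D hC₂D hnL h6L)
  obtain ⟨c, hc0, hc1, hc2⟩ := char_combine h1a h2a
  have h3₁ : 3 • c (a₁ - t₁) = 0 := by
    rw [← map_nsmul]
    exact hc0 _ h1b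
  have h3₂ : 3 • c (a₂ - t₂) = 0 := by
    rw [← map_nsmul]
    exact hc0 _ h2b
  have hneg₁ : c (b₁ - t₁) = - c (a₁ - t₁) := by
    have := hc0 _ h1c
    rw [map_add] at this
    exact eq_neg_of_add_eq_zero_right this
  have hneg₂ : c (b₂ - t₂) = - c (a₂ - t₂) := by
    have := hc0 _ h2c
    rw [map_add] at this
    exact eq_neg_of_add_eq_zero_right this
  obtain ⟨cw, hcw0, hcw1⟩ := exists_char_ne _ (not_mem_sup_two (D := D) (w := w) hκ)
  have hcwD : ∀ y ∈ D, cw y = 0 := fun y hy => hcw0 y (le_sup_left (a := D) hy)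
  have hcw2 : 2 • cw w = 0 := by
    rw [← map_nsmul]
    exact hcw0 _ ((le_sup_right : AddSubgroup.zmultiples (2 • w) ≤ _)
      (AddSubgroup.mem_zmultiples _))
  have hsign := sign_char hsup cw hcwD hcw2
  apply hNo
  refine perTile_triples hG hF cw.ker c hc1 h3₁ (Or.inl rfl) (circ_three _ _ hc1 hc2 h3₁ h3₂)
    (hcwD _ ha₁) (hcwD _ hb₁) (hcwD _ ha₂) (hcwD _ hb₂) rfl hneg₁ rfl hneg₂ hcw1 ?_ ?_
  · intro x
    rcases hsign (x - t₁) with h | h
    · exact Or.inl h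
    · right
      show cw (x - t₂) = 0
      have e : x - t₂ = (x - t₁) + w := by rw [hw]; abel
      rw [e, map_add, h, ← two_nsmul, hcw2]
  · intro y
    refine ⟨2, by norm_num, ?_⟩
    show cw (2 • y) = 0
    rw [map_nsmul]
    rcases hsign y with h | h
    · rw [h, smul_zero]
    · rw [h, hcw2]

end Vale.Agent.P043Six
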