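import Vale.Agent.P043Six.PairsLemma

open scoped BigOperators

namespace Vale.Agent.P043Six

universe u

variable {G : Type u} [AddCommGroup G] {F : Finset G} {A : Set G} {N : ℕ}

lemma IsSix.reorder {a b c d e f a' b' c' d' e' f' : G} (hF : IsSix F a b c d e f)
    (h : ∀ x, (x = a ∨ x = b ∨ x = c ∨ x = d ∨ x = e ∨ x = f) ↔
      (x = a' ∨ x = b' ∨ x = c' ∨ x = d' ∨ x = e' ∨ x = f')) :
    IsSix F a' b' c' d' e' f' := by
  classical
  refine isSix_of_eq_of_card ?_ hF.card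
  ext x
  rw [hF.mem, h]
  simp

lemma IsSix.block12 {a b c d e f : G} (hF : IsSix F a b c d e f) : IsSix F c d a b e f :=
  hF.reorder fun u => by tauto

lemma IsSix.block13 {a b c d e f : G} (hF : IsSix F a b c d e f) : IsSix F e f c d a b :=
  hF.reorder fun u => by tauto

lemma Valid3.flip3 {d₁ d₂ d₃ : G} (h : Valid3 d₁ d₂ d₃) : Valid3 d₁ d₂ (-d₃) := by
  obtain ⟨z, τ, h0, h2, h₁, h₂, h₃⟩ := h
  refine ⟨z, τ, h0, h2, h₁, h₂, ?_⟩
  rw [map_neg, h₃]
  rw [two_nsmul] at h2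
  exact neg_eq_of_add_eq_zero_right h2

/-- At most one pairing of the class of size four fails to be valid. -/
lemma at_least (c : Ctx F A N) {p p' a x y w : G} (hF : IsSix F p p' a x y w) {ϑ : G → ℝ}
    (hG : Good F A ϑ) (h0 : ϑ ≠ 0)
    (h₁ : ac (1 + T (p' - p)) ϑ = 0)
    (h₂ : ac (1 + T (x - a) + T (y - a) + T (w - a)) ϑ = 0)
    (h₃ : ac (1 + T (-(x - a)) + T (-(y - a)) + T (-(w - a))) ϑ = 0) :
    Valid3 (p' - p) (x - a) (w - y) ∨ Valid3 (p' - p) (y - a) (w - x) := by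
  by_contra hcon
  push Not at hcon
  obtain ⟨hn₁, hn₂⟩ := hcon
  have hXX := T_mul_neg (x - a)
  have hYY := T_mul_neg (y - a)
  have hWW := T_mul_neg (w - a)
  have eWY : T (w - a) = T (y - a) * T (w - y) := by
    rw [← T_add]
    congr 1
    abel
  have eWX : T (w - a) = T (x - a) * T (w - x) := by
    rw [← T_add]
    congr 1
    abel
  have eYX : T (y - a) = T (x - a) * T (y - x) := by
    rw [← T_add]
    congr 1
    abel
  set X := T (x - a) with hX
  set Y := T (y - a) with hY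
  set W := T (w - a) with hW
  set X' := T (-(x - a)) with hX'
  set Y' := T (-(y - a)) with hY'
  set W' := T (-(w - a)) with hW'
  have hQ : ac ((1 + X) * (1 + Y) * (1 + W)) ϑ = 0 := by
    have e : (1 + X) * (1 + Y) * (1 + W)
        = (1 + X + Y + W) + (X * Y * W) * (1 + X' + Y' + W') := by
      linear_combination (-Y * W) * hXX + (-X * W) * hYY + (-X * Y) * hWW
    rw [e, ac_add, ac_mul, h₂, h₃, ac_zero_right, add_zero]
  have k₁ : ac ((1 + Y) * (1 + W)) ϑ = 0 := by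
    by_contra hne
    apply hn₁
    refine valid_of_anti hne ?_ ?_ ?_
    · rw [ac_comm, h₁, ac_zero_right]
    · rw [← ac_mul, ← mul_assoc]
      exact hQ
    · apply ac_T_eq_zero (u := y - a)
      rw [← ac_mul, ← ac_mul]
      have e : T (y - a) * (1 + T (w - y)) * ((1 + Y) * (1 + W))
          = ((1 + Y) * (1 + W)) * (1 + X + Y + W) - (1 + X) * (1 + Y) * (1 + W) := by
        rw [eWY]
        ring
      rw [e, ac_sub, hQ, ac_mul, h₂, ac_zero_right, sub_zero]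
  have k₂ : ac (1 + W) ϑ = 0 := by
    by_contra hne
    apply hn₂
    refine valid_of_anti hne ?_ ?_ ?_
    · rw [ac_comm, h₁, ac_zero_right]
    · rw [← ac_mul]
      exact k₁
    · apply ac_T_eq_zero (u := x - a)
      rw [← ac_mul, ← ac_mul]
      have e : T (x - a) * (1 + T (w - x)) * (1 + W)
          = (1 + W) * (1 + X + Y + W) - (1 + Y) * (1 + W) := by
        rw [eWX]
        ring
      rw [e, ac_sub, k₁, ac_mul, h₂, ac_zero_right, sub_zero]
  have k₃ : ac (1 + T (y - x)) ϑ = 0 := by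
    apply ac_T_eq_zero (u := x - a)
    rw [← ac_mul]
    have e : T (x - a) * (1 + T (y - x)) = (1 + X + Y + W) - (1 + W) := by
      rw [eYX]
      ring
    rw [e, ac_sub, k₂, h₂, sub_zero]
  exact pairs_lemma c (hF.reorder (a' := p) (b' := p') (c' := a) (d' := w) (e' := x) (f' := y)
    (fun u => by tauto)) h0 hG h₁ k₂ k₃

/-- The pattern of values of a character on the class of size four. -/
def Pair1 (χ : AddChar G ℂ) (p a b g e : G) : Prop :=
  ∃ ρ : ℂ, ρ ^ 2 + ρ + 1 = 0 ∧ χ (a - p) = ρ ∧ χ (b - p) = ρ ∧ χ (g - p) = ρ ^ 2 ∧ χ (e - p) = ρ ^ 2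

lemma Pair1.rho_ne_one {ρ : ℂ} (hρ : ρ ^ 2 + ρ + 1 = 0) : ρ ≠ 1 := by
  rintro rfl
  norm_num at hρ

lemma Pair1.rho_sq_ne_one {ρ : ℂ} (hρ : ρ ^ 2 + ρ + 1 = 0) : ρ ^ 2 ≠ 1 := by
  intro h
  have h1 : ρ = -2 := by linear_combination hρ - h
  rw [h1] at hρ
  norm_num at hρ

lemma Pair1.rho_ne_zero {ρ : ℂ} (hρ : ρ ^ 2 + ρ + 1 = 0) : ρ ≠ 0 := by
  rintro rfl
  norm_num at hρ

lemma mul_of_sub (χ : AddChar G ℂ) (x y : G) : χ x = χ y * χ (x - y) := by
  rw [← AddChar.map_add_eq_mul]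
  congr 1
  abel

lemma pair_false (c : Ctx F A N) {p p' a b g e : G} (hF : IsSix F p p' a b g e)
    (χ : AddChar G ℂ) (hnorm : ∀ x, ‖χ x‖ = 1) (hd : χ (p' - p) = 1) (hP : Pair1 χ p a b g e)
    (hV : Valid3 (p' - p) (b - a) (e - g)) : False := by
  obtain ⟨ρ, hρ, ha, hb, hg, he⟩ := hP
  have hρ0 := Pair1.rho_ne_zero hρ
  have hχp := ne_zero_of_norm (hnorm p)
  have ea := mul_of_sub χ a p
  have eb := mul_of_sub χ b p
  have eg := mul_of_sub χ g p
  have ee := mul_of_sub χ e p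
  rw [ha] at ea
  rw [hb] at eb
  rw [hg] at eg
  rw [he] at ee
  have h₂ : χ (b - a) = 1 := by
    have e1 := mul_of_sub χ b a
    rw [ea, eb] at e1
    have : χ p * ρ ≠ 0 := mul_ne_zero hχp hρ0
    exact (mul_left_cancel₀ this (by rw [mul_one]; exact e1)).symm
  have h₃ : χ (e - g) = 1 := by
    have e1 := mul_of_sub χ e g
    rw [eg, ee] at e1
    have : χ p * ρ ^ 2 ≠ 0 := mul_ne_zero hχp (pow_ne_zero 2 hρ0)
    exact (mul_left_cancel₀ this (by rw [mul_one]; exact e1)).symm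
  refine false_of_char c hF hV χ hnorm hd h₂ h₃ ?_
  rw [ea, eg]
  linear_combination (χ p) * hρ

section spectral

variable {H : Type u} [AddCommGroup H] [Fintype H] {π : G →+ H} (hπ : Function.Surjective π)

lemma char_pow_card (χ : AddChar H ℂ) (y : H) : χ y ^ Fintype.card H = 1 := by
  rw [← AddChar.map_nsmul_eq_pow, card_nsmul_eq_zero, AddChar.map_zero_eq_one]

include hπ in
/-- The structure of characters in the spectrum of the averaged three-dilate. -/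
lemma spec_struct (c : Ctx F A N) (hker : ∀ y, π y = 0 → ∃ g, y = N • g)
    {p p' a b g e : G} (hF : IsSix F p p' a b g e) {a₀ : G → ℝ}
    (ha₀N : ∀ y : G, N • y ∈ Stab a₀)
    (ha₀r : ∀ r : ℕ, r.Coprime 6 → ac (dil F r) a₀ = fun _ => 1)
    (ha₀3 : ac (dil F 3) a₀ = N3 F A)
    {χ : AddChar H ℂ} (hχ : χ ≠ 0) (hne : hat hπ (ac (avgE N (p' - p)) (N3 F A)) χ ≠ 0) :
    χ.compAddMonoidHom π (p' - p) = 1 ∧
    (Pair1 (χ.compAddMonoidHom π) p a b g e ∨ Pair1 (χ.compAddMonoidHom π) p a g b e ∨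
      Pair1 (χ.compAddMonoidHom π) p a e b g) := by
  set d := p' - p with hd
  set Γ := ac (avgE N d) (N3 F A) with hΓ
  set a' := ac (avgE N d) a₀ with ha'
  let χG : AddChar G ℂ := χ.compAddMonoidHom π
  have hχG : ∀ x, χG x = χ (π x) := fun _ => rfl
  have hkerΓ : ∀ y, π y = 0 → y ∈ Stab Γ := by
    intro y hy
    obtain ⟨g, rfl⟩ := hker y hy
    exact mem_Stab_ac _ (c.per g)
  have hkera : ∀ y, π y = 0 → y ∈ Stab a' := by
    intro y hy
    obtain ⟨g, rfl⟩ := hker y hy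
    exact mem_Stab_ac _ (ha₀N g)
  have hsd : d ∈ Stab Γ := mem_Stab_avg (c.per d)
  have c₁ : χ (π d) = 1 := spec_of_inv hπ hkerΓ hsd hne
  have eΓ : Γ = ac (dil F 3) a' := by
    rw [hΓ, ha', ac_comm (dil F 3) (avgE N d) a₀, ha₀3]
  have e3 := hat_dil hπ hkera F 3 χ
  rw [← eΓ] at e3
  rw [e3] at hne
  have h3ne := left_ne_zero_of_mul hne
  have hane := right_ne_zero_of_mul hne
  have hr0 : ∀ r : ℕ, r.Coprime 6 → ∑ f ∈ F, χ (π (r • f)) = 0 := by
    intro r hr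
    have e := hat_dil hπ hkera F r χ
    have e' : ac (dil F r) a' = fun _ => 1 := by
      rw [ha', ac_comm, ha₀r r hr, avg_const c.pos]
    rw [e', hat_const hπ 1 hχ] at e
    exact (mul_eq_zero.mp e.symm).resolve_right hane
  -- coordinates
  have hχp : χ (π p) ≠ 0 := ne_zero_of_norm (χ.norm_apply _)
  have hp' : χ (π p') = χ (π p) := by
    have : χG p' = χG p * χG d := mul_of_sub χG p' p
    rw [hχG d, c₁, mul_one] at this
    exact this
  set ζa := χG (a - p) with hζa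
  set ζb := χG (b - p) with hζb
  set ζg := χG (g - p) with hζg
  set ζe := χG (e - p) with hζe
  have ea : χ (π a) = χ (π p) * ζa := mul_of_sub χG a p
  have eb : χ (π b) = χ (π p) * ζb := mul_of_sub χG b p
  have eg : χ (π g) = χ (π p) * ζg := mul_of_sub χG g p
  have ee : χ (π e) = χ (π p) * ζe := mul_of_sub χG e p
  have hsum : ∀ r : ℕ, ∑ f ∈ F, χ (π (r • f))
      = χ (π p) ^ r * (2 + ζa ^ r + ζb ^ r + ζg ^ r + ζe ^ r) := by
    intro r
    rw [hF.sum]
    simp only [map_nsmul, AddChar.map_nsmul_eq_pow]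
    rw [hp', ea, eb, eg, ee]
    ring
  have hK : 0 < Fintype.card H := Fintype.card_pos
  have hroot : ∀ x : G, χG x ^ Fintype.card H = 1 := fun x => char_pow_card χ (π x)
  have hpat := pattern hK (hroot (a - p)) (hroot (b - p)) (hroot (g - p)) (hroot (e - p))
    (fun k => by
      have hr : (1 + 6 * k).Coprime 6 := coprime_add_of_dvd (by norm_num) (Dvd.intro _ rfl)
      have h1 := hr0 _ hr
      rw [hsum] at h1
      exact (mul_eq_zero.mp h1).resolve_left (pow_ne_zero _ hχp))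
    (fun h => by
      apply h3ne
      rw [hsum, h, mul_zero])
  obtain ⟨r₁, r₂, r₃, r₄, rs⟩ := hpat
  refine ⟨c₁, ?_⟩
  rcases pairing_cases r₁ r₂ r₃ r₄ rs with ⟨e₂, e₃, e₄⟩ | ⟨e₂, e₃, e₄⟩ | ⟨e₂, e₃, e₄⟩
  · exact Or.inl ⟨ζa, r₁, rfl, e₂, e₃, e₄⟩
  · exact Or.inr (Or.inl ⟨ζa, r₁, rfl, e₂, e₃, e₄⟩)
  · exact Or.inr (Or.inr ⟨ζa, r₁, rfl, e₂, e₃, e₄⟩)

end spectral

/-- Anti-periodicity of the signed indicator along a pair. -/
lemma anti_block {t t' u u' v v' : G} (hF : IsSix F t t' u u' v v')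
    (hone : ac (dil F 1) (ind ℝ A) = fun _ => 1)
    (χ₀ : AddChar G ℂ) (hnorm : ∀ x, ‖χ₀ x‖ = 1) {κ : ℂ} (hκ : κ ≠ 0) (hA : ∀ x ∈ A, χ₀ x = κ)
    (h' : χ₀ t' = χ₀ t) (h₁ : χ₀ u ≠ χ₀ t) (h₂ : χ₀ u' ≠ χ₀ t) (h₃ : χ₀ v ≠ χ₀ t)
    (h₄ : χ₀ v' ≠ χ₀ t) :
    ac (1 + T (t' - t)) (by
      classical
      exact fun y => if χ₀ y = κ then 2 * ind ℝ A y - 1 else 0) = 0 := by
  classical
  set ϑ : G → ℝ := fun y => if χ₀ y = κ then 2 * ind ℝ A y - 1 else 0 with hϑ
  have hsame : ∀ y, χ₀ (y - (t' - t)) = χ₀ y := by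
    intro y
    have e := mul_of_sub χ₀ y (y - (t' - t))
    have e2 := mul_of_sub χ₀ t' t
    rw [h'] at e2
    have ht0 := ne_zero_of_norm (hnorm t)
    have e3 : χ₀ (t' - t) = 1 := (mul_left_cancel₀ ht0 (by rw [mul_one]; exact e2)).symm
    rw [show y - (y - (t' - t)) = t' - t by abel, e3, mul_one] at e
    exact e.symm
  have hzero : ∀ {y f : G}, χ₀ y = κ → χ₀ f ≠ χ₀ t → ind ℝ A (y + t - f) = 0 := by
    intro y f hy hf
    unfold ind
    rw [if_neg]
    intro hin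
    have e1 := hA _ hin
    apply hf
    have e2 := mul_of_sub χ₀ (y + t) f
    rw [e1, AddChar.map_add_eq_mul, hy] at e2
    have e3 := mul_of_sub χ₀ (y + t) f
    rw [AddChar.map_add_eq_mul, hy] at e3
    have : κ * χ₀ t = κ * χ₀ f := by
      rw [e3]
      rw [e1]
      ring
    exact (mul_left_cancel₀ hκ this).symm
  ext y
  simp only [ac_add, ac_one, Pi.add_apply, ac_T, Pi.zero_apply]
  rw [hϑ]
  simp only
  rw [hsame y]
  by_cases hy : χ₀ y = κ
  · rw [if_pos hy, if_pos hy]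
    have e := congrFun hone (y + t)
    have e' : ac (dil F 1) (ind ℝ A) (y + t) = ∑ f ∈ F, ind ℝ A (y + t - 1 • f) :=
      act_dilk_apply F 1 _ _
    rw [e', hF.sum] at e
    simp only [one_smul] at e
    rw [hzero hy h₁, hzero hy h₂, hzero hy h₃, hzero hy h₄] at e
    rw [add_sub_cancel_right, show y + t - t' = y - (t' - t) by abel] at e
    linarith
  · rw [if_neg hy, if_neg hy]
    ring

/-- A tiling all of whose points lie in one class of the character yields the last pairing. -/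
lemma valid_of_class (c : Ctx F A N) {p p' a b g e : G} (hF : IsSix F p p' a b g e)
    (χ₀ : AddChar G ℂ) (hnorm : ∀ x, ‖χ₀ x‖ = 1) (hd : χ₀ (p' - p) = 1) (hP : Pair1 χ₀ p a b g e)
    {x₀ : G} (hAin : ∀ x ∈ A, χ₀ x = χ₀ x₀) :
    Valid3 (p' - p) (b - a) (e - g) := by
  classical
  obtain ⟨ρ, hρ, ha, hb, hg, he⟩ := hP
  have hρ0 := Pair1.rho_ne_zero hρ
  have hρ1 := Pair1.rho_ne_one hρ
  have hρ21 := Pair1.rho_sq_ne_one hρ
  have hχp := ne_zero_of_norm (hnorm p)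
  have ea := mul_of_sub χ₀ a p
  have eb := mul_of_sub χ₀ b p
  have eg := mul_of_sub χ₀ g p
  have ee := mul_of_sub χ₀ e p
  have ep' := mul_of_sub χ₀ p' p
  rw [ha] at ea
  rw [hb] at eb
  rw [hg] at eg
  rw [he] at ee
  rw [hd, mul_one] at ep'
  set κ := χ₀ x₀ with hκ
  have hκ0 : κ ≠ 0 := ne_zero_of_norm (hnorm _)
  have hone : ac (dil F 1) (ind ℝ A) = fun _ => 1 := c.cls.2 1 (by norm_num)
  have hne1 : χ₀ p * ρ ≠ χ₀ p := by
    intro h
    exact hρ1 (mul_left_cancel₀ hχp (by rw [mul_one]; exact h))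
  have hne2 : χ₀ p * ρ ^ 2 ≠ χ₀ p := by
    intro h
    exact hρ21 (mul_left_cancel₀ hχp (by rw [mul_one]; exact h))
  have hne3 : χ₀ p * ρ ^ 2 ≠ χ₀ p * ρ := by
    intro h
    have h1 := mul_left_cancel₀ hχp h
    apply hρ1
    have : ρ * ρ = ρ * 1 := by
      rw [mul_one]
      linear_combination h1
    exact mul_left_cancel₀ hρ0 this
  have a₁ := anti_block hF hone χ₀ hnorm hκ0 hAin ep' (by rw [ea]; exact hne1)
    (by rw [eb]; exact hne1) (by rw [eg]; exact hne2) (by rw [ee]; exact hne2)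
  have a₂ := anti_block hF.block12 hone χ₀ hnorm hκ0 hAin (by rw [ea, eb])
    (by rw [ea]; exact hne1.symm) (by rw [ea, ep']; exact hne1.symm)
    (by rw [ea, eg]; exact hne3) (by rw [ea, ee]; exact hne3)
  have a₃ := anti_block hF.block13 hone χ₀ hnorm hκ0 hAin (by rw [eg, ee])
    (by rw [eg, ea]; exact hne3.symm) (by rw [eg, eb]; exact hne3.symm)
    (by rw [eg]; exact hne2.symm) (by rw [eg, ep']; exact hne2.symm)
  refine valid_of_anti ?_ a₁ a₂ a₃
  intro h0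
  have := congrFun h0 x₀
  simp only [Pi.zero_apply] at this
  rw [if_pos rfl] at this
  unfold ind at this
  split_ifs at this <;> norm_num at this

/-- The vanishing of the averaged function away from one class of the character. -/
lemma zero_off_class (c : Ctx F A N) {p p' a b g e : G} (hF : IsSix F p p' a b g e)
    (χ₀ : AddChar G ℂ) (hnorm : ∀ x, ‖χ₀ x‖ = 1) (hd : χ₀ (p' - p) = 1) (hP : Pair1 χ₀ p a b g e)
    (hinv : ∀ v, χ₀ v = 1 → v ∈ Stab (ac (avgE N (p' - p)) (N3 F A))) {ξ : G}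
    (hge : 3 ≤ ac (avgE N (p' - p)) (N3 F A) ξ) :
    ∀ v, χ₀ v ≠ χ₀ ξ → ac (avgE N (p' - p)) (N3 F A) v = 0 := by
  obtain ⟨ρ, hρ, ha, hb, hg, he⟩ := hP
  set d := p' - p with hdd
  set Γ := ac (avgE N d) (N3 F A) with hΓ
  have hρ0 := Pair1.rho_ne_zero hρ
  have hρ3 : ρ ^ 3 = 1 := by linear_combination (ρ - 1) * hρ
  have hχp := ne_zero_of_norm (hnorm p)
  have hΓ0 : ∀ x, 0 ≤ Γ x := avg_nonneg n3_nonneg
  have hdil : ac (dil F 1) Γ = fun _ => 6 := by
    rw [hΓ, ac_comm, c.n3_dil (by norm_num), avg_const c.pos]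
  have hsum : ∀ y, Γ (y - p) + Γ (y - p') + Γ (y - a) + Γ (y - b) + Γ (y - g) + Γ (y - e) = 6 := by
    intro y
    have e1 := congrFun hdil y
    have e2 : ac (dil F 1) Γ y = ∑ f ∈ F, Γ (y - 1 • f) := act_dilk_apply F 1 _ _
    rw [e2, hF.sum] at e1
    simpa only [one_smul] using e1
  have hstab : ∀ {v : G}, χ₀ v = 1 → ∀ x, Γ (x + v) = Γ x := fun h x => hinv _ h x
  have ea := mul_of_sub χ₀ a p
  have eb := mul_of_sub χ₀ b p
  have eg := mul_of_sub χ₀ g p
  have ee := mul_of_sub χ₀ e p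
  rw [ha] at ea
  rw [hb] at eb
  rw [hg] at eg
  rw [he] at ee
  have hab : χ₀ (b - a) = 1 := by
    have e1 := mul_of_sub χ₀ b a
    rw [ea, eb] at e1
    have : χ₀ p * ρ ≠ 0 := mul_ne_zero hχp hρ0
    exact (mul_left_cancel₀ this (by rw [mul_one]; exact e1)).symm
  have hge' : χ₀ (e - g) = 1 := by
    have e1 := mul_of_sub χ₀ e g
    rw [eg, ee] at e1
    have : χ₀ p * ρ ^ 2 ≠ 0 := mul_ne_zero hχp (pow_ne_zero 2 hρ0)
    exact (mul_left_cancel₀ this (by rw [mul_one]; exact e1)).symm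
  set y₁ := ξ + p with hy₁
  have hval := hsum y₁
  have hp₁ : Γ (y₁ - p') = Γ (y₁ - p) := by
    have := hstab hd (y₁ - p')
    rwa [show y₁ - p' + (p' - p) = y₁ - p by abel, eq_comm] at this
  have hb₁ : Γ (y₁ - b) = Γ (y₁ - a) := by
    have := hstab hab (y₁ - b)
    rwa [show y₁ - b + (b - a) = y₁ - a by abel, eq_comm] at this
  have he₁ : Γ (y₁ - e) = Γ (y₁ - g) := by
    have := hstab hge' (y₁ - e)
    rwa [show y₁ - e + (e - g) = y₁ - g by abel, eq_comm] at this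
  have hξp : y₁ - p = ξ := by rw [hy₁, add_sub_cancel_right]
  rw [hp₁, hb₁, he₁, hξp] at hval
  have ha0 : Γ (y₁ - a) = 0 := by
    have h1 := hΓ0 (y₁ - a)
    have h2 := hΓ0 (y₁ - g)
    linarith
  have hg0 : Γ (y₁ - g) = 0 := by
    have h1 := hΓ0 (y₁ - a)
    have h2 := hΓ0 (y₁ - g)
    linarith
  -- all values of the character have cube one
  have hcubeall : ∀ y, χ₀ y ^ 3 = 1 := by
    have hcube : cubeSub χ₀ = ⊤ := by
      have hρ23 : (ρ ^ 2) ^ 3 = 1 := by linear_combination (ρ ^ 3 + 1) * hρ3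
      refine hF.gen_top c.gen _ ?_ ?_ ?_ ?_ ?_
      · show χ₀ (p' - p) ^ 3 = 1
        rw [hd, one_pow]
      · show χ₀ (a - p) ^ 3 = 1
        rw [ha, hρ3]
      · show χ₀ (b - p) ^ 3 = 1
        rw [hb, hρ3]
      · show χ₀ (g - p) ^ 3 = 1
        rw [hg, hρ23]
      · show χ₀ (e - p) ^ 3 = 1
        rw [he, hρ23]
    intro y
    have : y ∈ cubeSub χ₀ := by
      rw [hcube]
      exact AddSubgroup.mem_top y
    exact this
  intro v hv
  set u := χ₀ (v - ξ) with hu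
  have hu3 : u ^ 3 = 1 := hcubeall _
  have hu1 : u ≠ 1 := by
    intro h1
    apply hv
    have := mul_of_sub χ₀ v ξ
    rw [← hu, h1, mul_one] at this
    exact this
  have hfac : (u - 1) * ((u - ρ) * (u - ρ ^ 2)) = 0 := by
    linear_combination hu3 + (u - 1) * (-u) * hρ + (u - 1) * hρ3
  have hfac2 := (mul_eq_zero.mp hfac).resolve_left (sub_ne_zero.mpr hu1)
  have hpa : χ₀ (p - a) * ρ = 1 := by
    rw [← ha, ← AddChar.map_add_eq_mul, show p - a + (a - p) = 0 by abel,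
      AddChar.map_zero_eq_one]
  have hpg : χ₀ (p - g) * ρ ^ 2 = 1 := by
    rw [← hg, ← AddChar.map_add_eq_mul, show p - g + (g - p) = 0 by abel,
      AddChar.map_zero_eq_one]
  rcases mul_eq_zero.mp hfac2 with h5 | h5
  · -- `u = ρ`
    have h6 : u = ρ := sub_eq_zero.mp h5
    have e1 : u = χ₀ (p - g) * χ₀ (v - (y₁ - g)) := by
      rw [hu, ← AddChar.map_add_eq_mul, hy₁]
      congr 1
      abel
    have hw : χ₀ (v - (y₁ - g)) = 1 := by
      have : ρ ^ 3 * χ₀ (v - (y₁ - g)) = ρ ^ 3 := by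
        calc ρ ^ 3 * χ₀ (v - (y₁ - g))
            = ρ ^ 3 * (χ₀ (p - g) * ρ ^ 2) * χ₀ (v - (y₁ - g)) := by rw [hpg, mul_one]
          _ = ρ ^ 5 * (χ₀ (p - g) * χ₀ (v - (y₁ - g))) := by ring
          _ = ρ ^ 5 * ρ := by rw [← e1, h6]
          _ = ρ ^ 3 * ρ ^ 3 := by ring
          _ = ρ ^ 3 := by rw [hρ3, one_mul]
      rw [hρ3, one_mul] at this
      exact this
    have := hstab hw (y₁ - g)
    rwa [add_sub_cancel, hg0] at this
  · -- `u = ρ²`
    have h6 : u = ρ ^ 2 := sub_eq_zero.mp h5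
    have e1 : u = χ₀ (p - a) * χ₀ (v - (y₁ - a)) := by
      rw [hu, ← AddChar.map_add_eq_mul, hy₁]
      congr 1
      abel
    have hw : χ₀ (v - (y₁ - a)) = 1 := by
      calc χ₀ (v - (y₁ - a)) = (χ₀ (p - a) * ρ) * χ₀ (v - (y₁ - a)) := by rw [hpa, one_mul]
        _ = ρ * (χ₀ (p - a) * χ₀ (v - (y₁ - a))) := by ring
        _ = ρ * ρ ^ 2 := by rw [← e1, h6]
        _ = ρ ^ 3 := by ring
        _ = 1 := hρ3
    have := hstab hw (y₁ - a)
    rwa [add_sub_cancel, ha0] at this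

/-- The final step at a leaf with classes of size two and four. -/
lemma final42 (c : Ctx F A N) {p p' a b g e : G} (hF : IsSix F p p' a b g e)
    (χ₀ : AddChar G ℂ) (hnorm : ∀ x, ‖χ₀ x‖ = 1) (hd : χ₀ (p' - p) = 1) (hP : Pair1 χ₀ p a b g e)
    (hinv : ∀ v, χ₀ v = 1 → v ∈ Stab (ac (avgE N (p' - p)) (N3 F A))) {x₀ : G}
    (hge : 3 ≤ ac (avgE N (p' - p)) (N3 F A) (x₀ + 3 • p)) :
    Valid3 (p' - p) (b - a) (e - g) := by
  have hzero := zero_off_class c hF χ₀ hnorm hd hP hinv hge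
  have hn3 : ∀ v, χ₀ v ≠ χ₀ (x₀ + 3 • p) → N3 F A v = 0 := fun v hv =>
    avg_zero c.pos n3_nonneg (hzero v hv)
  have hp : p ∈ F := hF.mem.mpr (by simp)
  refine valid_of_class c hF χ₀ hnorm hd hP (x₀ := x₀) ?_
  intro x hx
  have h1 := n3_of_mem hx hp
  by_contra hne
  apply h1
  apply hn3
  intro h2
  apply hne
  rw [AddChar.map_add_eq_mul, AddChar.map_add_eq_mul] at h2
  exact mul_right_cancel₀ (ne_zero_of_norm (hnorm _)) h2

end Vale.Agent.P043Six
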