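import Vale.Agent.P043Six.Leaf42

open scoped BigOperators

namespace Vale.Agent.P043Six

universe u

variable {G : Type u} [AddCommGroup G] {F : Finset G} {A : Set G} {N : ℕ}

lemma IsSix.swap_a {p p' a b g e : G} (hF : IsSix F p p' a b g e) : IsSix F p p' a b e g :=
  hF.reorder fun u => by tauto

lemma IsSix.swap_b {p p' a b g e : G} (hF : IsSix F p p' a b g e) : IsSix F p p' a g b e :=
  hF.reorder fun u => by tauto

lemma IsSix.swap_c {p p' a b g e : G} (hF : IsSix F p p' a b g e) : IsSix F p p' a e b g :=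
  hF.reorder fun u => by tauto

section spectral

variable {H : Type u} [AddCommGroup H] [Fintype H] {π : G →+ H} (hπ : Function.Surjective π)

/-- Characters with a common pairing are equal or inverse on the whole group. -/
lemma same_pairing (c : Ctx F A N) {p p' a b g e : G} (hF : IsSix F p p' a b g e)
    {χ χ₀ : AddChar G ℂ} (hd : χ (p' - p) = 1) (hd₀ : χ₀ (p' - p) = 1)
    (hP : Pair1 χ p a b g e) (hP₀ : Pair1 χ₀ p a b g e) {v : G} (hv : χ₀ v = 1) : χ v = 1 := by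
  obtain ⟨ρ, hρ, ha, hb, hg, he⟩ := hP
  obtain ⟨ρ₀, hρ₀, ha₀, hb₀, hg₀, he₀⟩ := hP₀
  rcases root_cases hρ₀ hρ with h | h
  · have htop : eqSub χ χ₀ = ⊤ := by
      refine hF.gen_top c.gen _ ?_ ?_ ?_ ?_ ?_
      · show χ (p' - p) = χ₀ (p' - p)
        rw [hd, hd₀]
      · show χ (a - p) = χ₀ (a - p)
        rw [ha, ha₀, h]
      · show χ (b - p) = χ₀ (b - p)
        rw [hb, hb₀, h]
      · show χ (g - p) = χ₀ (g - p)
        rw [hg, hg₀, h]
      · show χ (e - p) = χ₀ (e - p)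
        rw [he, he₀, h]
    have hm : v ∈ eqSub χ χ₀ := by
      rw [htop]
      exact AddSubgroup.mem_top v
    have hm' : χ v = χ₀ v := hm
    rw [hm', hv]
  · have htop : sqSub χ χ₀ = ⊤ := by
      refine hF.gen_top c.gen _ ?_ ?_ ?_ ?_ ?_
      · show χ (p' - p) = χ₀ (p' - p) ^ 2
        rw [hd, hd₀, one_pow]
      · show χ (a - p) = χ₀ (a - p) ^ 2
        rw [ha, ha₀, h]
      · show χ (b - p) = χ₀ (b - p) ^ 2
        rw [hb, hb₀, h]
      · show χ (g - p) = χ₀ (g - p) ^ 2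
        rw [hg, hg₀, h]
      · show χ (e - p) = χ₀ (e - p) ^ 2
        rw [he, he₀, h]
    have hm : v ∈ sqSub χ χ₀ := by
      rw [htop]
      exact AddSubgroup.mem_top v
    have hm' : χ v = χ₀ v ^ 2 := hm
    rw [hm', hv, one_pow]

include hπ in
/-- The contradiction once a character of the spectrum with a given pairing is found. -/
lemma main42 [DecidableEq H] (c : Ctx F A N) (hker : ∀ y, π y = 0 → ∃ g, y = N • g)
    {p p' a b g e : G} (hF : IsSix F p p' a b g e) {ϑ : G → ℝ}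
    (hG : Good F A ϑ) (h0 : ϑ ≠ 0)
    (h₁ : ac (1 + T (p' - p)) ϑ = 0)
    (h₂ : ac (1 + T (b - a) + T (g - a) + T (e - a)) ϑ = 0)
    (h₃ : ac (1 + T (-(b - a)) + T (-(g - a)) + T (-(e - a))) ϑ = 0)
    {a₀ : G → ℝ} (ha₀N : ∀ y : G, N • y ∈ Stab a₀)
    (ha₀r : ∀ r : ℕ, r.Coprime 6 → ac (dil F r) a₀ = fun _ => 1)
    (ha₀3 : ac (dil F 3) a₀ = N3 F A)
    {χ₀ : AddChar H ℂ} (hχ₀ : χ₀ ≠ 0) (hne : hat hπ (ac (avgE N (p' - p)) (N3 F A)) χ₀ ≠ 0)
    (hP : Pair1 (χ₀.compAddMonoidHom π) p a b g e) {x₀ : G}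
    (hge : 3 ≤ ac (avgE N (p' - p)) (N3 F A) (x₀ + 3 • p)) : False := by
  set d := p' - p with hd
  set Γ := ac (avgE N d) (N3 F A) with hΓ
  have hnormG : ∀ (χ : AddChar H ℂ) (x : G), ‖χ.compAddMonoidHom π x‖ = 1 :=
    fun χ x => χ.norm_apply _
  have hkerΓ : ∀ y, π y = 0 → y ∈ Stab Γ := by
    intro y hy
    obtain ⟨g, rfl⟩ := hker y hy
    exact mem_Stab_ac _ (c.per g)
  have hsd : d ∈ Stab Γ := mem_Stab_avg (c.per d)
  have hd₀ : χ₀.compAddMonoidHom π d = 1 := spec_of_inv hπ hkerΓ hsd hne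
  have hnot : ¬ Valid3 d (b - a) (e - g) := fun V =>
    pair_false c hF _ (hnormG χ₀) hd₀ hP V
  have hV₂ : Valid3 d (g - a) (e - b) :=
    (at_least c hF hG h0 h₁ h₂ h₃).resolve_left hnot
  have hF₃ : IsSix F p p' a b e g := hF.swap_a
  have hV₃ : Valid3 d (e - a) (g - b) := by
    have h₂' : ac (1 + T (b - a) + T (e - a) + T (g - a)) ϑ = 0 := by
      rw [show (1 + T (b - a) + T (e - a) + T (g - a) : AddMonoidAlgebra ℝ G)
        = 1 + T (b - a) + T (g - a) + T (e - a) by ring]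
      exact h₂
    have h₃' : ac (1 + T (-(b - a)) + T (-(e - a)) + T (-(g - a))) ϑ = 0 := by
      rw [show (1 + T (-(b - a)) + T (-(e - a)) + T (-(g - a)) : AddMonoidAlgebra ℝ G)
        = 1 + T (-(b - a)) + T (-(g - a)) + T (-(e - a)) by ring]
      exact h₃
    refine (at_least c hF₃ hG h0 h₁ h₂' h₃').resolve_left fun V => hnot ?_
    have := V.flip3
    rwa [neg_sub] at this
  have hF₂' : IsSix F p p' a g b e := hF.swap_b
  have hF₃' : IsSix F p p' a e b g := hF.swap_c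
  have hall : ∀ χ : AddChar H ℂ, χ ≠ 0 → hat hπ Γ χ ≠ 0 →
      χ.compAddMonoidHom π d = 1 ∧ Pair1 (χ.compAddMonoidHom π) p a b g e := by
    intro χ hχ hne'
    obtain ⟨hdχ, hcase⟩ := spec_struct hπ c hker hF ha₀N ha₀r ha₀3 hχ hne'
    refine ⟨hdχ, ?_⟩
    rcases hcase with h | h | h
    · exact h
    · exact (pair_false c hF₂' _ (hnormG χ) hdχ h hV₂).elim
    · exact (pair_false c hF₃' _ (hnormG χ) hdχ h hV₃).elim
  have hinv : ∀ v, χ₀.compAddMonoidHom π v = 1 → v ∈ Stab Γ := by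
    intro v hv
    refine inv_of_spec hπ hkerΓ v fun χ hne' => ?_
    by_cases hχ : χ = 0
    · rw [hχ]
      rfl
    · obtain ⟨hdχ, hPχ⟩ := hall χ hχ hne'
      exact same_pairing c hF hdχ hd₀ hPχ hP hv
  exact hnot (final42 c hF _ (hnormG χ₀) hd₀ hP hinv hge)

end spectral

/-- The leaf with classes of size two and four, second stage. -/
theorem leaf42_stage2 (c : Ctx F A N) {p p' a b g e : G} (hF : IsSix F p p' a b g e) {ϑ : G → ℝ}
    (hG : Good F A ϑ) (h0 : ϑ ≠ 0)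
    (h₁ : ac (1 + T (p' - p)) ϑ = 0)
    (h₂ : ac (1 + T (b - a) + T (g - a) + T (e - a)) ϑ = 0)
    (h₃ : ac (1 + T (-(b - a)) + T (-(g - a)) + T (-(e - a))) ϑ = 0) : False := by
  classical
  obtain ⟨x₀, hx₀⟩ := Function.ne_iff.mp h0
  set d := p' - p with hd
  set Γ := ac (avgE N d) (N3 F A) with hΓ
  have hp : p ∈ F := hF.mem.mpr (by simp)
  have hge : 3 ≤ Γ (x₀ + 3 • p) :=
    lower_step c.pos (fun x (hx : ϑ x ≠ 0) j => anti_iter h₁ hx j) (c.base_ge hG hp) x₀ hx₀
  obtain ⟨H, _, _, π, hπ, hker⟩ := exists_H c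
  obtain ⟨a₀, -, ha₀N, ha₀r, ha₀3⟩ := exists_a c
  have hkerΓ : ∀ y, π y = 0 → y ∈ Stab Γ := by
    intro y hy
    obtain ⟨g, rfl⟩ := hker y hy
    exact mem_Stab_ac _ (c.per g)
  by_cases hsp : ∃ χ : AddChar H ℂ, χ ≠ 0 ∧ hat hπ Γ χ ≠ 0
  · obtain ⟨χ, hχ, hne⟩ := hsp
    obtain ⟨-, hcase⟩ := spec_struct hπ c hker hF ha₀N ha₀r ha₀3 hχ hne
    rcases hcase with h | h | h
    · exact main42 hπ c hker hF hG h0 h₁ h₂ h₃ ha₀N ha₀r ha₀3 hχ hne h hge
    · refine main42 hπ c hker hF.swap_b hG h0 h₁ ?_ ?_ ha₀N ha₀r ha₀3 hχ hne h hge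
      · rw [show (1 + T (g - a) + T (b - a) + T (e - a) : AddMonoidAlgebra ℝ G)
          = 1 + T (b - a) + T (g - a) + T (e - a) by ring]
        exact h₂
      · rw [show (1 + T (-(g - a)) + T (-(b - a)) + T (-(e - a)) : AddMonoidAlgebra ℝ G)
          = 1 + T (-(b - a)) + T (-(g - a)) + T (-(e - a)) by ring]
        exact h₃
    · refine main42 hπ c hker hF.swap_c hG h0 h₁ ?_ ?_ ha₀N ha₀r ha₀3 hχ hne h hge
      · rw [show (1 + T (e - a) + T (b - a) + T (g - a) : AddMonoidAlgebra ℝ G)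
          = 1 + T (b - a) + T (g - a) + T (e - a) by ring]
        exact h₂
      · rw [show (1 + T (-(e - a)) + T (-(b - a)) + T (-(g - a)) : AddMonoidAlgebra ℝ G)
          = 1 + T (-(b - a)) + T (-(g - a)) + T (-(e - a)) by ring]
        exact h₃
  · push Not at hsp
    have hall : ∀ v, v ∈ Stab Γ := by
      intro v
      refine inv_of_spec hπ hkerΓ v fun χ hne' => ?_
      by_cases hχ : χ = 0
      · rw [hχ]
        rfl
      · exact absurd (hsp χ hχ) hne'
    have hdil : ac (dil F 1) Γ = fun _ => 6 := by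
      rw [hΓ, ac_comm, c.n3_dil (by norm_num), avg_const c.pos]
    have hval : Γ (x₀ + 3 • p) = 1 := by
      set y := x₀ + 3 • p
      have e0 := congrFun hdil y
      have e' : ac (dil F 1) Γ y = ∑ f ∈ F, Γ (y - 1 • f) := act_dilk_apply F 1 Γ y
      rw [e'] at e0
      have e2 : ∀ f ∈ F, Γ (y - 1 • f) = Γ y := by
        intro f _
        rw [sub_eq_add_neg]
        exact hall _ y
      rw [Finset.sum_congr rfl e2, Finset.sum_const, c.card] at e0
      simp only [nsmul_eq_mul] at e0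
      push_cast at e0
      linarith
    rw [hval] at hge
    norm_num at hge

/-- The second stage: under the periodicity of the three-dilate, class functions are periodic. -/
theorem stage2 (c : Ctx F A N) {δ : G → ℝ} (hδ : Cls F δ) (hg : Good F A δ) : Per δ := by
  have main := rec_main c.card (P := fun δ => Cls F δ ∧ Good F A δ) (c := 1) (N₀ := N) c.pos
    (fun _ h => h.1) (fun _ h u m hd => ⟨h.1.mean _, h.2.meanOf c h.1.1 u hd⟩) ?_ ⊥ δ ⟨hδ, hg⟩ 1
    one_pos (by
      intro y hy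
      rw [AddSubgroup.mem_bot.mp hy, smul_zero]
      exact AddSubgroup.zero_mem _)
  · rwa [ac_one] at main
  · intro D IH hleaf δ hδ n hn hDn
    obtain ⟨hcls, hgood⟩ := hδ
    have hcard := c.card
    rw [ac_one]
    rcases classify hcard hleaf with hall | ⟨p, p', a, b, g, e, hF, hp, hb, hg', he⟩ |
      ⟨t₁, a₁, b₁, t₂, a₂, b₂, hF, h₁, h₂, h₃, h₄⟩ |
      ⟨t₁, t₁', t₂, t₂', t₃, t₃', hF, h₁, h₂, h₃, h12, h13, h23⟩
    · have htop := c.gen D hall
      refine ⟨n, hn, fun y => hDn y ?_⟩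
      rw [htop]
      exact AddSubgroup.mem_top y
    · by_contra hP
      set L := 6 * n * N with hL
      have hL0 : 0 < L := by
        have := c.pos
        positivity
      have hnL : n ∣ L := ⟨6 * N, by rw [hL]; ring⟩
      have h6L : 6 ∣ L := ⟨n * N, by rw [hL]; ring⟩
      have hNL : N ∣ L := Dvd.intro_left _ rfl
      have hϑ0 : ac (T (L • (p - a)) - 1) δ ≠ 0 := by
        intro h0
        exact hP (per_of_sup (hF.sup_of_42 c.gen hp hb hg' he) hn hL0 hDn (mem_Stab_of_ac_sub h0))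
      obtain ⟨m₁, m₂, m₃⟩ := leaf42_theta hcls hn hDn hF hp hb hg' he hnL h6L
      refine leaf42_stage2 c hF (hgood.diff c hNL _) hϑ0 ?_ ?_ ?_
      · rw [← ac_mul, mul_comm]
        exact m₁
      · rw [← ac_mul, mul_comm]
        exact m₂
      · rw [← ac_mul, mul_comm]
        exact m₃
    · exact leaf33 c.fg c.gen hF h₁ h₂ h₃ h₄ c.no hcls hn hDn
    · have := leaf222_elim (c := (1 : AddMonoidAlgebra ℝ G)) IH (fun δ h => h.1.1)
        (fun _ h u m hd => ⟨h.1.mean _, h.2.meanOf c h.1.1 u hd⟩) ⟨hcls, hgood⟩ hn hDn hF h12 h13 h23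
        (L₀ := 6 * n * N) (by
          have := c.pos
          positivity) (Dvd.intro_left _ rfl) ?_
      · rwa [ac_one] at this
      · intro L₁₂ L₁₃ L₂₃ d₁ d₂ d₃
        rw [ac_one]
        by_contra hne
        have hnL : n ∣ 6 * n * N := ⟨6 * N, by ring⟩
        have h6L : 6 ∣ 6 * n * N := ⟨n * N, by ring⟩
        have hNL : N ∣ 6 * n * N := Dvd.intro_left _ rfl
        obtain ⟨m₁, m₂, m₃⟩ := pairs_ann hcls hDn hF h₁ h₂ h₃ (hnL.trans d₁) (h6L.trans d₁)
          (hnL.trans d₂) (h6L.trans d₂) (hnL.trans d₃) (h6L.trans d₃)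
        have hgd : Good F A (ac (A3 t₁ t₂ t₃ L₁₂ L₁₃ L₂₃) δ) := by
          unfold A3
          rw [ac_mul, ac_mul]
          exact ((hgood.diff c (hNL.trans d₃) _).diff c (hNL.trans d₂) _).diff c (hNL.trans d₁) _
        refine pairs_lemma c hF hne hgd ?_ ?_ ?_
        · rw [← ac_mul, mul_comm]
          exact m₁
        · rw [← ac_mul, mul_comm]
          exact m₂
        · rw [← ac_mul, mul_comm]
          exact m₃

/-- The core theorem: tiles of size six of a finitely generated abelian group whose differences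
generate the group admit periodic tilings. -/
theorem core (hG : AddGroup.FG G) (hgen : Gen F) (hcard : F.card = 6) (htile : CountOne A F 1) :
    PerTile F := by
  by_contra hNo
  have hcls := cls_of_tile hcard htile
  obtain ⟨N, hN, hper⟩ := stage1 hG hgen hcard hNo hcls
  have c : Ctx F A N := ⟨hG, hgen, hcard, htile, hN, hper, hNo⟩
  exact hNo ⟨A, htile, stage2 c hcls good_ind⟩

end Vale.Agent.P043Six
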