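import Vale.Agent.P043Six.Ctx

open scoped BigOperators

namespace Vale.Agent.P043Six

universe u

variable {G : Type u} [AddCommGroup G] {F : Finset G} {A : Set G} {N : ℕ}

lemma anti_iter {ϑ : G → ℝ} {d : G} (h : ac (1 + T d) ϑ = 0) {x : G} (hx : ϑ x ≠ 0) (j : ℕ) :
    ϑ (x - j • d) ≠ 0 := by
  have e := ac_T_of_one_add h
  have e' : ∀ y, ϑ (y - d) = - ϑ y := by
    intro y
    have := congrFun e y
    rwa [ac_T] at this
  induction j with
  | zero => simpa using hx
  | succ j ih =>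
    rw [add_smul, one_smul, ← sub_sub, e']
    exact neg_ne_zero.mpr ih

lemma lower_step {N : ℕ} (hN : 0 < N) {R : G → Prop} {d : G} (hR : ∀ x, R x → ∀ j : ℕ, R (x - j • d))
    {h : G → ℝ} {c : ℝ} {w : G} (hc : ∀ x, R x → c ≤ h (x + w)) :
    ∀ x, R x → c ≤ ac (avgE N d) h (x + w) := by
  intro x hx
  refine avg_lower hN fun j => ?_
  have := hc _ (hR x hx j)
  rwa [show x - j • d + w = x + w - j • d by abel] at this

/-- Values of the averaged function at the three-dilates of a good non-zero point. -/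
lemma Ctx.base_ge (c : Ctx F A N) {ϑ : G → ℝ} (hG : Good F A ϑ) {f : G} (hf : f ∈ F) :
    ∀ x, ϑ x ≠ 0 → 3 ≤ N3 F A (x + 3 • f) :=
  fun x hx => c.n3_ge (hG x hx f hf)

/-- The pairs lemma: anti-periodicity along three pairs is incompatible with the absence
of a periodic tile. -/
theorem pairs_lemma (c : Ctx F A N) {t₁ t₁' t₂ t₂' t₃ t₃' : G}
    (hF : IsSix F t₁ t₁' t₂ t₂' t₃ t₃') {ϑ : G → ℝ} (h0 : ϑ ≠ 0) (hG : Good F A ϑ)
    (h₁ : ac (1 + T (t₁' - t₁)) ϑ = 0) (h₂ : ac (1 + T (t₂' - t₂)) ϑ = 0)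
    (h₃ : ac (1 + T (t₃' - t₃)) ϑ = 0) : False := by
  classical
  have hV := valid_of_anti h0 h₁ h₂ h₃
  obtain ⟨x₀, hx₀⟩ := Function.ne_iff.mp h0
  set d₁ := t₁' - t₁ with hd₁
  set d₂ := t₂' - t₂ with hd₂
  set d₃ := t₃' - t₃ with hd₃
  have hN := c.pos
  set Γ := ac (avgE N d₁) (ac (avgE N d₂) (ac (avgE N d₃) (N3 F A))) with hΓ
  have hNy : ∀ y : G, N • y ∈ Stab Γ := fun y =>
    mem_Stab_ac _ (mem_Stab_ac _ (mem_Stab_ac _ (c.per y)))
  have hs₁ : d₁ ∈ Stab Γ :=
    mem_Stab_avg (mem_Stab_ac _ (mem_Stab_ac _ (c.per d₁)))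
  have hs₂ : d₂ ∈ Stab Γ := by
    rw [hΓ, ac_comm (avgE N d₁)]
    exact mem_Stab_avg (mem_Stab_ac _ (mem_Stab_ac _ (c.per d₂)))
  have hs₃ : d₃ ∈ Stab Γ := by
    rw [hΓ, ac_comm (avgE N d₂), ac_comm (avgE N d₁)]
    exact mem_Stab_avg (mem_Stab_ac _ (mem_Stab_ac _ (c.per d₃)))
  -- the lower bound
  have ht₁ : t₁ ∈ F := hF.mem.mpr (by simp)
  have hge : 3 ≤ Γ (x₀ + 3 • t₁) := by
    have hR₁ := fun x (hx : ϑ x ≠ 0) j => anti_iter h₁ hx j
    have hR₂ := fun x (hx : ϑ x ≠ 0) j => anti_iter h₂ hx j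
    have hR₃ := fun x (hx : ϑ x ≠ 0) j => anti_iter h₃ hx j
    exact lower_step hN hR₁ (lower_step hN hR₂ (lower_step hN hR₃ (c.base_ge hG ht₁))) x₀ hx₀
  -- the quotient
  obtain ⟨H, _, _, π, hπ, hker⟩ := exists_H c
  have hkerΓ : ∀ y, π y = 0 → y ∈ Stab Γ := by
    intro y hy
    obtain ⟨g, rfl⟩ := hker y hy
    exact hNy g
  have hdil : ac (dil F 1) Γ = fun _ => 6 := by
    rw [hΓ, ac_comm, ac_comm (dil F 1), ac_comm (dil F 1), c.n3_dil (by norm_num), avg_const hN,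
      avg_const hN, avg_const hN]
  have hspec : ∀ χ : AddChar H ℂ, χ ≠ 0 → hat hπ Γ χ = 0 := by
    intro χ hχ
    by_contra hne
    have e1 := hat_dil hπ hkerΓ F 1 χ
    rw [hdil, hat_const hπ 6 hχ] at e1
    have e2 := (mul_eq_zero.mp e1.symm).resolve_right hne
    rw [hF.sum] at e2
    simp only [one_smul] at e2
    have c₁ := spec_of_inv hπ hkerΓ hs₁ hne
    have c₂ := spec_of_inv hπ hkerΓ hs₂ hne
    have c₃ := spec_of_inv hπ hkerΓ hs₃ hne
    let χG : AddChar G ℂ := χ.compAddMonoidHom π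
    have hχG : ∀ x, χG x = χ (π x) := fun _ => rfl
    have same : ∀ {t t' : G}, χ (π (t' - t)) = 1 → χ (π t') = χ (π t) := by
      intro t t' h
      have : π t' = π t + π (t' - t) := by
        rw [map_sub]
        abel
      rw [this, AddChar.map_add_eq_mul, h, mul_one]
    refine false_of_char c hF hV χG (fun x => χ.norm_apply _) c₁ c₂ c₃ ?_
    rw [hχG, hχG, hχG]
    rw [same c₁, same c₂, same c₃] at e2
    linear_combination (1 / 2 : ℂ) * e2
  have hall : ∀ v, v ∈ Stab Γ := by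
    intro v
    refine inv_of_spec hπ hkerΓ v fun χ hne => ?_
    by_cases hχ : χ = 0
    · rw [hχ]
      rfl
    · exact absurd (hspec χ hχ) hne
  have hval : Γ (x₀ + 3 • t₁) = 1 := by
    set y := x₀ + 3 • t₁
    have e := congrFun hdil y
    have e' : ac (dil F 1) Γ y = ∑ f ∈ F, Γ (y - 1 • f) := act_dilk_apply F 1 Γ y
    rw [e'] at e
    have e2 : ∀ f ∈ F, Γ (y - 1 • f) = Γ y := by
      intro f _
      rw [sub_eq_add_neg]
      exact hall _ y
    rw [Finset.sum_congr rfl e2, Finset.sum_const, c.card] at e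
    simp only [nsmul_eq_mul] at e
    push_cast at e
    linarith
  rw [hval] at hge
  norm_num at hge

/-- Iterated means along a list. -/
noncomputable def meanL : List G → (G → ℝ) → (G → ℝ)
  | [], h => h
  | u :: l, h => mean u (meanL l h)

lemma meanL_bd {h : G → ℝ} (hb : Bd h) : ∀ l : List G, Bd (meanL l h)
  | [] => hb
  | _ :: l => mean_bd (meanL_bd hb l)

lemma meanL_ac {h : G → ℝ} (hb : Bd h) (c : AddMonoidAlgebra ℝ G) :
    ∀ l : List G, ac c (meanL l h) = meanL l (ac c h)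
  | [] => rfl
  | u :: l => by
    show act ℝ G c (mean u (meanL l h)) = mean u (meanL l (ac c h))
    rw [← mean_act (meanL_bd hb l)]
    show mean u (ac c (meanL l h)) = _
    rw [meanL_ac hb c l]

lemma meanL_stab {h : G → ℝ} (hb : Bd h) : ∀ (l : List G) (u : G), u ∈ l → u ∈ Stab (meanL l h)
  | [], _, hu => absurd hu (by simp)
  | v :: l, u, hu => by
    rcases List.mem_cons.mp hu with rfl | hu'
    · exact mean_mem_Stab (meanL_bd hb l)
    · exact mean_preserves_Stab (meanL_stab hb l u hu')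

lemma meanL_inv {h : G → ℝ} : ∀ l : List G, (∀ u ∈ l, u ∈ Stab h) → meanL l h = h
  | [], _ => rfl
  | u :: l, hl => by
    show mean u (meanL l h) = h
    rw [meanL_inv l fun v hv => hl v (List.mem_cons_of_mem _ hv)]
    exact mean_eq_of_invariant fun x => hl u List.mem_cons_self x

/-- Periodic means of the tiling. -/
lemma exists_a (c : Ctx F A N) : ∃ a : G → ℝ, Bd a ∧ (∀ y : G, N • y ∈ Stab a) ∧
    (∀ r : ℕ, r.Coprime 6 → ac (dil F r) a = fun _ => 1) ∧ ac (dil F 3) a = N3 F A := by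
  classical
  obtain ⟨s, hs⟩ := (AddGroup.fg_def.mp c.fg)
  set l := s.toList.map (fun g => N • g) with hl
  have hb := bd_ind A
  refine ⟨meanL l (ind ℝ A), meanL_bd hb l, ?_, ?_, ?_⟩
  · have hle : AddSubgroup.closure (s : Set G)
        ≤ (Stab (meanL l (ind ℝ A))).comap (nsmulAddMonoidHom N) := by
      rw [AddSubgroup.closure_le]
      intro g hg
      refine meanL_stab hb l _ ?_
      rw [hl, List.mem_map]
      exact ⟨g, by simpa using hg, rfl⟩
    rw [hs] at hle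
    exact fun y => hle (AddSubgroup.mem_top y)
  · intro r hr
    rw [meanL_ac hb, c.cls.2 r hr]
    exact meanL_inv l fun u _ _ => rfl
  · rw [meanL_ac hb]
    refine meanL_inv l fun u hu => ?_
    rw [hl, List.mem_map] at hu
    obtain ⟨g, -, rfl⟩ := hu
    exact c.per g

end Vale.Agent.P043Six
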