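import Mathlib

open scoped BigOperators

namespace Vale.Agent.P043Six

/-- Three numbers of modulus one summing to zero. -/
lemma unit_sum_zero {x y : ℂ} (hx : ‖x‖ = 1) (hy : ‖y‖ = 1) (h : 1 + x + y = 0) :
    x ^ 2 + x + 1 = 0 ∧ y = x ^ 2 := by
  have h1 : x * (starRingEnd ℂ) x = 1 := by
    rw [Complex.mul_conj, Complex.normSq_eq_norm_sq, hx]
    norm_num
  have h2 : y * (starRingEnd ℂ) y = 1 := by
    rw [Complex.mul_conj, Complex.normSq_eq_norm_sq, hy]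
    norm_num
  have hy' : y = -1 - x := by linear_combination h
  have h3 : (starRingEnd ℂ) y = -1 - (starRingEnd ℂ) x := by
    rw [hy']
    simp
  rw [h3, hy'] at h2
  have h4 : x + (starRingEnd ℂ) x = -1 := by linear_combination h2 - h1
  have h5 : x ^ 2 + x + 1 = 0 := by linear_combination x * h4 - h1
  refine ⟨h5, ?_⟩
  rw [hy']
  linear_combination -h5

lemma root_cases {ρ u : ℂ} (hρ : ρ ^ 2 + ρ + 1 = 0) (hu : u ^ 2 + u + 1 = 0) : u = ρ ∨ u = ρ ^ 2 := by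
  have h : (u - ρ) * (u - ρ ^ 2) = 0 := by
    linear_combination hu + (-u + ρ - 1) * hρ
  rcases mul_eq_zero.mp h with h | h
  · exact Or.inl (sub_eq_zero.mp h)
  · exact Or.inr (sub_eq_zero.mp h)

lemma half_contra {ρ : ℂ} (hρ : ρ ^ 2 + ρ + 1 = 0) (h : 2 * ρ + 1 = 0) : False := by
  have h2 : (2 * ρ + 1) ^ 2 = -3 := by linear_combination 4 * hρ
  rw [h] at h2
  norm_num at h2

/-- The way four roots of `x² + x + 1` can sum to `-2`. -/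
lemma pairing_cases {ρ u₂ u₃ u₄ : ℂ} (hρ : ρ ^ 2 + ρ + 1 = 0) (h₂ : u₂ ^ 2 + u₂ + 1 = 0)
    (h₃ : u₃ ^ 2 + u₃ + 1 = 0) (h₄ : u₄ ^ 2 + u₄ + 1 = 0) (hs : ρ + u₂ + u₃ + u₄ = -2) :
    (u₂ = ρ ∧ u₃ = ρ ^ 2 ∧ u₄ = ρ ^ 2) ∨ (u₃ = ρ ∧ u₂ = ρ ^ 2 ∧ u₄ = ρ ^ 2) ∨
      (u₄ = ρ ∧ u₂ = ρ ^ 2 ∧ u₃ = ρ ^ 2) := by
  rcases root_cases hρ h₂ with e₂ | e₂ <;> rcases root_cases hρ h₃ with e₃ | e₃ <;>
    rcases root_cases hρ h₄ with e₄ | e₄ <;> rw [e₂, e₃, e₄] at hs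
  · exfalso
    exact half_contra hρ (by linear_combination (1 / 2) * hs)
  · exfalso
    exact half_contra hρ (by linear_combination hs - hρ)
  · exfalso
    exact half_contra hρ (by linear_combination hs - hρ)
  · exact Or.inl ⟨e₂, e₃, e₄⟩
  · exfalso
    exact half_contra hρ (by linear_combination hs - hρ)
  · exact Or.inr (Or.inl ⟨e₃, e₂, e₄⟩)
  · exact Or.inr (Or.inr ⟨e₄, e₂, e₃⟩)
  · exfalso
    exact half_contra hρ (by linear_combination (-1) * hs + 3 * hρ)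

/-- Integer coordinates of the sixth roots of unity. -/
def uc : Fin 7 → ℤ := ![0, 1, -1, 0, 0, -1, 1]

/-- Integer coordinates of the sixth roots of unity. -/
def vc : Fin 7 → ℤ := ![0, 0, 0, 1, -1, -1, 1]

set_option maxRecDepth 100000 in
set_option synthInstance.maxSize 2000 in
set_option synthInstance.maxHeartbeats 200000 in
lemma table_check : ∀ c₁ c₂ c₃ c₄ : Fin 7, uc c₁ + uc c₂ + uc c₃ + uc c₄ = -2 →
    vc c₁ + vc c₂ + vc c₃ + vc c₄ = 0 →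
    ((c₁ = 3 ∨ c₁ = 5) ∧ (c₂ = 3 ∨ c₂ = 5) ∧ (c₃ = 3 ∨ c₃ = 5) ∧ (c₄ = 3 ∨ c₄ = 5)) ∨
    (c₁ = 2 ∧ c₂ = 2) ∨ (c₁ = 2 ∧ c₃ = 2) ∨ (c₁ = 2 ∧ c₄ = 2) ∨ (c₂ = 2 ∧ c₃ = 2) ∨
    (c₂ = 2 ∧ c₄ = 2) ∨ (c₃ = 2 ∧ c₄ = 2) ∨
    (c₁ = 0 ∧ c₂ ≠ 0 ∧ c₃ ≠ 0 ∧ c₄ ≠ 0) ∨ (c₂ = 0 ∧ c₁ ≠ 0 ∧ c₃ ≠ 0 ∧ c₄ ≠ 0) ∨
    (c₃ = 0 ∧ c₁ ≠ 0 ∧ c₂ ≠ 0 ∧ c₄ ≠ 0) ∨ (c₄ = 0 ∧ c₁ ≠ 0 ∧ c₂ ≠ 0 ∧ c₃ ≠ 0) := by
  decide

lemma exists_omega : ∃ ω : ℂ, ω ^ 2 + ω + 1 = 0 ∧ ω.im ≠ 0 := by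
  refine ⟨(-1 + (Real.sqrt 3 : ℂ) * Complex.I) / 2, ?_, ?_⟩
  · have h3 : ((Real.sqrt 3 : ℝ) : ℂ) ^ 2 = 3 := by
      rw [← Complex.ofReal_pow, Real.sq_sqrt (by norm_num)]
      norm_num
    have hI := Complex.I_sq
    linear_combination (1 / 4 : ℂ) * Complex.I ^ 2 * h3 + (3 / 4 : ℂ) * hI
  · simp only [Complex.div_ofNat_im, Complex.add_im, Complex.neg_im, Complex.one_im,
      Complex.mul_im, Complex.ofReal_re, Complex.I_im, Complex.ofReal_im, Complex.I_re]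
    have : Real.sqrt 3 ≠ 0 := by positivity
    simp [this]

lemma omega_indep {ω : ℂ} (him : ω.im ≠ 0) {m k : ℤ} (h : (m : ℂ) + k * ω = 0) : m = 0 ∧ k = 0 := by
  have h1 := congrArg Complex.im h
  simp only [Complex.add_im, Complex.intCast_im, Complex.mul_im, Complex.intCast_re,
    Complex.zero_im, zero_add, zero_mul, add_zero] at h1
  have hk : (k : ℝ) = 0 := by
    rcases mul_eq_zero.mp h1 with h2 | h2
    · exact h2
    · exact absurd h2 him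
  have hk' : k = 0 := by exact_mod_cast hk
  refine ⟨?_, hk'⟩
  rw [hk'] at h
  simpa using h

open Classical in
/-- The truncation of a number to the sixth roots of unity. -/
noncomputable def trunc6 (ζ : ℂ) : ℂ := if ζ ^ 6 = 1 then ζ else 0

lemma code_exists {ω : ℂ} (hω : ω ^ 2 + ω + 1 = 0) (ζ : ℂ) :
    ∃ c : Fin 7, trunc6 ζ = (uc c : ℂ) + vc c * ω ∧ (c ≠ 0 → ζ = (uc c : ℂ) + vc c * ω) := by
  classical
  by_cases h : ζ ^ 6 = 1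
  · have hf : (ζ - 1) * ((ζ + 1) * ((ζ - ω) * ((ζ + 1 + ω) * ((ζ + ω) * (ζ - 1 - ω))))) = 0 := by
      have e1 : (ζ - ω) * (ζ + 1 + ω) = ζ ^ 2 + ζ + 1 - (ω ^ 2 + ω + 1) := by ring
      have e2 : (ζ + ω) * (ζ - 1 - ω) = ζ ^ 2 - ζ + 1 - (ω ^ 2 + ω + 1) := by ring
      have e3 : (ζ - 1) * ((ζ + 1) * ((ζ - ω) * ((ζ + 1 + ω) * ((ζ + ω) * (ζ - 1 - ω)))))
          = (ζ - 1) * (ζ + 1) * (((ζ - ω) * (ζ + 1 + ω)) * ((ζ + ω) * (ζ - 1 - ω))) := by ring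
      rw [e3, e1, e2, hω, sub_zero, sub_zero]
      linear_combination h
    have hT : trunc6 ζ = ζ := by
      unfold trunc6
      rw [if_pos h]
    have key : ∃ c : Fin 7, ζ = (uc c : ℂ) + vc c * ω := by
      rcases mul_eq_zero.mp hf with h1 | h1
      · exact ⟨1, by simp [uc, vc]; linear_combination h1⟩
      rcases mul_eq_zero.mp h1 with h1 | h1
      · exact ⟨2, by simp [uc, vc]; linear_combination h1⟩
      rcases mul_eq_zero.mp h1 with h1 | h1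
      · exact ⟨3, by simp [uc, vc]; linear_combination h1⟩
      rcases mul_eq_zero.mp h1 with h1 | h1
      · exact ⟨5, by simp [uc, vc]; linear_combination h1⟩
      rcases mul_eq_zero.mp h1 with h1 | h1
      · exact ⟨4, by simp [uc, vc]; linear_combination h1⟩
      · exact ⟨6, by simp [uc, vc]; linear_combination h1⟩
    obtain ⟨c, hc⟩ := key
    exact ⟨c, by rw [hT, hc], fun _ => hc⟩
  · refine ⟨0, ?_, fun h0 => absurd rfl h0⟩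
    unfold trunc6
    rw [if_neg h]
    simp [uc, vc]

lemma avg_trunc {ζ : ℂ} {K : ℕ} (hK : ζ ^ K = 1) :
    ∑ k ∈ Finset.range K, ζ ^ (1 + 6 * k) = (K : ℂ) * trunc6 ζ := by
  classical
  have e : ∀ k : ℕ, ζ ^ (1 + 6 * k) = ζ * (ζ ^ 6) ^ k := by
    intro k
    rw [pow_add, pow_one, pow_mul]
  simp only [e]
  rw [← Finset.mul_sum]
  unfold trunc6
  by_cases h : ζ ^ 6 = 1
  · rw [if_pos h, h]
    simp
    ring
  · rw [if_neg h, geom_sum_eq h, ← pow_mul, mul_comm 6 K, pow_mul, hK]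
    simp

/-- The pattern lemma. -/
theorem pattern {ζ₁ ζ₂ ζ₃ ζ₄ : ℂ} {K : ℕ} (hK : 0 < K) (h₁ : ζ₁ ^ K = 1) (h₂ : ζ₂ ^ K = 1)
    (h₃ : ζ₃ ^ K = 1) (h₄ : ζ₄ ^ K = 1)
    (hr : ∀ k : ℕ, 2 + ζ₁ ^ (1 + 6 * k) + ζ₂ ^ (1 + 6 * k) + ζ₃ ^ (1 + 6 * k) + ζ₄ ^ (1 + 6 * k) = 0)
    (h3 : 2 + ζ₁ ^ 3 + ζ₂ ^ 3 + ζ₃ ^ 3 + ζ₄ ^ 3 ≠ 0) :
    ζ₁ ^ 2 + ζ₁ + 1 = 0 ∧ ζ₂ ^ 2 + ζ₂ + 1 = 0 ∧ ζ₃ ^ 2 + ζ₃ + 1 = 0 ∧ ζ₄ ^ 2 + ζ₄ + 1 = 0 ∧
      ζ₁ + ζ₂ + ζ₃ + ζ₄ = -2 := by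
  have hK0 : (K : ℂ) ≠ 0 := by exact_mod_cast hK.ne'
  have hsum : 2 + trunc6 ζ₁ + trunc6 ζ₂ + trunc6 ζ₃ + trunc6 ζ₄ = 0 := by
    have h0 : ∑ k ∈ Finset.range K,
        (2 + ζ₁ ^ (1 + 6 * k) + ζ₂ ^ (1 + 6 * k) + ζ₃ ^ (1 + 6 * k) + ζ₄ ^ (1 + 6 * k)) = 0 :=
      Finset.sum_eq_zero fun k _ => hr k
    rw [Finset.sum_add_distrib, Finset.sum_add_distrib, Finset.sum_add_distrib,
      Finset.sum_add_distrib, avg_trunc h₁, avg_trunc h₂, avg_trunc h₃, avg_trunc h₄] at h0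
    simp only [Finset.sum_const, Finset.card_range, nsmul_eq_mul] at h0
    have : (K : ℂ) * (2 + trunc6 ζ₁ + trunc6 ζ₂ + trunc6 ζ₃ + trunc6 ζ₄) = 0 := by
      linear_combination h0
    exact (mul_eq_zero.mp this).resolve_left hK0
  have hr1 := hr 0
  simp only [mul_zero, add_zero, pow_one] at hr1
  obtain ⟨ω, hω, him⟩ := exists_omega
  obtain ⟨c₁, ec₁, fc₁⟩ := code_exists hω ζ₁
  obtain ⟨c₂, ec₂, fc₂⟩ := code_exists hω ζ₂
  obtain ⟨c₃, ec₃, fc₃⟩ := code_exists hω ζ₃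
  obtain ⟨c₄, ec₄, fc₄⟩ := code_exists hω ζ₄
  rw [ec₁, ec₂, ec₃, ec₄] at hsum
  have hind : (((2 + uc c₁ + uc c₂ + uc c₃ + uc c₄ : ℤ) : ℂ))
      + ((vc c₁ + vc c₂ + vc c₃ + vc c₄ : ℤ) : ℂ) * ω = 0 := by
    push_cast
    linear_combination hsum
  obtain ⟨hu, hv⟩ := omega_indep him hind
  have hu' : uc c₁ + uc c₂ + uc c₃ + uc c₄ = -2 := by omega
  have hroot : ∀ {c : Fin 7} {ζ : ℂ}, (c ≠ 0 → ζ = (uc c : ℂ) + vc c * ω) → (c = 3 ∨ c = 5) →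
      ζ ^ 2 + ζ + 1 = 0 := by
    intro c ζ hc hc'
    rcases hc' with rfl | rfl
    · have : ζ = ω := by
        have := hc (by decide)
        simpa [uc, vc] using this
      rw [this]
      exact hω
    · have : ζ = -1 - ω := by
        have := hc (by decide)
        rw [this]
        simp [uc, vc]
        ring
      rw [this]
      linear_combination hω
  have hminus : ∀ {c : Fin 7} {ζ : ℂ}, (c ≠ 0 → ζ = (uc c : ℂ) + vc c * ω) → c = 2 → ζ = -1 := by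
    intro c ζ hc hc'
    subst hc'
    have := hc (by decide)
    simpa [uc, vc] using this
  have hcube : ∀ {x y : ℂ}, x + y = 0 → x ^ 3 + y ^ 3 = 0 := by
    intro x y h
    have : y = -x := by linear_combination h
    rw [this]
    ring
  have hB : ∀ {a b x y : ℂ}, a = -1 → b = -1 → 2 + a + b + x + y = 0 →
      2 + a ^ 3 + b ^ 3 + x ^ 3 + y ^ 3 = 0 := by
    intro a b x y ha hb h
    subst ha hb
    have hxy : x + y = 0 := by linear_combination h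
    have := hcube hxy
    linear_combination this
  have hCzero : ∀ {x : ℂ}, x ^ K = 1 → x ≠ 0 := by
    rintro x hx rfl
    rw [zero_pow hK.ne'] at hx
    exact zero_ne_one hx
  rcases table_check c₁ c₂ c₃ c₄ hu' hv with ⟨a₁, a₂, a₃, a₄⟩ | ⟨b₁, b₂⟩ | ⟨b₁, b₂⟩ | ⟨b₁, b₂⟩ |
    ⟨b₁, b₂⟩ | ⟨b₁, b₂⟩ | ⟨b₁, b₂⟩ | ⟨z, n₁, n₂, n₃⟩ | ⟨z, n₁, n₂, n₃⟩ | ⟨z, n₁, n₂, n₃⟩ |
    ⟨z, n₁, n₂, n₃⟩
  · exact ⟨hroot fc₁ a₁, hroot fc₂ a₂, hroot fc₃ a₃, hroot fc₄ a₄, by linear_combination hr1⟩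
  · exact absurd (hB (hminus fc₁ b₁) (hminus fc₂ b₂) hr1) h3
  · exact absurd (by
      have := hB (x := ζ₂) (y := ζ₄) (hminus fc₁ b₁) (hminus fc₃ b₂) (by linear_combination hr1)
      linear_combination this) h3
  · exact absurd (by
      have := hB (x := ζ₂) (y := ζ₃) (hminus fc₁ b₁) (hminus fc₄ b₂) (by linear_combination hr1)
      linear_combination this) h3
  · exact absurd (by
      have := hB (x := ζ₁) (y := ζ₄) (hminus fc₂ b₁) (hminus fc₃ b₂) (by linear_combination hr1)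
      linear_combination this) h3
  · exact absurd (by
      have := hB (x := ζ₁) (y := ζ₃) (hminus fc₂ b₁) (hminus fc₄ b₂) (by linear_combination hr1)
      linear_combination this) h3
  · exact absurd (by
      have := hB (x := ζ₁) (y := ζ₂) (hminus fc₃ b₁) (hminus fc₄ b₂) (by linear_combination hr1)
      linear_combination this) h3
  · exfalso
    subst z
    apply hCzero h₁
    have e1 := fc₂ n₁
    have e2 := fc₃ n₂
    have e3 := fc₄ n₃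
    rw [← e1, ← e2, ← e3] at hsum
    simp only [uc, vc] at hsum
    have e0 : ((![0, 1, -1, 0, 0, -1, 1] : Fin 7 → ℤ) 0 : ℂ) = 0 := by simp
    have e0' : ((![0, 0, 0, 1, -1, -1, 1] : Fin 7 → ℤ) 0 : ℂ) = 0 := by simp
    rw [e0, e0'] at hsum
    linear_combination hr1 - hsum
  · exfalso
    subst z
    apply hCzero h₂
    have e1 := fc₁ n₁
    have e2 := fc₃ n₂
    have e3 := fc₄ n₃
    rw [← e1, ← e2, ← e3] at hsum
    simp only [uc, vc] at hsum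
    have e0 : ((![0, 1, -1, 0, 0, -1, 1] : Fin 7 → ℤ) 0 : ℂ) = 0 := by simp
    have e0' : ((![0, 0, 0, 1, -1, -1, 1] : Fin 7 → ℤ) 0 : ℂ) = 0 := by simp
    rw [e0, e0'] at hsum
    linear_combination hr1 - hsum
  · exfalso
    subst z
    apply hCzero h₃
    have e1 := fc₁ n₁
    have e2 := fc₂ n₂
    have e3 := fc₄ n₃
    rw [← e1, ← e2, ← e3] at hsum
    simp only [uc, vc] at hsum
    have e0 : ((![0, 1, -1, 0, 0, -1, 1] : Fin 7 → ℤ) 0 : ℂ) = 0 := by simp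
    have e0' : ((![0, 0, 0, 1, -1, -1, 1] : Fin 7 → ℤ) 0 : ℂ) = 0 := by simp
    rw [e0, e0'] at hsum
    linear_combination hr1 - hsum
  · exfalso
    subst z
    apply hCzero h₄
    have e1 := fc₁ n₁
    have e2 := fc₂ n₂
    have e3 := fc₃ n₃
    rw [← e1, ← e2, ← e3] at hsum
    simp only [uc, vc] at hsum
    have e0 : ((![0, 1, -1, 0, 0, -1, 1] : Fin 7 → ℤ) 0 : ℂ) = 0 := by simp
    have e0' : ((![0, 0, 0, 1, -1, -1, 1] : Fin 7 → ℤ) 0 : ℂ) = 0 := by simp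
    rw [e0, e0'] at hsum
    linear_combination hr1 - hsum

end Vale.Agent.P043Six
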