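import Vale.Agent.P043Six.Elim

open scoped BigOperators

namespace Vale.Agent.P043Six

variable {G : Type*} [AddCommGroup G]

open Classical in
/-- The number of ordered pairs of the tile whose difference lies in the subgroup. -/
noncomputable def pairs (F : Finset G) (D : AddSubgroup G) : ℕ :=
  ((F ×ˢ F).filter fun p => p.1 - p.2 ∈ D).card

lemma pairs_le (F : Finset G) (D : AddSubgroup G) : pairs F D ≤ F.card * F.card := by
  classical
  unfold pairs
  refine (Finset.card_filter_le _ _).trans ?_
  rw [Finset.card_product]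

lemma pairs_lt {F : Finset G} {D D' : AddSubgroup G} (h : D ≤ D') {f g : G} (hf : f ∈ F)
    (hg : g ∈ F) (h1 : f - g ∉ D) (h2 : f - g ∈ D') : pairs F D < pairs F D' := by
  classical
  unfold pairs
  refine Finset.card_lt_card ?_
  rw [Finset.ssubset_iff_of_subset]
  · refine ⟨(f, g), ?_, ?_⟩
    · simp [hf, hg, h2]
    · simp [h1]
  · intro p hp
    simp only [Finset.mem_filter] at hp ⊢
    exact ⟨hp.1, h hp.2⟩

/-- The recursion claim for a subgroup. -/
def Claim (P : (G → ℝ) → Prop) (c : AddMonoidAlgebra ℝ G) (D : AddSubgroup G) : Prop :=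
  ∀ δ, P δ → ∀ n : ℕ, 0 < n → (∀ y ∈ D, n • y ∈ Stab δ) → Per (ac c δ)

/-- The recursion hypothesis: the claim for all larger subgroups. -/
def IHyp (F : Finset G) (P : (G → ℝ) → Prop) (c : AddMonoidAlgebra ℝ G) (D : AddSubgroup G) :
    Prop :=
  ∀ D', D ≤ D' → pairs F D < pairs F D' → Claim P c D'

/-- Means along a multiple of a vector stay in the recursion, with a larger subgroup. -/
lemma step_mean {F : Finset G} {P : (G → ℝ) → Prop} {c : AddMonoidAlgebra ℝ G}
    {D : AddSubgroup G} (IH : IHyp F P c D) {N₀ : ℕ}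
    (hBd : ∀ δ, P δ → Bd δ)
    (hmean : ∀ δ, P δ → ∀ u : G, ∀ m : ℕ, N₀ ∣ m → P (mean (m • u) δ))
    {δ : G → ℝ} (hδ : P δ) {n : ℕ} (hn : 0 < n) (hD : ∀ y ∈ D, n • y ∈ Stab δ)
    {v : G} (hv : ∃ f ∈ F, ∃ g ∈ F, f - g ∉ D ∧ ∃ j : ℤ, f - g = j • v)
    {m : ℕ} (hm : 0 < m) (hd : N₀ ∣ m) :
    Per (mean (m • v) (ac c δ)) := by
  have hb := hBd δ hδ
  show Per (mean (m • v) (act ℝ G c δ))
  rw [mean_act hb]
  obtain ⟨f, hf, g, hg, hfg, j, hj⟩ := hv
  set D' := D ⊔ AddSubgroup.zmultiples v with hD'
  have hle : D ≤ D' := le_sup_left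
  have hvm : v ∈ D' := (le_sup_right : AddSubgroup.zmultiples v ≤ D') (AddSubgroup.mem_zmultiples v)
  have hlt : pairs F D < pairs F D' := pairs_lt hle hf hg hfg (by
    rw [hj]
    exact AddSubgroup.zsmul_mem _ hvm _)
  refine IH D' hle hlt (mean (m • v) δ) (hmean δ hδ v m hd) (n * m) (Nat.mul_pos hn hm) ?_
  intro y hy
  rw [hD', AddSubgroup.mem_sup] at hy
  obtain ⟨d, hd', w, hw, rfl⟩ := hy
  rw [AddSubgroup.mem_zmultiples_iff] at hw
  obtain ⟨i, rfl⟩ := hw
  rw [smul_add]
  refine AddSubgroup.add_mem _ ?_ ?_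
  · rw [mul_comm, mul_smul]
    exact AddSubgroup.nsmul_mem _ (mean_preserves_Stab (hD d hd')) _
  · have h1 : (n * m) • (i • v) = (i * n) • (m • v) := by
      rw [smul_comm, ← natCast_zsmul, ← natCast_zsmul, smul_smul, smul_smul]
      congr 1
      push_cast
      ring
    rw [h1]
    exact AddSubgroup.zsmul_mem _ (mean_mem_Stab hb) _

/-- The main recursion: reduces to leaves where no singleton classes exist. -/
theorem rec_main {F : Finset G} (hcard : F.card = 6) {P : (G → ℝ) → Prop}
    {c : AddMonoidAlgebra ℝ G} {N₀ : ℕ} (hN₀ : 0 < N₀)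
    (hP : ∀ δ, P δ → Cls F δ)
    (hmean : ∀ δ, P δ → ∀ u : G, ∀ m : ℕ, N₀ ∣ m → P (mean (m • u) δ))
    (leaf : ∀ D : AddSubgroup G, IHyp F P c D →
      (∀ f ∈ F, ∃ g ∈ F, g ≠ f ∧ g - f ∈ D) → Claim P c D) :
    ∀ D : AddSubgroup G, Claim P c D := by
  classical
  have main : ∀ k : ℕ, ∀ D : AddSubgroup G, 36 - pairs F D ≤ k → Claim P c D := by
    intro k
    induction k with
    | zero =>
      intro D hD
      refine leaf D ?_ ?_
      · intro D' _ hlt
        have := pairs_le F D'
        rw [hcard] at this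
        omega
      · intro f hf
        -- all pairs lie in the subgroup
        have hall : pairs F D = 36 := by
          have := pairs_le F D
          rw [hcard] at this
          omega
        have hsub : (F ×ˢ F).filter (fun p => p.1 - p.2 ∈ D) = F ×ˢ F := by
          refine Finset.eq_of_subset_of_card_le (Finset.filter_subset _ _) ?_
          rw [Finset.card_product, hcard]
          unfold pairs at hall
          omega
        have hne : (F.erase f).Nonempty := by
          rw [← Finset.card_pos, Finset.card_erase_of_mem hf, hcard]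
          norm_num
        obtain ⟨g, hg⟩ := hne
        have hg' := Finset.mem_erase.mp hg
        refine ⟨g, hg'.2, hg'.1, ?_⟩
        have : (g, f) ∈ (F ×ˢ F).filter (fun p => p.1 - p.2 ∈ D) := by
          rw [hsub]
          simp [hg'.2, hf]
        exact (Finset.mem_filter.mp this).2
    | succ k ih =>
      intro D hD
      have IH : IHyp F P c D := by
        intro D' _ hlt
        refine ih D' ?_
        have := pairs_le F D'
        rw [hcard] at this
        omega
      by_cases hleaf : ∀ f ∈ F, ∃ g ∈ F, g ≠ f ∧ g - f ∈ D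
      · exact leaf D IH hleaf
      · push Not at hleaf
        obtain ⟨f₀, hf₀, hsing⟩ := hleaf
        intro δ hδ n hn hDn
        have hcls := hP δ hδ
        have hbc : Bd (ac c δ) := hcls.1.act c
        refine elim (fun g => f₀ - g) (ac c δ) hbc (F.erase f₀) (6 * N₀)
          (Nat.mul_pos (by norm_num) hN₀) ?_ ?_
        · intro L hL
          rw [ac_comm]
          have h6 : ∀ g ∈ F.erase f₀, 6 ∣ L g := fun g hg =>
            (Dvd.intro _ rfl).trans (hL g hg)
          rw [ann hcls hf₀ (by omega) L h6, ac_zero_right]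
        · intro g hg m hm hd
          have hg' := Finset.mem_erase.mp hg
          have hne : f₀ - g ∉ D := by
            intro hin
            refine hsing g hg'.2 hg'.1 ?_
            have := D.neg_mem hin
            rwa [neg_sub] at this
          refine step_mean IH (fun δ hδ => (hP δ hδ).1) hmean hδ hn hDn
            ⟨f₀, hf₀, g, hg'.2, hne, 1, by simp⟩ hm ((Dvd.intro_left _ rfl).trans hd)
  intro D
  exact main _ D le_rfl

end Vale.Agent.P043Six
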