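import Vale.Agent.P043Six.Main

open scoped BigOperators

namespace Vale.Agent.P043Six

universe u

variable {G : Type u} [AddCommGroup G]

lemma fg_sub (hG : AddGroup.FG G) (W : AddSubgroup G) : AddGroup.FG W := by
  have h0 : Module.Finite ℤ G := Module.Finite.iff_addGroup_fg.mpr hG
  have hN : IsNoetherian ℤ G := inferInstance
  have h1 : (AddSubgroup.toIntSubmodule W).FG := IsNoetherian.noetherian _
  rw [Submodule.fg_iff_addSubgroup_fg, AddSubgroup.toIntSubmodule_toAddSubgroup] at h1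
  exact (AddGroup.fg_iff_addSubgroup_fg W).mpr h1

/-- The saturation of a subgroup. -/
def satSub (S' : AddSubgroup G) : AddSubgroup G where
  carrier := {v | ∃ κ : ℕ, 0 < κ ∧ κ • v ∈ S'}
  add_mem' := by
    rintro a b ⟨κ₁, h₁, ha⟩ ⟨κ₂, h₂, hb⟩
    refine ⟨κ₁ * κ₂, Nat.mul_pos h₁ h₂, ?_⟩
    rw [smul_add]
    refine S'.add_mem ?_ ?_
    · rw [mul_comm, mul_smul]
      exact S'.nsmul_mem ha _
    · rw [mul_smul]
      exact S'.nsmul_mem hb _
  zero_mem' := ⟨1, one_pos, by simp [S'.zero_mem]⟩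
  neg_mem' := by
    rintro a ⟨κ, h, ha⟩
    refine ⟨κ, h, ?_⟩
    rw [smul_neg]
    exact S'.neg_mem ha

lemma exists_m (hG : AddGroup.FG G) (S' : AddSubgroup G) :
    ∃ m : ℕ, 0 < m ∧ ∀ v : G, ∀ κ : ℕ, 0 < κ → κ • v ∈ S' → m • v ∈ S' := by
  have hfg := fg_sub hG (satSub S')
  obtain ⟨m, hm, h⟩ := uniform_of_torsion hfg (S'.addSubgroupOf (satSub S')) (by
    rintro ⟨y, κ, hκ, hy⟩
    refine ⟨κ, hκ, ?_⟩
    rw [AddSubgroup.mem_addSubgroupOf]
    exact hy)
  refine ⟨m, hm, fun v κ hκ hv => ?_⟩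
  have := h ⟨v, κ, hκ, hv⟩
  rw [AddSubgroup.mem_addSubgroupOf] at this
  exact this

lemma sum_of_countOne {A : Set G} {F : Finset G} (h : CountOne A F 1) (x : G) :
    ∑ f ∈ F, ind ℝ A (x - f) = 1 := by
  have h1 := congrFun (act_ind_of_countOne ℝ h) x
  rw [act_dilk_apply] at h1
  simpa only [one_smul] using h1

lemma ind_eq_iff {G₁ G₂ : Type*} {A₁ : Set G₁} {A₂ : Set G₂} {x₁ : G₁} {x₂ : G₂}
    (h : x₁ ∈ A₁ ↔ x₂ ∈ A₂) : ind ℝ A₁ x₁ = ind ℝ A₂ x₂ := by
  classical
  unfold ind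
  by_cases h' : x₂ ∈ A₂
  · rw [if_pos h', if_pos (h.mpr h')]
  · rw [if_neg h', if_neg (fun h'' => h' (h.mp h''))]

lemma mem_iff_of_ind_eq {G₁ : Type*} {A : Set G₁} {x y : G₁} (h : ind ℝ A x = ind ℝ A y) :
    x ∈ A ↔ y ∈ A := by
  classical
  unfold ind at h
  by_cases hx : x ∈ A <;> by_cases hy : y ∈ A <;> simp_all

/-- Every tile of size six of a finitely generated abelian group admits a periodic tiling. -/
theorem perTile_of_tile (hG : AddGroup.FG G) {F : Finset G} {A : Set G} (hc : F.card = 6)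
    (htile : CountOne A F 1) : PerTile F := by
  classical
  obtain ⟨f₀, hf₀⟩ : F.Nonempty := by
    rw [← Finset.card_pos, hc]
    norm_num
  set S : AddSubgroup G := AddSubgroup.closure (((F ×ˢ F).image fun p => p.1 - p.2 : Finset G) : Set G)
    with hS
  have hmemS : ∀ f ∈ F, ∀ g ∈ F, f - g ∈ S := by
    intro f hf g hg
    apply AddSubgroup.subset_closure
    rw [Finset.mem_coe, Finset.mem_image]
    exact ⟨(f, g), by simp [hf, hg], rfl⟩
  let φ : {x // x ∈ F} → S := fun x => ⟨x.1 - f₀, hmemS _ x.2 _ hf₀⟩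
  have hφ : ∀ x, ((φ x : S) : G) = x.1 - f₀ := fun _ => rfl
  have hφinj : Function.Injective φ := by
    intro x y h
    have h1 := congrArg (Subtype.val) h
    simp only [hφ] at h1
    exact Subtype.ext (sub_left_inj.mp h1)
  set F₀ : Finset S := F.attach.image φ with hF₀
  have hcard₀ : F₀.card = 6 := by
    rw [hF₀, Finset.card_image_of_injective _ hφinj, Finset.card_attach, hc]
  have hgen₀ : Gen F₀ := by
    intro W hW
    have hle : S ≤ W.map S.subtype := by
      refine (AddSubgroup.closure_le _).mpr ?_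
      intro y hy
      rw [Finset.mem_coe, Finset.mem_image] at hy
      obtain ⟨⟨f, g⟩, hp, rfl⟩ := hy
      simp only [Finset.mem_product] at hp
      have hf' : φ ⟨f, hp.1⟩ ∈ F₀ := Finset.mem_image_of_mem _ (Finset.mem_attach _ _)
      have hg' : φ ⟨g, hp.2⟩ ∈ F₀ := Finset.mem_image_of_mem _ (Finset.mem_attach _ _)
      refine ⟨_, hW _ hf' _ hg', ?_⟩
      simp [hφ]
    rw [eq_top_iff]
    intro s _
    obtain ⟨w, hw, e⟩ := hle s.2
    have : w = s := Subtype.ext e
    rwa [← this]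
  set A₀ : Set S := {s | (s : G) ∈ A} with hA₀
  have hsum₀ : ∀ {B : Set S} (s : S), ∑ f ∈ F₀, ind ℝ B (s - f)
      = ∑ x ∈ F.attach, ind ℝ B (s - φ x) := by
    intro B s
    rw [hF₀, Finset.sum_image (fun x _ y _ h => hφinj h)]
  have hcount₀ : CountOne A₀ F₀ 1 := by
    refine countOne_of_sum fun s => ?_
    rw [hsum₀]
    have e : ∀ x ∈ F.attach, ind ℝ A₀ (s - φ x) = ind ℝ A ((s : G) + f₀ - x.1) := by
      intro x _
      refine ind_eq_iff ?_
      show ((s - φ x : S) : G) ∈ A ↔ _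
      have : ((s - φ x : S) : G) = (s : G) + f₀ - x.1 := by
        simp only [AddSubgroupClass.coe_sub, hφ]
        abel
      rw [this]
    rw [Finset.sum_congr rfl e,
      Finset.sum_attach F (fun f => ind ℝ A ((s : G) + f₀ - f)), sum_of_countOne htile]
  obtain ⟨A₁, hA₁, N₀, hN₀, hper⟩ := core (fg_sub hG S) hgen₀ hcard₀ hcount₀
  have hA₁sum : ∀ s : S, ∑ x ∈ F.attach, ind ℝ A₁ (s - φ x) = 1 := by
    intro s
    rw [← hsum₀]
    exact sum_of_countOne hA₁ s
  -- the subgroup of periods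
  set S' : AddSubgroup G := S.map (nsmulAddMonoidHom N₀) with hS'
  have hS'le : S' ≤ S := by
    rintro _ ⟨t, ht, rfl⟩
    exact S.nsmul_mem ht _
  have hS'per : ∀ s s' : S, (s : G) - s' ∈ S' → (s ∈ A₁ ↔ s' ∈ A₁) := by
    rintro s s' ⟨t, ht, e⟩
    have e1 : s = s' + N₀ • (⟨t, ht⟩ : S) := by
      apply Subtype.ext
      show (s : G) = (s' : G) + N₀ • t
      have e2 : N₀ • t = (s : G) - s' := e
      rw [e2]
      abel
    have := hper ⟨t, ht⟩ s'
    rw [← e1] at this
    exact mem_iff_of_ind_eq this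
  obtain ⟨m, hm, hmv⟩ := exists_m hG S'
  set L : AddSubgroup G := (nsmulAddMonoidHom m : G →+ G).range ⊔ S' with hL
  have hmL : ∀ y : G, m • y ∈ L := fun y =>
    (le_sup_left : (nsmulAddMonoidHom m : G →+ G).range ≤ L) ⟨y, rfl⟩
  have hLS : ∀ x ∈ L, x ∈ S → x ∈ S' := by
    intro x hx hxS
    rw [hL, AddSubgroup.mem_sup] at hx
    obtain ⟨u, ⟨y, rfl⟩, s', hs', rfl⟩ := hx
    have h1 : (nsmulAddMonoidHom m) y ∈ S := by
      have := S.sub_mem hxS (hS'le hs')
      rwa [add_sub_cancel_right] at this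
    have h2 : (N₀ * m) • y ∈ S' := by
      rw [mul_smul]
      exact ⟨_, h1, rfl⟩
    have h3 := hmv y (N₀ * m) (Nat.mul_pos hN₀ hm) h2
    exact S'.add_mem h3 hs'
  set E : AddSubgroup G := L ⊔ S with hE
  have hLE : L ≤ E := le_sup_left
  have hSE : S ≤ E := le_sup_right
  let rep : G → G := fun x => Quotient.out (QuotientAddGroup.mk x : G ⧸ E)
  have hrep : ∀ x, x - rep x ∈ E := by
    intro x
    have h1 : (QuotientAddGroup.mk (rep x) : G ⧸ E) = QuotientAddGroup.mk x :=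
      QuotientAddGroup.out_eq' _
    have h2 := QuotientAddGroup.eq.mp h1
    rwa [neg_add_eq_sub] at h2
  have hrepeq : ∀ x y, x - y ∈ E → rep x = rep y := by
    intro x y h
    have h1 : (QuotientAddGroup.mk x : G ⧸ E) = QuotientAddGroup.mk y := by
      rw [QuotientAddGroup.eq]
      have := E.neg_mem h
      rwa [neg_sub, sub_eq_neg_add] at this
    show Quotient.out _ = Quotient.out _
    rw [h1]
  set A₂ : Set G := {x | ∃ l ∈ L, ∃ s : S, x - rep x = l + s ∧ s ∈ A₁} with hA₂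
  have key : ∀ {x l : G} {s : S}, l ∈ L → x - rep x = l + s → (x ∈ A₂ ↔ s ∈ A₁) := by
    intro x l s hl hx
    constructor
    · rintro ⟨l', hl', s', e', hs'⟩
      have e2 : (s : G) - s' = l' - l := by
        have : l + (s : G) = l' + s' := hx.symm.trans e'
        rw [sub_eq_sub_iff_add_eq_add]
        rw [add_comm (s : G), this, add_comm]
      have h1 : (s : G) - s' ∈ S' := by
        refine hLS _ ?_ (S.sub_mem s.2 s'.2)
        rw [e2]
        exact L.sub_mem hl' hl
      exact (hS'per s s' h1).mpr hs'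
    · intro hs
      exact ⟨l, hl, s, hx, hs⟩
  refine ⟨A₂, countOne_of_sum fun z => ?_, m, hm, fun y x => ?_⟩
  · set x := z - f₀ with hx
    obtain ⟨l, hl, s, hs, e⟩ := AddSubgroup.mem_sup.mp (hrep x)
    set s₁ : S := ⟨s, hs⟩ with hs₁
    have e₁ : ∀ y : {x // x ∈ F}, ind ℝ A₂ (z - y.1) = ind ℝ A₁ (s₁ - φ y) := by
      intro y
      refine ind_eq_iff ?_
      have hz : z - y.1 = x - (φ y : S) := by
        rw [hφ, hx]
        abel
      have hrp : rep (z - y.1) = rep x := by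
        refine hrepeq _ _ ?_
        rw [hz, sub_sub_cancel_left]
        exact E.neg_mem (hSE (φ y).2)
      refine key hl ?_
      rw [hrp, hz]
      have e5 : x - (φ y : G) - rep x = (x - rep x) - (φ y : G) := by abel
      rw [e5, ← e]
      show l + s - (φ y : G) = l + (s - (φ y : G))
      abel
    rw [← Finset.sum_attach F (fun f => ind ℝ A₂ (z - f))]
    rw [Finset.sum_congr rfl fun y _ => e₁ y]
    exact hA₁sum s₁
  · refine ind_eq_iff ?_
    obtain ⟨l, hl, s, hs, e⟩ := AddSubgroup.mem_sup.mp (hrep x)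
    have hrp : rep (x + m • y) = rep x := by
      refine hrepeq _ _ ?_
      rw [add_sub_cancel_left]
      exact hLE (hmL y)
    set s₁ : S := ⟨s, hs⟩ with hs₁
    have h1 : x + m • y ∈ A₂ ↔ s₁ ∈ A₁ := by
      refine key (l := l + m • y) (L.add_mem hl (hmL y)) ?_
      rw [hrp]
      have e2 : x - rep x = l + s := e.symm
      show x + m • y - rep x = l + m • y + s
      have e5 : x + m • y - rep x = (x - rep x) + m • y := by abel
      rw [e5, e2]
      abel
    have h2 : x ∈ A₂ ↔ s₁ ∈ A₁ := key hl e.symm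
    rw [h1, h2]

end Vale.Agent.P043Six
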