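import Vale.Agent.P043Six.Rec

open scoped BigOperators

namespace Vale.Agent.P043Six

variable {G : Type*} [AddCommGroup G]

/-- The rational circle. -/
abbrev Circ := AddCircle (1 : ℚ)

lemma circ_torsion (c : Circ) : ∃ M : ℕ, 0 < M ∧ M • c = 0 := by
  induction c using QuotientAddGroup.induction_on with
  | H q =>
    refine ⟨q.den, q.den_pos, ?_⟩
    rw [← QuotientAddGroup.mk_nsmul, AddCircle.coe_eq_zero_iff]
    refine ⟨q.num, ?_⟩
    simp only [zsmul_eq_mul, mul_one, nsmul_eq_mul]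
    rw [Rat.den_mul_eq_num]

lemma uniform_of_torsion (hG : AddGroup.FG G) (K : AddSubgroup G)
    (h : ∀ y, ∃ M : ℕ, 0 < M ∧ M • y ∈ K) : ∃ N : ℕ, 0 < N ∧ ∀ y, N • y ∈ K := by
  classical
  obtain ⟨s, hs⟩ := (AddGroup.fg_def.mp hG)
  choose M hM0 hM using h
  refine ⟨∏ g ∈ s, M g, Finset.prod_pos fun g _ => hM0 g, fun y => ?_⟩
  have hle : AddSubgroup.closure (s : Set G) ≤ K.comap (nsmulAddMonoidHom (∏ g ∈ s, M g)) := by
    rw [AddSubgroup.closure_le]
    intro g hg
    have hg' : g ∈ s := hg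
    show (∏ g ∈ s, M g) • g ∈ K
    rw [← Finset.mul_prod_erase s M hg', mul_comm, mul_smul]
    exact K.nsmul_mem (hM g) _
  rw [hs] at hle
  exact hle (AddSubgroup.mem_top y)

/-- A transversal of a subgroup of the circle. -/
def transv (S : AddSubgroup Circ) : Set Circ :=
  {c | c = Quotient.out (QuotientAddGroup.mk c : Circ ⧸ S)}

lemma transv_exists (S : AddSubgroup Circ) (c : Circ) : ∃ s ∈ S, c - s ∈ transv S := by
  set i := Quotient.out (QuotientAddGroup.mk c : Circ ⧸ S) with hi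
  have h1 : (QuotientAddGroup.mk i : Circ ⧸ S) = QuotientAddGroup.mk c :=
    QuotientAddGroup.out_eq' _
  refine ⟨c - i, ?_, ?_⟩
  · have := QuotientAddGroup.eq.mp h1
    rwa [neg_add_eq_sub] at this
  · rw [sub_sub_cancel]
    show i = Quotient.out (QuotientAddGroup.mk i : Circ ⧸ S)
    rw [h1]

lemma transv_unique (S : AddSubgroup Circ) {c s s' : Circ} (hs : s ∈ S) (hs' : s' ∈ S)
    (h : c - s ∈ transv S) (h' : c - s' ∈ transv S) : s = s' := by
  have e1 : (QuotientAddGroup.mk (c - s) : Circ ⧸ S) = QuotientAddGroup.mk c := by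
    rw [QuotientAddGroup.eq]
    simpa using hs
  have e2 : (QuotientAddGroup.mk (c - s') : Circ ⧸ S) = QuotientAddGroup.mk c := by
    rw [QuotientAddGroup.eq]
    simpa using hs'
  have h1 : c - s = Quotient.out (QuotientAddGroup.mk (c - s) : Circ ⧸ S) := h
  have h2 : c - s' = Quotient.out (QuotientAddGroup.mk (c - s') : Circ ⧸ S) := h'
  rw [e1] at h1
  rw [e2] at h2
  have := h1.trans h2.symm
  exact sub_right_injective this

lemma pair_exact {τ : Circ} (h0 : τ ≠ 0) (h2 : 2 • τ = 0) (c : Circ) :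
    (c ∈ transv (AddSubgroup.zmultiples τ) ∧ c - τ ∉ transv (AddSubgroup.zmultiples τ)) ∨
    (c ∉ transv (AddSubgroup.zmultiples τ) ∧ c - τ ∈ transv (AddSubgroup.zmultiples τ)) := by
  set S := AddSubgroup.zmultiples τ with hS
  have hmem : ∀ s ∈ S, s = 0 ∨ s = τ := by
    intro s hs
    obtain ⟨k, rfl⟩ := AddSubgroup.mem_zmultiples_iff.mp hs
    have h2' : (2 : ℤ) • τ = 0 := by
      rw [show (2 : ℤ) = ((2 : ℕ) : ℤ) by rfl, natCast_zsmul, h2]
    have hk : k = 2 * (k / 2) + k % 2 := (Int.mul_ediv_add_emod k 2).symm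
    rcases Int.emod_two_eq_zero_or_one k with h | h
    · left
      rw [hk, h, add_zero, mul_comm, mul_smul, h2', smul_zero]
    · right
      rw [hk, h, add_smul, mul_comm, mul_smul, h2', smul_zero, zero_add, one_smul]
  have h0S : (0 : Circ) ∈ S := S.zero_mem
  have hτS : τ ∈ S := AddSubgroup.mem_zmultiples τ
  obtain ⟨s, hs, hc⟩ := transv_exists S c
  rcases hmem s hs with rfl | rfl
  · left
    rw [sub_zero] at hc
    refine ⟨hc, fun hc' => ?_⟩
    have := transv_unique S h0S hτS (by rwa [sub_zero]) hc'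
    exact h0 this.symm
  · right
    refine ⟨fun hc' => ?_, hc⟩
    have := transv_unique S h0S hτS (by rwa [sub_zero]) hc
    exact h0 this.symm

lemma triple_exact {σ σ' : Circ} (h0 : σ ≠ 0) (h3 : 3 • σ = 0) (hσ : σ' = σ ∨ σ' = -σ) (c : Circ) :
    (c ∈ transv (AddSubgroup.zmultiples σ) ∧ c - σ' ∉ transv (AddSubgroup.zmultiples σ) ∧
      c + σ' ∉ transv (AddSubgroup.zmultiples σ)) ∨
    (c ∉ transv (AddSubgroup.zmultiples σ) ∧ c - σ' ∈ transv (AddSubgroup.zmultiples σ) ∧
      c + σ' ∉ transv (AddSubgroup.zmultiples σ)) ∨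
    (c ∉ transv (AddSubgroup.zmultiples σ) ∧ c - σ' ∉ transv (AddSubgroup.zmultiples σ) ∧
      c + σ' ∈ transv (AddSubgroup.zmultiples σ)) := by
  set S := AddSubgroup.zmultiples σ with hS
  have h3' : (3 : ℤ) • σ = 0 := by
    rw [show (3 : ℤ) = ((3 : ℕ) : ℤ) by rfl, natCast_zsmul, h3]
  have hmem0 : ∀ s ∈ S, s = 0 ∨ s = σ ∨ s = -σ := by
    intro s hs
    obtain ⟨k, rfl⟩ := AddSubgroup.mem_zmultiples_iff.mp hs
    have hk : k = 3 * (k / 3) + k % 3 := (Int.mul_ediv_add_emod k 3).symm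
    have hr : k % 3 = 0 ∨ k % 3 = 1 ∨ k % 3 = 2 := by omega
    rcases hr with h | h | h
    · left
      rw [hk, h, add_zero, mul_comm, mul_smul, h3', smul_zero]
    · right; left
      rw [hk, h, add_smul, mul_comm, mul_smul, h3', smul_zero, zero_add, one_smul]
    · right; right
      rw [hk, h, add_smul, mul_comm, mul_smul, h3', smul_zero, zero_add]
      have : (2 : ℤ) • σ + σ = 0 := by
        rw [← h3', show (3 : ℤ) = 2 + 1 by rfl, add_smul, one_smul]
      exact eq_neg_of_add_eq_zero_left this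
  have hne : σ ≠ -σ := by
    intro h
    have h1 : (2 : ℤ) • σ = 0 := by
      rw [two_zsmul]
      nth_rewrite 1 [h]
      simp
    apply h0
    have h4 : (3 : ℤ) • σ = (2 : ℤ) • σ + σ := by
      rw [show (3 : ℤ) = 2 + 1 by rfl, add_smul, one_smul]
    rw [h3', h1, zero_add] at h4
    exact h4.symm
  -- the three elements
  have hS0 : (0 : Circ) ∈ S := S.zero_mem
  have hS1 : σ' ∈ S := by
    rcases hσ with rfl | rfl
    · exact AddSubgroup.mem_zmultiples _
    · exact S.neg_mem (AddSubgroup.mem_zmultiples _)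
  have hS2 : -σ' ∈ S := S.neg_mem hS1
  have hmem : ∀ s ∈ S, s = 0 ∨ s = σ' ∨ s = -σ' := by
    intro s hs
    rcases hσ with rfl | rfl
    · exact hmem0 s hs
    · rw [neg_neg]
      rcases hmem0 s hs with h | h | h
      · exact Or.inl h
      · exact Or.inr (Or.inr h)
      · exact Or.inr (Or.inl h)
  have h0' : σ' ≠ 0 := by
    rcases hσ with rfl | rfl
    · exact h0
    · simpa using h0
  have hne' : σ' ≠ -σ' := by
    rcases hσ with rfl | rfl
    · exact hne
    · rw [neg_neg]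
      exact fun h => hne h.symm
  have h0'' : -σ' ≠ 0 := by simpa using h0'
  have e0 : ∀ {a : Circ}, a ∈ transv S → a - 0 ∈ transv S := by
    intro a ha
    rwa [sub_zero]
  have e1 : ∀ {a : Circ}, a + σ' ∈ transv S → a - (-σ') ∈ transv S := by
    intro a ha
    rwa [sub_neg_eq_add]
  obtain ⟨s, hs, hc⟩ := transv_exists S c
  rcases hmem s hs with rfl | rfl | rfl
  · left
    rw [sub_zero] at hc
    refine ⟨hc, fun hc' => ?_, fun hc' => ?_⟩
    · exact h0' (transv_unique S hS0 hS1 (e0 hc) hc').symm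
    · exact h0'' (transv_unique S hS0 hS2 (e0 hc) (e1 hc')).symm
  · right; left
    refine ⟨fun hc' => ?_, hc, fun hc' => ?_⟩
    · exact h0' (transv_unique S hS0 hS1 (e0 hc') hc).symm
    · exact hne' (transv_unique S hS1 hS2 hc (e1 hc'))
  · right; right
    rw [sub_neg_eq_add] at hc
    refine ⟨fun hc' => ?_, fun hc' => ?_, hc⟩
    · exact h0'' (transv_unique S hS0 hS2 (e0 hc') (e1 hc)).symm
    · exact hne' (transv_unique S hS1 hS2 hc' (e1 hc))

/-- The tile set attached to a subgroup, a character and a subgroup of the circle. -/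
def tileSet (K : AddSubgroup G) (z : G →+ Circ) (S : AddSubgroup Circ) : Set G :=
  {x | x ∈ K ∧ z x ∈ transv S}

lemma ind_tileSet_of_not_mem {K : AddSubgroup G} {z : G →+ Circ} {S : AddSubgroup Circ} {x : G}
    (h : x ∉ K) : ind ℝ (tileSet K z S) x = 0 := by
  classical
  unfold ind
  rw [if_neg]
  exact fun h' => h h'.1

open Classical in
lemma ind_tileSet_of_mem {K : AddSubgroup G} {z : G →+ Circ} {S : AddSubgroup Circ} {x : G}
    (h : x ∈ K) : ind ℝ (tileSet K z S) x = if z x ∈ transv S then 1 else 0 := by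
  unfold ind
  by_cases hz : z x ∈ transv S
  · rw [if_pos hz, if_pos (show x ∈ tileSet K z S from ⟨h, hz⟩)]
  · rw [if_neg hz, if_neg (show x ∉ tileSet K z S from fun h' => hz h'.2)]

lemma ind_eq_of_iff {k : Type*} [CommRing k] {A : Set G} {x y : G} (h : x ∈ A ↔ y ∈ A) :
    ind k A x = ind k A y := by
  classical
  unfold ind
  simp only [h]

/-- The tiles admitting a periodic tiling. -/
def PerTile (F : Finset G) : Prop :=
  ∃ A : Set G, CountOne A F 1 ∧ Per (ind ℝ A)

lemma countOne_of_sum {A : Set G} {F : Finset G} (h : ∀ x, ∑ f ∈ F, ind ℝ A (x - f) = 1) :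
    CountOne A F 1 := by
  classical
  intro x
  have h1 := sum_ind ℝ A F 1 x
  rw [act_dilk_apply] at h1
  simp only [one_smul] at h1
  rw [h x] at h1
  simp only [one_smul]
  exact_mod_cast h1.symm

lemma per_ind_tileSet (hG : AddGroup.FG G) (K : AddSubgroup G) (z : G →+ Circ)
    (S : AddSubgroup Circ) (hK : ∀ y, ∃ M : ℕ, 0 < M ∧ M • y ∈ K) :
    Per (ind ℝ (tileSet K z S)) := by
  classical
  obtain ⟨N, hN, hNy⟩ := uniform_of_torsion hG (K ⊓ z.ker) (by
    intro y
    obtain ⟨M, hM, hMy⟩ := hK y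
    obtain ⟨M', hM', hz⟩ := circ_torsion (z (M • y))
    refine ⟨M' * M, Nat.mul_pos hM' hM, ?_⟩
    rw [AddSubgroup.mem_inf, mul_smul]
    refine ⟨K.nsmul_mem hMy _, ?_⟩
    rw [AddMonoidHom.mem_ker, map_nsmul]
    exact hz)
  refine ⟨N, hN, fun y x => ?_⟩
  have hy := hNy y
  rw [AddSubgroup.mem_inf, AddMonoidHom.mem_ker] at hy
  refine ind_eq_of_iff ?_
  have h1 : x + N • y ∈ K ↔ x ∈ K := by
    constructor
    · intro h
      have := K.sub_mem h hy.1
      rwa [add_sub_cancel_right] at this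
    · intro h
      exact K.add_mem h hy.1
  have h2 : z (x + N • y) = z x := by
    rw [map_add, hy.2, add_zero]
  show (x + N • y ∈ K ∧ z (x + N • y) ∈ transv S) ↔ (x ∈ K ∧ z x ∈ transv S)
  rw [h2, h1]

open Classical in
/-- Six distinct explicit elements form the tile. -/
def IsSix (F : Finset G) (a b c d e f : G) : Prop :=
  F = {a, b, c, d, e, f} ∧ [a, b, c, d, e, f].Nodup

lemma IsSix.sum {F : Finset G} {a b c d e f : G} (h : IsSix F a b c d e f)
    {M : Type*} [AddCommMonoid M] (φ : G → M) :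
    ∑ x ∈ F, φ x = φ a + φ b + φ c + φ d + φ e + φ f := by
  classical
  obtain ⟨rfl, hn⟩ := h
  simp only [List.nodup_cons, List.mem_cons, List.not_mem_nil, or_false, not_or,
    List.nodup_nil, not_false_eq_true, and_true] at hn
  obtain ⟨⟨h1, h2, h3, h4, h5⟩, ⟨h6, h7, h8, h9⟩, ⟨h10, h11, h12⟩, ⟨h13, h14⟩, h15⟩ := hn
  rw [Finset.sum_insert (by simp [h1, h2, h3, h4, h5]),
    Finset.sum_insert (by simp [h6, h7, h8, h9]),
    Finset.sum_insert (by simp [h10, h11, h12]),
    Finset.sum_insert (by simp [h13, h14]),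
    Finset.sum_insert (by simp [h15]),
    Finset.sum_singleton]
  simp only [add_assoc]

lemma IsSix.mem {F : Finset G} {a b c d e f : G} (h : IsSix F a b c d e f) {x : G} :
    x ∈ F ↔ x = a ∨ x = b ∨ x = c ∨ x = d ∨ x = e ∨ x = f := by
  classical
  obtain ⟨rfl, -⟩ := h
  simp

lemma IsSix.perm {F : Finset G} {a b c d e f a' b' c' d' e' f' : G} (h : IsSix F a b c d e f)
    (hp : [a, b, c, d, e, f].Perm [a', b', c', d', e', f']) : IsSix F a' b' c' d' e' f' := by
  classical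
  refine ⟨?_, hp.nodup_iff.mp h.2⟩
  ext x
  rw [h.mem]
  have := hp.mem_iff (a := x)
  simp only [List.mem_cons, List.not_mem_nil, or_false] at this
  rw [this]
  simp

lemma IsSix.card {F : Finset G} {a b c d e f : G} (h : IsSix F a b c d e f) : F.card = 6 := by
  classical
  have := h.sum (M := ℕ) (fun _ => 1)
  simpa using this

/-- Tile built from three pairs. -/
lemma perTile_pairs (hG : AddGroup.FG G) {F : Finset G} {t₁ t₁' t₂ t₂' t₃ t₃' : G}
    (hF : IsSix F t₁ t₁' t₂ t₂' t₃ t₃') (K : AddSubgroup G) (z : G →+ Circ) {τ : Circ}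
    (h0 : τ ≠ 0) (h2 : 2 • τ = 0)
    (hk1 : t₁' - t₁ ∈ K) (hk2 : t₂' - t₂ ∈ K) (hk3 : t₃' - t₃ ∈ K)
    (hz1 : z (t₁' - t₁) = τ) (hz2 : z (t₂' - t₂) = τ) (hz3 : z (t₃' - t₃) = τ)
    (h12 : t₁ - t₂ ∉ K) (h13 : t₁ - t₃ ∉ K) (h23 : t₂ - t₃ ∉ K)
    (hcov : ∀ x, x - t₁ ∈ K ∨ x - t₂ ∈ K ∨ x - t₃ ∈ K)
    (hK : ∀ y, ∃ M : ℕ, 0 < M ∧ M • y ∈ K) : PerTile F := by
  classical
  set S := AddSubgroup.zmultiples τ with hS
  set A := tileSet K z S with hA
  refine ⟨A, countOne_of_sum fun x => ?_, per_ind_tileSet hG K z S hK⟩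
  have block : ∀ {t t' : G}, t' - t ∈ K → z (t' - t) = τ →
      (x - t ∈ K → ind ℝ A (x - t) + ind ℝ A (x - t') = 1) ∧
      (x - t ∉ K → ind ℝ A (x - t) + ind ℝ A (x - t') = 0) := by
    intro t t' hk hz
    have e : x - t' = (x - t) - (t' - t) := by abel
    constructor
    · intro hx
      have e' : z (x - t') = z (x - t) - τ := by
        rw [e, map_sub z (x - t) (t' - t), hz]
      rw [ind_tileSet_of_mem hx, ind_tileSet_of_mem (by rw [e]; exact K.sub_mem hx hk), e']
      rcases pair_exact h0 h2 (z (x - t)) with ⟨h1, h1'⟩ | ⟨h1, h1'⟩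
      · rw [if_pos h1, if_neg h1', add_zero]
      · rw [if_neg h1, if_pos h1', zero_add]
    · intro hx
      rw [ind_tileSet_of_not_mem hx, ind_tileSet_of_not_mem, add_zero]
      intro hx'
      apply hx
      have := K.add_mem hx' hk
      rwa [e, sub_add_cancel] at this
  rw [hF.sum]
  have hneg : ∀ {a b : G}, a - b ∉ K → x - a ∈ K → x - b ∉ K := by
    intro a b hab hxa hxb
    apply hab
    have := K.sub_mem hxb hxa
    rwa [show x - b - (x - a) = a - b by abel] at this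
  have hneg' : ∀ {a b : G}, a - b ∉ K → x - b ∈ K → x - a ∉ K := by
    intro a b hab hxb hxa
    exact hneg hab hxa hxb
  have b1 := block hk1 hz1
  have b2 := block hk2 hz2
  have b3 := block hk3 hz3
  rcases hcov x with hx | hx | hx
  · have e1 := b1.1 hx
    have e2 := b2.2 (hneg h12 hx)
    have e3 := b3.2 (hneg h13 hx)
    linarith
  · have e1 := b1.2 (hneg' h12 hx)
    have e2 := b2.1 hx
    have e3 := b3.2 (hneg h23 hx)
    linarith
  · have e1 := b1.2 (hneg' h13 hx)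
    have e2 := b2.2 (hneg' h23 hx)
    have e3 := b3.1 hx
    linarith

/-- Tile built from two triples. -/
lemma perTile_triples (hG : AddGroup.FG G) {F : Finset G} {t₁ a₁ b₁ t₂ a₂ b₂ : G}
    (hF : IsSix F t₁ a₁ b₁ t₂ a₂ b₂) (K : AddSubgroup G) (z : G →+ Circ) {σ σ₁ σ₂ : Circ}
    (h0 : σ ≠ 0) (h3 : 3 • σ = 0) (hσ₁ : σ₁ = σ ∨ σ₁ = -σ) (hσ₂ : σ₂ = σ ∨ σ₂ = -σ)
    (hk1 : a₁ - t₁ ∈ K) (hk1' : b₁ - t₁ ∈ K) (hk2 : a₂ - t₂ ∈ K) (hk2' : b₂ - t₂ ∈ K)
    (hz1 : z (a₁ - t₁) = σ₁) (hz1' : z (b₁ - t₁) = -σ₁)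
    (hz2 : z (a₂ - t₂) = σ₂) (hz2' : z (b₂ - t₂) = -σ₂)
    (h12 : t₁ - t₂ ∉ K)
    (hcov : ∀ x, x - t₁ ∈ K ∨ x - t₂ ∈ K)
    (hK : ∀ y, ∃ M : ℕ, 0 < M ∧ M • y ∈ K) : PerTile F := by
  classical
  set S := AddSubgroup.zmultiples σ with hS
  set A := tileSet K z S with hA
  refine ⟨A, countOne_of_sum fun x => ?_, per_ind_tileSet hG K z S hK⟩
  have block : ∀ {t a b : G} {σ' : Circ}, (σ' = σ ∨ σ' = -σ) → a - t ∈ K → b - t ∈ K →
      z (a - t) = σ' → z (b - t) = -σ' →
      (x - t ∈ K → ind ℝ A (x - t) + ind ℝ A (x - a) + ind ℝ A (x - b) = 1) ∧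
      (x - t ∉ K → ind ℝ A (x - t) + ind ℝ A (x - a) + ind ℝ A (x - b) = 0) := by
    intro t a b σ' hσ' hka hkb hza hzb
    have ea : x - a = (x - t) - (a - t) := by abel
    have eb : x - b = (x - t) - (b - t) := by abel
    constructor
    · intro hx
      have ea' : z (x - a) = z (x - t) - σ' := by
        rw [ea, map_sub z (x - t) (a - t), hza]
      have eb' : z (x - b) = z (x - t) + σ' := by
        rw [eb, map_sub z (x - t) (b - t), hzb, sub_neg_eq_add]
      rw [ind_tileSet_of_mem hx, ind_tileSet_of_mem (by rw [ea]; exact K.sub_mem hx hka),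
        ind_tileSet_of_mem (by rw [eb]; exact K.sub_mem hx hkb), ea', eb']
      rcases triple_exact h0 h3 hσ' (z (x - t)) with ⟨h1, h1', h1''⟩ | ⟨h1, h1', h1''⟩ |
        ⟨h1, h1', h1''⟩
      · rw [if_pos h1, if_neg h1', if_neg h1'']
        norm_num
      · rw [if_neg h1, if_pos h1', if_neg h1'']
        norm_num
      · rw [if_neg h1, if_neg h1', if_pos h1'']
        norm_num
    · intro hx
      rw [ind_tileSet_of_not_mem hx, ind_tileSet_of_not_mem, ind_tileSet_of_not_mem]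
      · norm_num
      · intro hx'
        apply hx
        have := K.add_mem hx' hkb
        rwa [eb, sub_add_cancel] at this
      · intro hx'
        apply hx
        have := K.add_mem hx' hka
        rwa [ea, sub_add_cancel] at this
  rw [hF.sum]
  have b1 := block hσ₁ hk1 hk1' hz1 hz1'
  have b2 := block hσ₂ hk2 hk2' hz2 hz2'
  rcases hcov x with hx | hx
  · have e1 := b1.1 hx
    have e2 := b2.2 (fun hxb => h12 (by
      have := K.sub_mem hxb hx
      rwa [show x - t₂ - (x - t₁) = t₁ - t₂ by abel] at this))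
    linarith
  · have e1 := b1.2 (fun hxa => h12 (by
      have := K.sub_mem hx hxa
      rwa [show x - t₂ - (x - t₁) = t₁ - t₂ by abel] at this))
    have e2 := b2.1 hx
    linarith

end Vale.Agent.P043Six
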